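import Vale.Agent.P111.R2.H351.Defs
import Vale.Agent.P111.L1.Core

/-! Averages on the cube. -/

namespace Vale.Agent.P111.R2.H351

open Vale.Agent.P111 Vale.Agent.P111.L1

section avg

variable {Ω Ω' E F : Type*} [Fintype Ω] [Fintype Ω'] [AddCommGroup E] [Module ℝ E]
  [AddCommGroup F] [Module ℝ F]

theorem av_congr {f g : Ω → E} (h : ∀ ω, f ω = g ω) : avg f = avg g := by
  rw [funext h]

theorem av_add (f g : Ω → E) : (avg fun ω => f ω + g ω) = avg f + avg g := by
  simp [avg, Finset.sum_add_distrib, smul_add]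

theorem av_sub (f g : Ω → E) : (avg fun ω => f ω - g ω) = avg f - avg g := by
  simp [avg, Finset.sum_sub_distrib, smul_sub]

theorem av_zero : (avg fun _ : Ω => (0 : E)) = 0 := by
  simp [avg]

theorem av_smul (c : ℝ) (f : Ω → E) : (avg fun ω => c • f ω) = c • avg f := by
  simp only [avg, ← Finset.smul_sum]
  rw [smul_comm]

theorem av_mul (c : ℝ) (f : Ω → ℝ) : (avg fun ω => c * f ω) = c * avg f := av_smul c f

theorem av_sum {ι : Type*} (s : Finset ι) (f : ι → Ω → E) :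
    (avg fun ω => ∑ i ∈ s, f i ω) = ∑ i ∈ s, avg (f i) := by
  simp only [avg]
  rw [Finset.sum_comm, Finset.smul_sum]

theorem av_const [Nonempty Ω] (c : E) : (avg fun _ : Ω => c) = c := by
  simp only [avg, Finset.sum_const, Finset.card_univ]
  rw [← Nat.cast_smul_eq_nsmul ℝ, smul_smul, inv_mul_cancel₀, one_smul]
  exact_mod_cast Fintype.card_ne_zero

theorem av_comm (f : Ω → Ω' → E) :
    (avg fun ω => avg fun ω' => f ω ω') = avg fun ω' => avg fun ω => f ω ω' := by
  simp only [avg, ← Finset.smul_sum]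
  rw [Finset.sum_comm, smul_comm]

theorem map_av (L : E →ₗ[ℝ] F) (f : Ω → E) : L (avg f) = avg fun ω => L (f ω) := by
  simp [avg, map_sum]

theorem av_equiv (e : Ω ≃ Ω') (f : Ω' → E) : (avg fun ω => f (e ω)) = avg f := by
  simp only [avg]
  rw [e.sum_comp, Fintype.card_congr e]

theorem av_prod (f : Ω × Ω' → E) :
    avg f = avg fun ω => avg fun ω' => f (ω, ω') := by
  simp only [avg, Fintype.card_prod, Fintype.sum_prod_type, ← Finset.smul_sum, smul_smul]
  congr 1
  push_cast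
  rw [mul_inv]

theorem norm_av_le {E : Type*} [NormedAddCommGroup E] [NormedSpace ℝ E] (f : Ω → E) :
    ‖avg f‖ ≤ avg fun ω => ‖f ω‖ := by
  simp only [avg, smul_eq_mul]
  rw [norm_smul, Real.norm_of_nonneg (by positivity)]
  exact mul_le_mul_of_nonneg_left (norm_sum_le _ _) (by positivity)

end avg

theorem av_units (f : ℤˣ → ℝ) : avg f = (f 1 + f (-1)) / 2 := by
  have h : (Finset.univ : Finset ℤˣ) = {1, -1} := by decide
  rw [avg, h, Finset.sum_pair (by decide)]
  simp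
  ring

theorem sg_mul_self (u : ℤˣ) : sg u * sg u = 1 := by
  rcases Int.units_eq_one_or u with h | h <;> simp [h, sg]

/-- `E ε_i ε_j = δ_ij`. -/
theorem av_sg_mul_sg {n : ℕ} (i j : Fin n) :
    (avg fun ε : Fin n → ℤˣ => sg (ε i) * sg (ε j)) = if i = j then 1 else 0 := by
  classical
  split_ifs with h
  · subst h
    simp only [sg_mul_self]
    exact av_const 1
  · -- flip the sign of coordinate `i`
    let e : (Fin n → ℤˣ) ≃ (Fin n → ℤˣ) := Equiv.mulLeft (Function.update 1 i (-1))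
    have h1 := av_equiv e (fun ε : Fin n → ℤˣ => sg (ε i) * sg (ε j))
    have h2 : ∀ ε : Fin n → ℤˣ, sg ((e ε) i) * sg ((e ε) j) = -1 * (sg (ε i) * sg (ε j)) := by
      intro ε
      have hi : (e ε) i = - ε i := by simp [e]
      have hj : (e ε) j = ε j := by simp [e, Function.update_of_ne (Ne.symm h)]
      rw [hi, hj]
      simp [sg]
    rw [av_congr h2, av_mul] at h1
    linarith

section rad

variable {Z : Type*} [NormedAddCommGroup Z] [NormedSpace ℝ Z] {n : ℕ}

theorem rad_eq (f : (Fin n → ℤˣ) → Z) (ε : Fin n → ℤˣ) :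
    rad f ε = ∑ i, sg (ε i) • coef f i := rfl

theorem coef_add (f g : (Fin n → ℤˣ) → Z) (i : Fin n) :
    coef (fun ε => f ε + g ε) i = coef f i + coef g i := by
  simp only [coef, smul_add]
  exact av_add _ _

theorem coef_smul (c : ℝ) (f : (Fin n → ℤˣ) → Z) (i : Fin n) :
    coef (fun ε => c • f ε) i = c • coef f i := by
  simp only [coef]
  rw [← av_smul]
  exact av_congr fun ε => smul_comm _ _ _

/-- The coefficients of a Rademacher sum. -/
theorem coef_sum (z : Fin n → Z) (i : Fin n) :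
    coef (fun ε : Fin n → ℤˣ => ∑ j, sg (ε j) • z j) i = z i := by
  simp only [coef, Finset.smul_sum, smul_smul]
  rw [av_sum]
  have h : ∀ j, (avg fun ε : Fin n → ℤˣ => (sg (ε i) * sg (ε j)) • z j) =
      (if i = j then (1 : ℝ) else 0) • z j := by
    intro j
    rw [← av_sg_mul_sg i j]
    exact (map_av (LinearMap.toSpanSingleton ℝ Z (z j)) _).symm
  simp_rw [h]
  simp

theorem coef_map {W : Type*} [NormedAddCommGroup W] [NormedSpace ℝ W] (J : Z →ₗ[ℝ] W)
    (f : (Fin n → ℤˣ) → Z) (i : Fin n) : coef (fun ε => J (f ε)) i = J (coef f i) := by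
  simp only [coef]
  rw [map_av]
  simp

theorem rad_map {W : Type*} [NormedAddCommGroup W] [NormedSpace ℝ W] (J : Z →ₗ[ℝ] W)
    (f : (Fin n → ℤˣ) → Z) (ε : Fin n → ℤˣ) : rad (fun ε => J (f ε)) ε = J (rad f ε) := by
  simp only [rad_eq, coef_map, map_sum, map_smul]

theorem norm_coef_le (f : (Fin n → ℤˣ) → Z) (i : Fin n) : ‖coef f i‖ ≤ avg fun ε => ‖f ε‖ := by
  refine (norm_av_le _).trans (le_of_eq (av_congr fun ε => ?_))
  rw [norm_smul, Real.norm_eq_abs, abs_sg, one_mul]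

end rad

/-- The `L_1` average is at most the `L_2` average. -/
theorem av_le_sqrt {Ω : Type*} [Fintype Ω] [Nonempty Ω] (f : Ω → ℝ) :
    avg f ≤ (avg fun ω => f ω ^ 2) ^ (1 / 2 : ℝ) := by
  rw [← Real.sqrt_eq_rpow]
  refine Real.le_sqrt_of_sq_le ?_
  rw [avg_real, avg_real, mul_pow, sq, mul_assoc]
  refine mul_le_mul_of_nonneg_left ?_ (by positivity)
  have h := sq_sum_le_card_mul_sum_sq (s := (Finset.univ : Finset Ω)) (f := f)
  rw [Finset.card_univ] at h
  have hc : (0 : ℝ) < Fintype.card Ω := by exact_mod_cast Fintype.card_pos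
  rw [inv_mul_le_iff₀ hc]
  exact h

section nrm

variable {Ω Z : Type*} [Fintype Ω] [NormedAddCommGroup Z] [NormedSpace ℝ Z]

/-- The normalised `L_2` norm. -/
noncomputable def nrm2 (f : Ω → Z) : ℝ := (avg fun ω => ‖f ω‖ ^ 2) ^ (1 / 2 : ℝ)

omit [NormedSpace ℝ Z] in
theorem nrm2_nonneg (f : Ω → Z) : 0 ≤ nrm2 f :=
  Real.rpow_nonneg (avg_nonneg fun _ => by positivity) _

omit [NormedSpace ℝ Z] in
theorem nrm2_sq (f : Ω → Z) : nrm2 f ^ 2 = avg fun ω => ‖f ω‖ ^ 2 := by
  rw [nrm2, ← Real.sqrt_eq_rpow, Real.sq_sqrt (avg_nonneg fun _ => by positivity)]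

omit [NormedSpace ℝ Z] in
theorem nrm2_mono {W : Type*} [NormedAddCommGroup W] {f : Ω → Z} {g : Ω → W}
    (h : ∀ ω, ‖f ω‖ ≤ ‖g ω‖) : nrm2 f ≤ nrm2 g :=
  Real.rpow_le_rpow (avg_nonneg fun _ => by positivity)
    (avg_mono fun ω => pow_le_pow_left₀ (norm_nonneg _) (h ω) 2) (by norm_num)

omit [NormedSpace ℝ Z] in
theorem nrm2_sum_le {ι : Type*} (s : Finset ι) (f : ι → Ω → Z) :
    nrm2 (fun ω => ∑ i ∈ s, f i ω) ≤ ∑ i ∈ s, nrm2 (f i) := by
  have h := minkowski s (fun i ω => ‖f i ω‖)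
  refine le_trans ?_ h
  refine Real.rpow_le_rpow (avg_nonneg fun _ => by positivity) ?_ (by norm_num)
  exact avg_mono fun ω => pow_le_pow_left₀ (norm_nonneg _) (norm_sum_le _ _) 2

theorem nrm2_smul (c : ℝ) (f : Ω → Z) : nrm2 (fun ω => c • f ω) = |c| * nrm2 f := by
  have h : ∀ ω, ‖c • f ω‖ ^ 2 = c ^ 2 * ‖f ω‖ ^ 2 := by
    intro ω
    rw [norm_smul, mul_pow, Real.norm_eq_abs, sq_abs]
  rw [nrm2, av_congr h, av_mul, Real.mul_rpow (by positivity) (avg_nonneg fun _ => by positivity),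
    ← Real.sqrt_eq_rpow, Real.sqrt_sq_eq_abs, nrm2]

omit [NormedSpace ℝ Z] in
theorem nrm2_add_le (f g : Ω → Z) : nrm2 (fun ω => f ω + g ω) ≤ nrm2 f + nrm2 g := by
  have h := nrm2_sum_le (Finset.univ : Finset Bool) (fun b => if b then f else g)
  simpa using h

end nrm

/-- `RadOne` implies `RadTwo`. -/
theorem RadOne.radTwo {θ C : ℝ} {Z : Type*} [NormedAddCommGroup Z] [NormedSpace ℝ Z]
    (h : RadOne θ C Z) (hC : 0 ≤ C) (hθ : θ ≤ 1) : RadTwo θ C Z := by
  intro n f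
  refine (h n f).trans ?_
  refine mul_le_mul_of_nonneg_left ?_ (by positivity)
  have h1 := av_le_sqrt (fun ε : Fin n → ℤˣ => ‖f ε‖)
  calc (avg fun ε => ‖f ε‖) ^ (1 - θ) ≤ ((avg fun ε => ‖f ε‖ ^ 2) ^ (1 / 2 : ℝ)) ^ (1 - θ) :=
        Real.rpow_le_rpow (avg_nonneg fun _ => norm_nonneg _) h1 (by linarith)
    _ = _ := by
        rw [← Real.rpow_mul (avg_nonneg fun _ => by positivity)]
        congr 1
        ring

end Vale.Agent.P111.R2.H351
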