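import Vale.Agent.P111.R2.H351.Split
import Mathlib.Analysis.CStarAlgebra.ContinuousFunctionalCalculus.Order
import Mathlib.Analysis.CStarAlgebra.ContinuousFunctionalCalculus.Isometric
import Mathlib.Analysis.Complex.Basic

/-! Duals of `C*`-algebras. -/

namespace Vale.Agent.P111.R2.H351

open Vale.Agent.P111 Vale.Agent.P111.L1
open scoped ComplexStarModule

/-- Truncation at level `t`. -/
noncomputable def clampf (t x : ℝ) : ℝ := max (-t) (min x t)

theorem clampf_zero {t : ℝ} (ht : 0 < t) : clampf t 0 = 0 := by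
  rw [clampf, min_eq_left ht.le, max_eq_right (by linarith)]

theorem abs_clampf_le {t : ℝ} (ht : 0 < t) (x : ℝ) : |clampf t x| ≤ t := by
  rw [abs_le, clampf]
  exact ⟨le_max_left _ _, max_le (by linarith) (min_le_right _ _)⟩

theorem continuous_clampf (t : ℝ) : Continuous (clampf t) := by
  unfold clampf
  fun_prop

theorem sub_clampf_le {t : ℝ} (ht : 0 < t) (x : ℝ) :
    x - clampf t x ≤ 1 / (4 * t) * (x * x) := by
  have h4 : 0 < 4 * t := by linarith
  rw [div_mul_eq_mul_div, one_mul, le_div_iff₀ h4, clampf]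
  rcases le_total x t with h | h
  · rw [min_eq_left h]
    rcases le_total (-t) x with h' | h'
    · rw [max_eq_right h', sub_self, zero_mul]
      exact mul_self_nonneg x
    · rw [max_eq_left h']
      have : (x - -t) * (4 * t) ≤ 0 := mul_nonpos_of_nonpos_of_nonneg (by linarith) h4.le
      linarith [mul_self_nonneg x]
  · rw [min_eq_right h, max_eq_right (by linarith)]
    nlinarith [sq_nonneg (x - 2 * t)]

theorem neg_le_sub_clampf {t : ℝ} (ht : 0 < t) (x : ℝ) :
    -(1 / (4 * t) * (x * x)) ≤ x - clampf t x := by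
  have h := sub_clampf_le ht (-x)
  have e : clampf t (-x) = - clampf t x := by
    rw [clampf, clampf, max_def, min_def, max_def, min_def]
    split_ifs <;> linarith
  rw [e] at h
  have h2 : (-x) * (-x) = x * x := by ring
  rw [h2] at h
  linarith

section order

variable {A : Type*} [NonUnitalCStarAlgebra A] [PartialOrder A] [StarOrderedRing A]

/-- A crude comparison of norms for the order. -/
theorem norm_le_of_between {a b : A} (h1 : -b ≤ a) (h2 : a ≤ b) :
    ‖a‖ ≤ 3 * ‖b‖ := by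
  have h3 : 0 ≤ a + b := by
    have := add_le_add_left h1 b
    rwa [neg_add_cancel] at this
  have h4 : a + b ≤ b + b := add_le_add_left h2 b
  have h5 := CStarAlgebra.norm_le_norm_of_nonneg_of_le h3 h4
  have h6 : ‖b + b‖ ≤ 2 * ‖b‖ := by
    refine (norm_add_le b b).trans (le_of_eq ?_)
    ring
  have h7 : ‖a‖ ≤ ‖a + b‖ + ‖b‖ := by
    have := norm_sub_le (a + b) b
    rwa [add_sub_cancel_right] at this
  linarith

theorem soft_spec {h : A} (hh : IsSelfAdjoint h) {t : ℝ} (ht : 0 < t) :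
    ∃ u v : A, h = u + v ∧ ‖v‖ ≤ t ∧ u ≤ (1 / (4 * t)) • (h * h) ∧
      -((1 / (4 * t)) • (h * h)) ≤ u := by
  have hc : ContinuousOn (clampf t) (quasispectrum ℝ h) := (continuous_clampf t).continuousOn
  have hz : clampf t 0 = 0 := clampf_zero ht
  have hsq : cfcₙ (fun x : ℝ => 1 / (4 * t) * (x * x)) h = (1 / (4 * t)) • (h * h) := by
    rw [cfcₙ_const_mul (1 / (4 * t)) (fun x : ℝ => x * x) h, cfcₙ_mul (fun x : ℝ => x)
      (fun x : ℝ => x) h, cfcₙ_id' ℝ h]
  refine ⟨cfcₙ (fun x : ℝ => x - clampf t x) h, cfcₙ (clampf t) h, ?_, ?_, ?_, ?_⟩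
  · rw [cfcₙ_sub (fun x : ℝ => x) (clampf t) h, cfcₙ_id' ℝ h]
    abel
  · refine norm_cfcₙ_le fun x _ => ?_
    rw [Real.norm_eq_abs]
    exact abs_clampf_le ht x
  · rw [← hsq]
    refine cfcₙ_mono (fun x _ => sub_clampf_le ht x) ?_ ?_ ?_ ?_
    · exact continuousOn_id.sub hc
    · fun_prop
    · simp [hz]
    · simp
  · rw [← hsq, ← cfcₙ_neg]
    refine cfcₙ_mono (fun x _ => neg_le_sub_clampf ht x) ?_ ?_ ?_ ?_
    · fun_prop
    · exact continuousOn_id.sub hc
    · simp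
    · simp [hz]

theorem av_le_av {Ω : Type*} [Fintype Ω] {f : Ω → A} (hf : ∀ ω, 0 ≤ f ω) : 0 ≤ avg f := by
  rw [avg]
  exact smul_nonneg (by positivity) (Finset.sum_nonneg fun ω _ => hf ω)

omit [PartialOrder A] [StarOrderedRing A] in
theorem isSelfAdjoint_coef {n : ℕ} {h : (Fin n → ℤˣ) → A} (hh : ∀ ε, IsSelfAdjoint (h ε))
    (i : Fin n) : IsSelfAdjoint (coef h i) := by
  rw [coef, avg]
  refine IsSelfAdjoint.smul (IsSelfAdjoint.all _) ?_
  refine isSelfAdjoint_sum _ fun ε _ => ?_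
  exact IsSelfAdjoint.smul (IsSelfAdjoint.all _) (hh ε)

omit [PartialOrder A] [StarOrderedRing A] in
theorem isSelfAdjoint_rad {n : ℕ} {h : (Fin n → ℤˣ) → A} (hh : ∀ ε, IsSelfAdjoint (h ε))
    (ε : Fin n → ℤˣ) : IsSelfAdjoint (rad h ε) := by
  rw [rad_eq]
  refine isSelfAdjoint_sum _ fun i _ => ?_
  exact IsSelfAdjoint.smul (IsSelfAdjoint.all _) (isSelfAdjoint_coef hh i)

omit [PartialOrder A] [StarOrderedRing A] in
theorem av_mul_rad {n : ℕ} (h g : (Fin n → ℤˣ) → A) :
    (avg fun ε => h ε * rad g ε) = ∑ i, coef h i * coef g i := by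
  have h1 : ∀ ε, h ε * rad g ε = ∑ i, (sg (ε i) • h ε) * coef g i := by
    intro ε
    rw [rad_eq, Finset.mul_sum]
    refine Finset.sum_congr rfl fun i _ => ?_
    rw [mul_smul_comm, smul_mul_assoc]
  rw [av_congr h1, av_sum]
  refine Finset.sum_congr rfl fun i _ => ?_
  exact (map_av (LinearMap.mulRight ℝ (coef g i)) fun ε : Fin n → ℤˣ => sg (ε i) • h ε).symm

omit [PartialOrder A] [StarOrderedRing A] in
theorem av_rad_mul {n : ℕ} (h g : (Fin n → ℤˣ) → A) :
    (avg fun ε => rad h ε * g ε) = ∑ i, coef h i * coef g i := by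
  have h1 : ∀ ε, rad h ε * g ε = ∑ i, coef h i * (sg (ε i) • g ε) := by
    intro ε
    rw [rad_eq, Finset.sum_mul]
    refine Finset.sum_congr rfl fun i _ => ?_
    rw [mul_smul_comm, smul_mul_assoc]
  rw [av_congr h1, av_sum]
  refine Finset.sum_congr rfl fun i _ => ?_
  exact (map_av (LinearMap.mulLeft ℝ (coef h i)) fun ε : Fin n → ℤˣ => sg (ε i) • g ε).symm

/-- Bessel's inequality. -/
theorem bessel {n : ℕ} {h : (Fin n → ℤˣ) → A} (hh : ∀ ε, IsSelfAdjoint (h ε)) :
    ∑ i, coef h i * coef h i ≤ avg fun ε => h ε * h ε := by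
  have h1 : 0 ≤ avg fun ε => (h ε - rad h ε) * (h ε - rad h ε) := by
    refine av_le_av fun ε => ?_
    exact ((hh ε).sub (isSelfAdjoint_rad hh ε)).mul_self_nonneg
  have hcr : ∀ i, coef (rad h) i = coef h i := fun i => coef_sum (coef h) i
  have h2 : (avg fun ε => (h ε - rad h ε) * (h ε - rad h ε)) =
      (avg fun ε => h ε * h ε) - ∑ i, coef h i * coef h i := by
    have e1 : ∀ ε, (h ε - rad h ε) * (h ε - rad h ε) =
        (h ε * h ε - h ε * rad h ε) - (rad h ε * h ε - rad h ε * rad h ε) := by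
      intro ε
      rw [sub_mul, mul_sub, mul_sub]
    rw [av_congr e1, av_sub, av_sub, av_sub, av_mul_rad, av_rad_mul, av_rad_mul]
    simp_rw [hcr]
    rw [sub_self, sub_zero]
  rw [h2] at h1
  exact sub_nonneg.mp h1

theorem norm_sum_sq_le {n : ℕ} {h : (Fin n → ℤˣ) → A} (hh : ∀ ε, IsSelfAdjoint (h ε)) :
    ‖∑ i, coef h i * coef h i‖ ≤ nrm2 h ^ 2 := by
  have h0 : 0 ≤ ∑ i, coef h i * coef h i :=
    Finset.sum_nonneg fun i _ => (isSelfAdjoint_coef hh i).mul_self_nonneg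
  refine (CStarAlgebra.norm_le_norm_of_nonneg_of_le h0 (bessel hh)).trans ?_
  refine (norm_av_le _).trans ?_
  rw [nrm2_sq]
  refine avg_mono fun ε => ?_
  rw [sq]
  exact norm_mul_le _ _

/-- Splitting for functions with selfadjoint values. -/
theorem sa_split {n : ℕ} {h : (Fin n → ℤˣ) → A} (hh : ∀ ε, IsSelfAdjoint (h ε)) {R t : ℝ}
    (hR : 0 < R) (ht : 0 < t) (hhR : nrm2 h ≤ R) :
    ∃ u v : Fin n → A, (∀ i, coef h i = u i + v i) ∧ (∀ i, ‖v i‖ ≤ t * R) ∧
      ∀ ε : Fin n → ℤˣ, ‖∑ i, sg (ε i) • u i‖ ≤ R / t := by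
  have htR : 0 < t * R := mul_pos ht hR
  choose u v huv hv hu1 hu2 using fun i => soft_spec (isSelfAdjoint_coef hh i) htR
  refine ⟨u, v, huv, hv, fun ε => ?_⟩
  set S : A := (1 / (4 * (t * R))) • ∑ i, coef h i * coef h i with hS
  have hSeq : S = ∑ i, (1 / (4 * (t * R))) • (coef h i * coef h i) := by
    rw [hS, Finset.smul_sum]
  have hpm : ∀ i, sg (ε i) • u i ≤ (1 / (4 * (t * R))) • (coef h i * coef h i) ∧
      -((1 / (4 * (t * R))) • (coef h i * coef h i)) ≤ sg (ε i) • u i := by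
    intro i
    rcases Int.units_eq_one_or (ε i) with h1 | h1
    · have : sg (ε i) = 1 := by simp [h1, sg]
      rw [this, one_smul]
      exact ⟨hu1 i, hu2 i⟩
    · have : sg (ε i) = -1 := by simp [h1, sg]
      rw [this, neg_smul, one_smul]
      exact ⟨neg_le.mp (hu2 i), neg_le_neg (hu1 i)⟩
  have h1 : ∑ i, sg (ε i) • u i ≤ S := by
    rw [hSeq]
    exact Finset.sum_le_sum fun i _ => (hpm i).1
  have h2 : -S ≤ ∑ i, sg (ε i) • u i := by
    rw [hSeq, ← Finset.sum_neg_distrib]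
    exact Finset.sum_le_sum fun i _ => (hpm i).2
  have h3 := norm_le_of_between h2 h1
  have h4 : ‖S‖ ≤ R / (4 * t) := by
    rw [hS, norm_smul, Real.norm_of_nonneg (by positivity)]
    have h5 := norm_sum_sq_le hh
    have h6 : nrm2 h ^ 2 ≤ R ^ 2 := pow_le_pow_left₀ (nrm2_nonneg _) hhR 2
    calc 1 / (4 * (t * R)) * ‖∑ i, coef h i * coef h i‖ ≤ 1 / (4 * (t * R)) * R ^ 2 :=
          mul_le_mul_of_nonneg_left (h5.trans h6) (by positivity)
      _ = R / (4 * t) := by field_simp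
  have h7 : 3 * (R / (4 * t)) ≤ R / t := by
    have : 0 < R / t := by positivity
    have e : R / (4 * t) = (R / t) / 4 := by field_simp
    rw [e]
    linarith
  linarith

end order

/-- `C*`-algebras have the splitting property. -/
theorem splitWith_cstar (A : Type*) [NonUnitalCStarAlgebra A] : SplitWith 2 A := by
  let _ : PartialOrder A := CStarAlgebra.spectralOrder A
  have _ : StarOrderedRing A := CStarAlgebra.spectralOrderedRing A
  intro n w R t hR ht hw
  set Jr : A →ₗ[ℝ] A := (selfAdjoint.submodule ℝ A).subtype ∘ₗ (realPart : A →ₗ[ℝ] selfAdjoint A)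
    with hJr
  set Ji : A →ₗ[ℝ] A :=
    (selfAdjoint.submodule ℝ A).subtype ∘ₗ (imaginaryPart : A →ₗ[ℝ] selfAdjoint A) with hJi
  have hJr' : ∀ a, Jr a = (ℜ a : A) := fun _ => rfl
  have hJi' : ∀ a, Ji a = (ℑ a : A) := fun _ => rfl
  have hr1 : ∀ ε, IsSelfAdjoint (Jr (w ε)) := fun ε => (ℜ (w ε)).2
  have hi1 : ∀ ε, IsSelfAdjoint (Ji (w ε)) := fun ε => (ℑ (w ε)).2
  have hr2 : nrm2 (fun ε => Jr (w ε)) ≤ R :=
    (nrm2_mono fun ε => realPart.norm_le (w ε)).trans hw
  have hi2 : nrm2 (fun ε => Ji (w ε)) ≤ R :=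
    (nrm2_mono fun ε => imaginaryPart.norm_le (w ε)).trans hw
  obtain ⟨u₁, v₁, huv₁, hv₁, hu₁⟩ := sa_split hr1 hR ht hr2
  obtain ⟨u₂, v₂, huv₂, hv₂, hu₂⟩ := sa_split hi1 hR ht hi2
  refine ⟨fun i => u₁ i + Complex.I • u₂ i, fun i => v₁ i + Complex.I • v₂ i, ?_, ?_, ?_⟩
  · intro i
    have e1 : coef w i = Jr (coef w i) + Complex.I • Ji (coef w i) :=
      (realPart_add_I_smul_imaginaryPart (coef w i)).symm
    rw [e1, ← coef_map, ← coef_map, huv₁, huv₂, smul_add]
    exact add_add_add_comm _ _ _ _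
  · intro i
    refine (norm_add_le _ _).trans ?_
    rw [norm_smul, Complex.norm_I, one_mul]
    have := hv₁ i
    have := hv₂ i
    linarith
  · intro ε
    have e1 : ∑ i, sg (ε i) • (u₁ i + Complex.I • u₂ i) =
        ∑ i, sg (ε i) • u₁ i + Complex.I • ∑ i, sg (ε i) • u₂ i := by
      rw [Finset.smul_sum, ← Finset.sum_add_distrib]
      refine Finset.sum_congr rfl fun i _ => ?_
      rw [smul_add, smul_comm]
    rw [e1]
    refine (norm_add_le _ _).trans ?_
    rw [norm_smul, Complex.norm_I, one_mul]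
    have h1 := hu₁ ε
    have h2 := hu₂ ε
    have h3 : 2 * R / t = R / t + R / t := by ring
    rw [h3]
    linarith

/-- Duals of `C*`-algebras satisfy the inequality with `θ = 1/2`. -/
theorem radOne_cstar (A : Type*) [NonUnitalCStarAlgebra A] :
    RadOne (1 / 2) 4 (A →L[ℝ] ℝ) := by
  have h := radOne_of_split (C := 2) (by norm_num) (splitWith_cstar A)
  norm_num at h
  exact h

end Vale.Agent.P111.R2.H351
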