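import Vale.Agent.P111.R2.H351.Basic

/-! Spaces of type greater than one, subspaces, finite representability. -/

namespace Vale.Agent.P111.R2.H351

open Vale.Agent.P111 Vale.Agent.P111.L1

/-- Spaces of type `p₀ > 1` satisfy the inequality with `θ = 1 / p₀`. -/
theorem radOne_of_type {p₀ T : ℝ} {Z : Type*} [NormedAddCommGroup Z] [NormedSpace ℝ Z]
    (hp₀ : 1 ≤ p₀) (hT : 0 ≤ T) (hZ : TypeWith p₀ T Z) : RadOne (1 / p₀) T Z := by
  intro n f
  have hp0 : 0 < p₀ := by linarith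
  have h := hZ n (coef f)
  refine h.trans ?_
  rw [mul_assoc]
  refine mul_le_mul_of_nonneg_left ?_ hT
  set A : ℝ := ∑ i, ‖coef f i‖ with hA
  set B : ℝ := avg fun ε => ‖f ε‖ with hB
  have hA0 : 0 ≤ A := Finset.sum_nonneg fun _ _ => norm_nonneg _
  have hB0 : 0 ≤ B := avg_nonneg fun _ => norm_nonneg _
  have h1 : ∑ i, ‖coef f i‖ ^ p₀ ≤ A * B ^ (p₀ - 1) := by
    rw [hA, Finset.sum_mul]
    refine Finset.sum_le_sum fun i _ => ?_
    have e : ‖coef f i‖ ^ p₀ = ‖coef f i‖ * ‖coef f i‖ ^ (p₀ - 1) := by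
      rcases eq_or_lt_of_le (norm_nonneg (coef f i)) with h0 | h0
      · rw [← h0, Real.zero_rpow hp0.ne', zero_mul]
      · rw [Real.rpow_sub_one h0.ne']
        field_simp
    rw [e]
    exact mul_le_mul_of_nonneg_left
      (Real.rpow_le_rpow (norm_nonneg _) (norm_coef_le f i) (by linarith)) (norm_nonneg _)
  calc (∑ i, ‖coef f i‖ ^ p₀) ^ (1 / p₀) ≤ (A * B ^ (p₀ - 1)) ^ (1 / p₀) :=
        Real.rpow_le_rpow (Finset.sum_nonneg fun _ _ => by positivity) h1 (by positivity)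
    _ = A ^ (1 / p₀) * B ^ (1 - 1 / p₀) := by
        rw [Real.mul_rpow hA0 (by positivity), ← Real.rpow_mul hB0]
        congr 2
        field_simp

/-- `Z` is finitely representable, with constant `D`, in spaces with the inequality. -/
theorem radOne_of_local {θ C D : ℝ} (hθ0 : 0 ≤ θ) (hθ1 : θ ≤ 1) (hC : 0 ≤ C) (hD : 0 ≤ D)
    {Z : Type*} [NormedAddCommGroup Z] [NormedSpace ℝ Z]
    (hloc : ∀ G : Submodule ℝ Z, FiniteDimensional ℝ G →
      ∃ (W : Type*) (_ : NormedAddCommGroup W) (_ : NormedSpace ℝ W), RadOne θ C W ∧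
        EmbedsIn D G W) : RadOne θ (C * D) Z := by
  intro n f
  set G : Submodule ℝ Z := Submodule.span ℝ (Set.range f) with hG
  have hfin : FiniteDimensional ℝ G := FiniteDimensional.span_of_finite ℝ (Set.finite_range f)
  obtain ⟨W, _, _, hW, J, hJ⟩ := hloc G hfin
  set f' : (Fin n → ℤˣ) → G := fun ε => ⟨f ε, Submodule.subset_span ⟨ε, rfl⟩⟩ with hf'
  have h := hW n (fun ε => J (f' ε))
  have e1 : ∀ i, ((coef f' i : G) : Z) = coef f i := by
    intro i
    exact (coef_map G.subtype f' i).symm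
  have e2 : ∀ ε, ((rad f' ε : G) : Z) = rad f ε := by
    intro ε
    exact (rad_map G.subtype f' ε).symm
  have e3 : ∀ i, coef (fun ε => J (f' ε)) i = J (coef f' i) := fun i =>
    coef_map (J : G →ₗ[ℝ] W) f' i
  have e4 : ∀ ε, rad (fun ε => J (f' ε)) ε = J (rad f' ε) := fun ε =>
    rad_map (J : G →ₗ[ℝ] W) f' ε
  simp_rw [e3, e4] at h
  have hA0 : 0 ≤ ∑ i, ‖coef f i‖ := Finset.sum_nonneg fun _ _ => norm_nonneg _
  have hB0 : 0 ≤ avg fun ε => ‖f ε‖ := avg_nonneg fun _ => norm_nonneg _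
  have h1 : (avg fun ε => ‖rad f ε‖ ^ 2) ^ (1 / 2 : ℝ) ≤
      (avg fun ε => ‖J (rad f' ε)‖ ^ 2) ^ (1 / 2 : ℝ) := by
    refine Real.rpow_le_rpow (avg_nonneg fun _ => by positivity)
      (avg_mono fun ε => pow_le_pow_left₀ (norm_nonneg _) ?_ 2) (by norm_num)
    rw [← e2]
    exact (hJ _).1
  have h2 : ∑ i, ‖J (coef f' i)‖ ≤ D * ∑ i, ‖coef f i‖ := by
    rw [Finset.mul_sum]
    refine Finset.sum_le_sum fun i _ => ?_
    rw [← e1]
    exact (hJ _).2
  have h3 : (avg fun ε => ‖J (f' ε)‖) ≤ D * avg fun ε => ‖f ε‖ := by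
    rw [← av_mul]
    exact avg_mono fun ε => (hJ _).2
  refine h1.trans (h.trans ?_)
  calc C * (∑ i, ‖J (coef f' i)‖) ^ θ * (avg fun ε => ‖J (f' ε)‖) ^ (1 - θ)
      ≤ C * (D * ∑ i, ‖coef f i‖) ^ θ * (D * avg fun ε => ‖f ε‖) ^ (1 - θ) := by
        refine mul_le_mul (mul_le_mul_of_nonneg_left ?_ hC) ?_ ?_ ?_
        · exact Real.rpow_le_rpow (Finset.sum_nonneg fun _ _ => norm_nonneg _) h2 hθ0
        · exact Real.rpow_le_rpow (avg_nonneg fun _ => norm_nonneg _) h3 (by linarith)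
        · exact Real.rpow_nonneg (avg_nonneg fun _ => norm_nonneg _) _
        · positivity
    _ = C * D * (∑ i, ‖coef f i‖) ^ θ * (avg fun ε => ‖f ε‖) ^ (1 - θ) := by
        rw [Real.mul_rpow hD hA0, Real.mul_rpow hD hB0]
        have h6 : D = D ^ θ * D ^ (1 - θ) := by
          rw [← Real.rpow_add' hD (by norm_num)]
          simp
        conv_rhs => rw [h6]
        ring

/-- The inequality gets weaker as `θ` increases. -/
theorem RadOne.mono {θ θ' C : ℝ} (hθ : θ ≤ θ') (hθ1 : θ' ≤ 1) {Z : Type*}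
    [NormedAddCommGroup Z] [NormedSpace ℝ Z] (hC : 0 ≤ C) (hZ : RadOne θ C Z) :
    RadOne θ' (max C 1) Z := by
  intro n f
  set A : ℝ := ∑ i, ‖coef f i‖ with hA
  set B : ℝ := avg fun ε => ‖f ε‖ with hB
  have hA0 : 0 ≤ A := Finset.sum_nonneg fun _ _ => norm_nonneg _
  have hB0 : 0 ≤ B := avg_nonneg fun _ => norm_nonneg _
  have htriv : (avg fun ε => ‖rad f ε‖ ^ 2) ^ (1 / 2 : ℝ) ≤ A := by
    have h1 : (avg fun ε => ‖rad f ε‖ ^ 2) ≤ A ^ 2 := by
      refine (avg_mono fun ε => ?_).trans (avg_const_le (c := A ^ 2) (by positivity))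
      refine pow_le_pow_left₀ (norm_nonneg _) ?_ 2
      rw [rad_eq]
      refine (norm_sum_le _ _).trans (Finset.sum_le_sum fun i _ => ?_)
      rw [norm_smul, Real.norm_eq_abs, abs_sg, one_mul]
    calc _ ≤ (A ^ 2) ^ (1 / 2 : ℝ) :=
          Real.rpow_le_rpow (avg_nonneg fun _ => by positivity) h1 (by norm_num)
      _ = A := by rw [← Real.sqrt_eq_rpow, Real.sqrt_sq hA0]
  rcases eq_or_lt_of_le hA0 with hA' | hA'
  · -- all coefficients vanish
    have : (avg fun ε => ‖rad f ε‖ ^ 2) ^ (1 / 2 : ℝ) ≤ 0 := by rw [hA']; exact htriv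
    refine this.trans ?_
    positivity
  rcases eq_or_lt_of_le hB0 with hB' | hB'
  · exfalso
    have h1 : A ≤ 0 := by
      rw [hA]
      refine Finset.sum_nonpos fun i _ => ?_
      rw [hB']
      exact norm_coef_le f i
    linarith
  rcases le_total A B with hAB | hAB
  · calc _ ≤ A := htriv
      _ = A ^ θ' * A ^ (1 - θ') := by rw [← Real.rpow_add hA']; simp
      _ ≤ max C 1 * A ^ θ' * B ^ (1 - θ') := by
        calc A ^ θ' * A ^ (1 - θ') ≤ A ^ θ' * B ^ (1 - θ') :=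
              mul_le_mul_of_nonneg_left (Real.rpow_le_rpow hA0 hAB (by linarith))
                (by positivity)
          _ = 1 * A ^ θ' * B ^ (1 - θ') := by ring
          _ ≤ _ := by
              refine mul_le_mul_of_nonneg_right ?_ (by positivity)
              exact mul_le_mul_of_nonneg_right (le_max_right _ _) (by positivity)
  · calc _ ≤ C * A ^ θ * B ^ (1 - θ) := hZ n f
      _ ≤ max C 1 * A ^ θ' * B ^ (1 - θ') := by
        have h1 : A ^ θ * B ^ (1 - θ) ≤ A ^ θ' * B ^ (1 - θ') := by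
          have e1 : A ^ θ' = A ^ θ * A ^ (θ' - θ) := by
            rw [← Real.rpow_add hA']; congr 1; ring
          have e2 : B ^ (1 - θ) = B ^ (θ' - θ) * B ^ (1 - θ') := by
            rw [← Real.rpow_add hB']; congr 1; ring
          rw [e1, e2]
          have e3 : B ^ (θ' - θ) ≤ A ^ (θ' - θ) :=
            Real.rpow_le_rpow hB0 hAB (by linarith)
          calc A ^ θ * (B ^ (θ' - θ) * B ^ (1 - θ')) ≤ A ^ θ * (A ^ (θ' - θ) * B ^ (1 - θ')) := by
                refine mul_le_mul_of_nonneg_left ?_ (by positivity)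
                exact mul_le_mul_of_nonneg_right e3 (by positivity)
            _ = _ := by ring
        calc C * A ^ θ * B ^ (1 - θ) = C * (A ^ θ * B ^ (1 - θ)) := by ring
          _ ≤ C * (A ^ θ' * B ^ (1 - θ')) := mul_le_mul_of_nonneg_left h1 hC
          _ ≤ max C 1 * (A ^ θ' * B ^ (1 - θ')) :=
              mul_le_mul_of_nonneg_right (le_max_left _ _) (by positivity)
          _ = _ := by ring

end Vale.Agent.P111.R2.H351
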