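import Vale.Agent.P111.L1.Defs

/-! The inequality that replaces `K`-convexity, and basic notions. -/

namespace Vale.Agent.P111.R2.H351

open Vale.Agent.P111

/-- The coefficient of degree one with index `i` of a function on the discrete cube. -/
noncomputable def coef {Z : Type*} [NormedAddCommGroup Z] [NormedSpace ℝ Z] {n : ℕ}
    (f : (Fin n → ℤˣ) → Z) (i : Fin n) : Z :=
  avg fun η : Fin n → ℤˣ => sg (η i) • f η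

/-- `‖rad f‖₂ ≤ C (∑ᵢ ‖f^(i)‖)^θ ‖f‖₁^(1-θ)` for all functions on cubes with values in `Z`. -/
def RadOne (θ C : ℝ) (Z : Type*) [NormedAddCommGroup Z] [NormedSpace ℝ Z] : Prop :=
  ∀ (n : ℕ) (f : (Fin n → ℤˣ) → Z),
    (avg fun ε => ‖rad f ε‖ ^ 2) ^ (1 / 2 : ℝ) ≤
      C * (∑ i, ‖coef f i‖) ^ θ * (avg fun ε => ‖f ε‖) ^ (1 - θ)

/-- `‖rad f‖₂ ≤ C (∑ᵢ ‖f^(i)‖)^θ ‖f‖₂^(1-θ)` for all functions on cubes with values in `Z`. -/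
def RadTwo (θ C : ℝ) (Z : Type*) [NormedAddCommGroup Z] [NormedSpace ℝ Z] : Prop :=
  ∀ (n : ℕ) (f : (Fin n → ℤˣ) → Z),
    (avg fun ε => ‖rad f ε‖ ^ 2) ^ (1 / 2 : ℝ) ≤
      C * (∑ i, ‖coef f i‖) ^ θ * (avg fun ε => ‖f ε‖ ^ 2) ^ ((1 - θ) / 2)

/-- If `‖f^(i)‖ ≤ 1` for `i ≤ n` and `‖rad f‖₂ ≥ δ n`, then `‖f‖₂ ≥ η n^(1-κ)`, for all
functions `f` on the cube `{-1,1}^n`. -/
def NearLift (δ κ η : ℝ) (X : Type*) [NormedAddCommGroup X] [NormedSpace ℝ X] : Prop :=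
  ∀ (n : ℕ) (f : (Fin n → ℤˣ) → X), (∀ i, ‖coef f i‖ ≤ 1) →
    δ * n ≤ (avg fun ε => ‖rad f ε‖ ^ 2) ^ (1 / 2 : ℝ) →
      η * (n : ℝ) ^ (1 - κ) ≤ (avg fun ε => ‖f ε‖ ^ 2) ^ (1 / 2 : ℝ)

/-- `‖rad f‖₂ ≤ C n^κ ‖f‖₂` for all functions `f` on the cube `{-1,1}^n`. -/
def RadGrowth (κ C : ℝ) (X : Type*) [NormedAddCommGroup X] [NormedSpace ℝ X] : Prop :=
  ∀ (n : ℕ) (f : (Fin n → ℤˣ) → X),
    (avg fun ε => ‖rad f ε‖ ^ 2) ^ (1 / 2 : ℝ) ≤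
      C * (n : ℝ) ^ κ * (avg fun ε => ‖f ε‖ ^ 2) ^ (1 / 2 : ℝ)

/-- `Z` satisfies the inequality `RadOne` with some `θ < 1`. -/
def RadClass (Z : Type*) [NormedAddCommGroup Z] [NormedSpace ℝ Z] : Prop :=
  ∃ θ C : ℝ, 0 ≤ θ ∧ θ < 1 ∧ 0 ≤ C ∧ RadOne θ C Z

end Vale.Agent.P111.R2.H351
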