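import Vale.Agent.P111.R2.H351.LatDefs
import Mathlib.Analysis.CStarAlgebra.Classes
import Mathlib.Analysis.Complex.Basic

/-! The statements, by groups. -/

namespace Vale.Agent.P111.R2.H351

open Vale.Agent.P111 Vale.Agent.P111.L1 MeasureTheory
open scoped ENNReal

universe u v

/-- `C_r(Y) ≤ C`. -/
def CotypeLe (r C : ℝ) (Y : Type u) [NormedAddCommGroup Y] [NormedSpace ℝ Y] : Prop :=
  ∀ (n : ℕ) (y : Fin n → Y),
    (∑ i, ‖y i‖ ^ r) ^ (1 / r) ≤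
      C * (avg fun ε : Fin n → ℤˣ => ‖∑ i, sg (ε i) • y i‖ ^ 2) ^ (1 / 2 : ℝ)

/-- For the space `X` and the exponent `r`: type greater than one is equivalent to the
inequality `RadOne` or `RadTwo` with some `θ < 1`, and to `NearLift` with some `δ < 1` and
`κ < 1 / r`; it follows from `RadGrowth` with some `κ < 1 / r`. -/
def Equivalences (r : ℝ) (X : Type u) [NormedAddCommGroup X] [NormedSpace ℝ X] : Prop :=
  ((∃ p, HasType p X) ↔ RadClass X) ∧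
  ((∃ p, HasType p X) ↔ ∃ θ D : ℝ, θ < 1 ∧ RadTwo θ D X) ∧
  ((∃ p, HasType p X) ↔ ∃ δ κ η : ℝ, δ < 1 ∧ κ < 1 / r ∧ 0 < η ∧ NearLift δ κ η X) ∧
  ((∃ κ C : ℝ, κ < 1 / r ∧ RadGrowth κ C X) → ∃ p, HasType p X)

/-- Uniform versions, for spaces `X` such that `C_r(X*) ≤ C` and for duals of spaces `X` such
that `C_r(X) ≤ C`. -/
def Uniform (r C : ℝ) : Prop :=
  (∀ δ κ η : ℝ, δ < 1 → κ < 1 / r → 0 < η → ∃ p T : ℝ, 1 < p ∧ p ≤ 2 ∧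
    ∀ (X : Type u) [NormedAddCommGroup X] [NormedSpace ℝ X],
      (CotypeLe r C (X →L[ℝ] ℝ) → NearLift δ κ η X → TypeWith p T X) ∧
      (CotypeLe r C X → NearLift δ κ η (X →L[ℝ] ℝ) → TypeWith p T (X →L[ℝ] ℝ))) ∧
  ∀ θ D p : ℝ, 0 ≤ θ → θ < 1 → 0 < p → p * (r - 1 + θ) < r → ∃ K : ℝ,
    ∀ (X : Type u) [NormedAddCommGroup X] [NormedSpace ℝ X] (Z : Type v) [NormedAddCommGroup Z]
      [NormedSpace ℝ Z], RadTwo θ D Z ∨ RadOne θ D Z →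
      (CotypeLe r C (X →L[ℝ] ℝ) → OpsTypeWith p K X Z) ∧
      (CotypeLe r C X → OpsTypeWith p K (X →L[ℝ] ℝ) Z)

/-- Spaces of type greater than one, and duals of `C*`-algebras. -/
def Members : Prop :=
  (∀ (p₀ T : ℝ) (Z : Type u) [NormedAddCommGroup Z] [NormedSpace ℝ Z], 1 ≤ p₀ → 0 ≤ T →
    TypeWith p₀ T Z → RadOne (1 / p₀) T Z) ∧
  ∀ (A : Type u) [NonUnitalCStarAlgebra A], RadOne (1 / 2) 4 (A →L[ℝ] ℝ)

/-- Stability properties of the inequality `RadOne`, for `0 ≤ θ ≤ 1`, with constants that depend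
only on `θ`, `D` and the exponents. -/
def Stability (θ D : ℝ) : Prop :=
  (∀ (q : ℝ≥0∞) [Fact (1 ≤ q)], q ≠ ∞ → ∃ D' : ℝ, 0 ≤ D' ∧
    ∀ (Z : Type u) [NormedAddCommGroup Z] [NormedSpace ℝ Z] (Ω : Type v) [MeasurableSpace Ω]
      (μ : Measure Ω), RadOne θ D Z → RadOne θ D' (Lp Z q μ)) ∧
  (∀ (c : ℝ) (Z : Type u) [NormedAddCommGroup Z] [NormedSpace ℝ Z], 0 ≤ c →
    (∀ G : Submodule ℝ Z, FiniteDimensional ℝ G →
      ∃ (W : Type v) (_ : NormedAddCommGroup W) (_ : NormedSpace ℝ W), RadOne θ D W ∧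
        EmbedsIn c G W) → RadOne θ (D * c) Z) ∧
  ∀ q M : ℝ, 1 ≤ q → 0 ≤ M → ∃ D' : ℝ, 0 ≤ D' ∧
    ∀ (Z : Type u) [NormedAddCommGroup Z] [NormedSpace ℝ Z] (ι : Type)
      (Y : ι → Type v) [∀ j, NormedAddCommGroup (Y j)] [∀ j, NormedSpace ℝ (Y j)]
      (N : (ι → ℝ) → ℝ) (P : ∀ j, Z →ₗ[ℝ] Y j), IsLatticeNorm N → IsConcave q M N →
      (∀ z, ‖z‖ = N fun j => ‖P j z‖) → (∀ j, RadOne θ D (Y j)) → RadOne θ D' Z

end Vale.Agent.P111.R2.H351
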