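import Vale.Agent.P111.R2.H351.Kahane

/-! Equivalence of all moments of Rademacher sums. -/

namespace Vale.Agent.P111.R2.H351

open Vale.Agent.P111 Vale.Agent.P111.L1

/-- The moment of order `q` of a nonnegative function. -/
noncomputable def mom {Ω : Type*} [Fintype Ω] (q : ℝ) (f : Ω → ℝ) : ℝ :=
  (avg fun ω => f ω ^ q) ^ (1 / q)

theorem av_rpow_nonneg {Ω : Type*} [Fintype Ω] {f : Ω → ℝ} (hf : ∀ ω, 0 ≤ f ω) (q : ℝ) :
    0 ≤ avg fun ω => f ω ^ q := avg_nonneg fun ω => Real.rpow_nonneg (hf ω) q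

theorem mom_nonneg {Ω : Type*} [Fintype Ω] {f : Ω → ℝ} (hf : ∀ ω, 0 ≤ f ω) (q : ℝ) :
    0 ≤ mom q f := Real.rpow_nonneg (av_rpow_nonneg hf q) _

theorem mom_rpow {Ω : Type*} [Fintype Ω] {f : Ω → ℝ} (hf : ∀ ω, 0 ≤ f ω) {q : ℝ} (hq : q ≠ 0) :
    mom q f ^ q = avg fun ω => f ω ^ q := by
  rw [mom, ← Real.rpow_mul (av_rpow_nonneg hf q), one_div_mul_cancel hq, Real.rpow_one]

/-- Moments increase with the order. -/
theorem mom_mono {Ω : Type*} [Fintype Ω] [Nonempty Ω] {f : Ω → ℝ} (hf : ∀ ω, 0 ≤ f ω) {p q : ℝ}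
    (hp : 0 < p) (hpq : p ≤ q) : mom p f ≤ mom q f := by
  have hq : 0 < q := hp.trans_le hpq
  have hN : (0 : ℝ) < Fintype.card Ω := by exact_mod_cast Fintype.card_pos
  have h := Real.rpow_arith_mean_le_arith_mean_rpow (Finset.univ : Finset Ω)
    (fun _ => (Fintype.card Ω : ℝ)⁻¹) (fun ω => f ω ^ p) (fun _ _ => by positivity)
    (by
      rw [Finset.sum_const, Finset.card_univ, nsmul_eq_mul]
      exact mul_inv_cancel₀ hN.ne')
    (fun ω _ => Real.rpow_nonneg (hf ω) p) (show 1 ≤ q / p by rwa [one_le_div hp])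
  rw [← Finset.mul_sum, ← Finset.mul_sum] at h
  have e : ∀ ω, (f ω ^ p) ^ (q / p) = f ω ^ q := by
    intro ω
    rw [← Real.rpow_mul (hf ω), mul_div_cancel₀ _ hp.ne']
  simp_rw [e] at h
  have h2 := Real.rpow_le_rpow
    (Real.rpow_nonneg (mul_nonneg (by positivity)
      (Finset.sum_nonneg fun ω _ => Real.rpow_nonneg (hf ω) p)) _) h
    (show (0 : ℝ) ≤ 1 / q by positivity)
  rw [← Real.rpow_mul (mul_nonneg (by positivity)
      (Finset.sum_nonneg fun ω _ => Real.rpow_nonneg (hf ω) p))] at h2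
  have e2 : q / p * (1 / q) = 1 / p := by field_simp
  rw [e2] at h2
  exact h2

universe u

/-- A Rademacher sum. -/
noncomputable def rsum {Z : Type u} [NormedAddCommGroup Z] [NormedSpace ℝ Z] {n : ℕ}
    (z : Fin n → Z) (ε : Fin n → ℤˣ) : ℝ := ‖∑ i, sg (ε i) • z i‖

theorem rsum_nonneg {Z : Type u} [NormedAddCommGroup Z] [NormedSpace ℝ Z] {n : ℕ}
    (z : Fin n → Z) (ε : Fin n → ℤˣ) : 0 ≤ rsum z ε := norm_nonneg _

theorem mom_two_mul {Z : Type u} [NormedAddCommGroup Z] [NormedSpace ℝ Z] {n : ℕ}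
    (z : Fin n → Z) {p : ℝ} (hp : 2 ≤ p) : mom (2 * p) (rsum z) ≤ √3 * mom p (rsum z) := by
  have h := kahane_step hp z
  have hp0 : 0 < p := by linarith
  have h0 : 0 ≤ avg fun ε : Fin n → ℤˣ => rsum z ε ^ p := av_rpow_nonneg (rsum_nonneg z) p
  have h1 := Real.rpow_le_rpow (av_rpow_nonneg (rsum_nonneg z) (2 * p)) h
    (show (0 : ℝ) ≤ 1 / (2 * p) by positivity)
  refine h1.trans (le_of_eq ?_)
  change (3 ^ p * (avg fun ε : Fin n → ℤˣ => rsum z ε ^ p) ^ 2) ^ (1 / (2 * p)) = _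
  rw [Real.mul_rpow (by positivity) (by positivity), ← Real.rpow_mul (by norm_num),
    ← Real.rpow_natCast (avg fun ε : Fin n → ℤˣ => rsum z ε ^ p), ← Real.rpow_mul h0,
    Real.sqrt_eq_rpow, mom]
  congr 2
  · field_simp
  · push_cast
    field_simp

theorem mom_pow_two {Z : Type u} [NormedAddCommGroup Z] [NormedSpace ℝ Z] {n : ℕ}
    (z : Fin n → Z) (k : ℕ) : mom (2 ^ (k + 1)) (rsum z) ≤ √3 ^ k * mom 2 (rsum z) := by
  induction k with
  | zero => simp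
  | succ k ih =>
    have h : (2 : ℝ) ≤ 2 ^ (k + 1) := by
      calc (2 : ℝ) = 2 ^ 1 := by norm_num
        _ ≤ 2 ^ (k + 1) := pow_le_pow_right₀ (by norm_num) (by omega)
    have h1 := mom_two_mul z h
    rw [← pow_succ'] at h1
    refine h1.trans ?_
    rw [pow_succ' (√3) k, mul_assoc]
    exact mul_le_mul_of_nonneg_left ih (by positivity)

/-- The fourth, second and first moments. -/
theorem mom_two_le {Z : Type u} [NormedAddCommGroup Z] [NormedSpace ℝ Z] {n : ℕ}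
    (z : Fin n → Z) : mom 2 (rsum z) ≤ 3 * mom 1 (rsum z) := by
  have h4 := kahane_step (le_refl (2 : ℝ)) z
  set m1 : ℝ := avg fun ε : Fin n → ℤˣ => rsum z ε with hm1
  set m2 : ℝ := avg fun ε : Fin n → ℤˣ => rsum z ε ^ 2 with hm2
  set m4 : ℝ := avg fun ε : Fin n → ℤˣ => rsum z ε ^ 4 with hm4
  have hm2' : (avg fun ε : Fin n → ℤˣ => rsum z ε ^ (2 : ℝ)) = m2 :=
    av_congr fun ε => by rw [← Real.rpow_natCast]; norm_num
  have hm4' : (avg fun ε : Fin n → ℤˣ => rsum z ε ^ (2 * 2 : ℝ)) = m4 :=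
    av_congr fun ε => by rw [← Real.rpow_natCast]; norm_num
  have h4' : m4 ≤ 9 * m2 ^ 2 := by
    have := h4
    change (avg fun ε : Fin n → ℤˣ => rsum z ε ^ (2 * 2 : ℝ)) ≤
      3 ^ (2 : ℝ) * (avg fun ε : Fin n → ℤˣ => rsum z ε ^ (2 : ℝ)) ^ 2 at this
    rw [hm2', hm4'] at this
    norm_num at this
    exact this
  have hm1' : mom 1 (rsum z) = m1 := by
    rw [mom]
    simp [hm1]
  have hm2'' : mom 2 (rsum z) = √m2 := by
    rw [mom, hm2', Real.sqrt_eq_rpow]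
  have hm20 : 0 ≤ m2 := avg_nonneg fun ε => by positivity
  have hm10 : 0 ≤ m1 := avg_nonneg fun ε => rsum_nonneg z ε
  rw [hm1', hm2'']
  rcases eq_or_lt_of_le hm20 with h0 | h0
  · rw [← h0, Real.sqrt_zero]; positivity
  set s : ℝ := √m2 with hs
  have hs0 : 0 < s := Real.sqrt_pos.mpr h0
  have hss : s ^ 2 = m2 := Real.sq_sqrt hm20
  -- pointwise inequality with `lam = 3 s`
  have hpt : ∀ ε : Fin n → ℤˣ, 27 * s ^ 2 * rsum z ε ^ 2 ≤
      54 * s ^ 3 * rsum z ε + rsum z ε ^ 4 := by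
    intro ε
    have hr := rsum_nonneg z ε
    have : 0 ≤ rsum z ε * ((rsum z ε - 3 * s) ^ 2 * (rsum z ε + 6 * s)) := by positivity
    nlinarith
  have hav : 27 * s ^ 2 * m2 ≤ 54 * s ^ 3 * m1 + m4 := by
    have := avg_mono hpt
    rwa [av_mul, av_add, av_mul] at this
  have h5 : 27 * s ^ 4 ≤ 54 * s ^ 3 * m1 + 9 * s ^ 4 := by
    have e1 : 27 * s ^ 2 * m2 = 27 * s ^ 4 := by rw [← hss]; ring
    have e2 : 9 * m2 ^ 2 = 9 * s ^ 4 := by rw [← hss]; ring
    linarith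
  have h6 : s ^ 3 * s ≤ s ^ 3 * (3 * m1) := by nlinarith
  exact le_of_mul_le_mul_left h6 (by positivity)

/-- Kahane's inequality: all moments of order at least one are equivalent. -/
theorem kahane (q : ℝ) (hq : 1 ≤ q) : ∃ K : ℝ, 0 ≤ K ∧
    ∀ (Z : Type u) [NormedAddCommGroup Z] [NormedSpace ℝ Z] (n : ℕ) (z : Fin n → Z),
      mom q (rsum z) ≤ K * mom 2 (rsum z) ∧ mom 2 (rsum z) ≤ K * mom q (rsum z) := by
  obtain ⟨k, hk⟩ := pow_unbounded_of_one_lt q (show (1 : ℝ) < 2 by norm_num)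
  refine ⟨√3 ^ k + 3, by positivity, fun Z _ _ n z => ⟨?_, ?_⟩⟩
  · have h1 : mom q (rsum z) ≤ mom (2 ^ (k + 1)) (rsum z) := by
      refine mom_mono (rsum_nonneg z) (by linarith) (hk.le.trans ?_)
      exact pow_le_pow_right₀ (by norm_num) (by omega)
    refine (h1.trans (mom_pow_two z k)).trans ?_
    refine mul_le_mul_of_nonneg_right (by linarith) (mom_nonneg (rsum_nonneg z) 2)
  · have h1 : mom 1 (rsum z) ≤ mom q (rsum z) :=
      mom_mono (rsum_nonneg z) one_pos hq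
    calc mom 2 (rsum z) ≤ 3 * mom 1 (rsum z) := mom_two_le z
      _ ≤ 3 * mom q (rsum z) := by linarith
      _ ≤ (√3 ^ k + 3) * mom q (rsum z) := by
          refine mul_le_mul_of_nonneg_right ?_ (mom_nonneg (rsum_nonneg z) q)
          have : 0 ≤ √3 ^ k := by positivity
          linarith

end Vale.Agent.P111.R2.H351
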