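import Vale.Agent.P111.R2.H351.LatDefs
import Vale.Agent.P111.R2.H351.Moments

/-! Stability of the inequality under lattice sums of finite concavity. -/

namespace Vale.Agent.P111.R2.H351

open Vale.Agent.P111 Vale.Agent.P111.L1

universe u v

section lat

variable {ι : Type*} {N : (ι → ℝ) → ℝ}

theorem IsLatticeNorm.zero (hN : IsLatticeNorm N) : N 0 = 0 := by
  have := hN.smul 0 0
  simpa using this

theorem IsLatticeNorm.nonneg (hN : IsLatticeNorm N) (g : ι → ℝ) : 0 ≤ N g := by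
  have h1 := hN.add_le g (-g)
  have h2 : N (-g) = N g := by
    have := hN.smul (-1) g
    simpa using this
  rw [add_neg_cancel, hN.zero, h2] at h1
  linarith

theorem IsLatticeNorm.sum_le (hN : IsLatticeNorm N) {κ : Type*} (s : Finset κ)
    (g : κ → ι → ℝ) : N (∑ k ∈ s, g k) ≤ ∑ k ∈ s, N (g k) := by
  classical
  induction s using Finset.induction_on with
  | empty => simp [hN.zero]
  | insert a s ha ih =>
    rw [Finset.sum_insert ha, Finset.sum_insert ha]
    exact (hN.add_le _ _).trans (by linarith)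

/-- The concavity inequality for families indexed by a finite type. -/
theorem IsConcave.fintype {q M : ℝ} (h : IsConcave q M N) {κ : Type*} [Fintype κ]
    (g : κ → ι → ℝ) :
    (∑ i, N (g i) ^ q) ^ (1 / q) ≤ M * N fun j => (∑ i, |g i j| ^ q) ^ (1 / q) := by
  classical
  let e := (Fintype.equivFin κ).symm
  have h1 := h (Fintype.card κ) (fun i => g (e i))
  rw [e.sum_comp (fun i => N (g i) ^ q)] at h1
  have h2 : (fun j => (∑ i, |g (e i) j| ^ q) ^ (1 / q)) =
      fun j => (∑ i, |g i j| ^ q) ^ (1 / q) := by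
    funext j
    rw [e.sum_comp (fun i => |g i j| ^ q)]
  rwa [h2] at h1

/-- Hölder's inequality (logarithmic convexity) for a lattice norm. -/
theorem IsLatticeNorm.holder (hN : IsLatticeNorm N) {θ : ℝ} (hθ0 : 0 ≤ θ) (hθ1 : θ ≤ 1)
    {a b : ι → ℝ} (ha : ∀ j, 0 ≤ a j) (hb : ∀ j, 0 ≤ b j) {α β : ℝ} (hα : N a ≤ α)
    (hβ : N b ≤ β) : N (fun j => a j ^ θ * b j ^ (1 - θ)) ≤ α ^ θ * β ^ (1 - θ) := by
  have hα0 : 0 ≤ α := (hN.nonneg a).trans hα
  have hβ0 : 0 ≤ β := (hN.nonneg b).trans hβ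
  have key : ∀ δ : ℝ, 0 < δ → N (fun j => a j ^ θ * b j ^ (1 - θ)) ≤
      (α + δ) ^ θ * (β + δ) ^ (1 - θ) := by
    intro δ hδ
    have hα' : 0 < α + δ := by linarith
    have hβ' : 0 < β + δ := by linarith
    set c : ℝ := (α + δ) ^ θ * (β + δ) ^ (1 - θ) with hc
    have hc0 : 0 ≤ c := by positivity
    have h1 : ∀ j, |a j ^ θ * b j ^ (1 - θ)| ≤
        |((c * (θ / (α + δ))) • a + (c * ((1 - θ) / (β + δ))) • b) j| := by
      intro j
      have haj := ha j
      have hbj := hb j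
      have h2 := Real.geom_mean_le_arith_mean2_weighted hθ0 (show 0 ≤ 1 - θ by linarith)
        (div_nonneg haj hα'.le) (div_nonneg hbj hβ'.le) (by ring)
      have h3 : a j ^ θ * b j ^ (1 - θ) =
          c * ((a j / (α + δ)) ^ θ * (b j / (β + δ)) ^ (1 - θ)) := by
        rw [Real.div_rpow haj hα'.le, Real.div_rpow hbj hβ'.le, hc]
        field_simp
      have h4 : a j ^ θ * b j ^ (1 - θ) ≤
          c * (θ * (a j / (α + δ)) + (1 - θ) * (b j / (β + δ))) := by
        rw [h3]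
        exact mul_le_mul_of_nonneg_left h2 hc0
      have h5 : 0 ≤ a j ^ θ * b j ^ (1 - θ) := by positivity
      have h6 : ((c * (θ / (α + δ))) • a + (c * ((1 - θ) / (β + δ))) • b) j =
          c * (θ * (a j / (α + δ)) + (1 - θ) * (b j / (β + δ))) := by
        simp only [Pi.add_apply, Pi.smul_apply, smul_eq_mul]
        ring
      rw [abs_of_nonneg h5, h6]
      exact h4.trans (le_abs_self _)
    refine (hN.mono _ _ h1).trans ((hN.add_le _ _).trans ?_)
    have e1 : 0 ≤ c * (θ / (α + δ)) := mul_nonneg hc0 (div_nonneg hθ0 hα'.le)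
    have e2 : 0 ≤ c * ((1 - θ) / (β + δ)) := mul_nonneg hc0 (div_nonneg (by linarith) hβ'.le)
    rw [hN.smul, hN.smul, abs_of_nonneg e1, abs_of_nonneg e2]
    have h7 : c * (θ / (α + δ)) * N a ≤ c * θ := by
      calc c * (θ / (α + δ)) * N a ≤ c * (θ / (α + δ)) * (α + δ) :=
            mul_le_mul_of_nonneg_left (by linarith) e1
        _ = c * θ := by field_simp
    have h8 : c * ((1 - θ) / (β + δ)) * N b ≤ c * (1 - θ) := by
      calc c * ((1 - θ) / (β + δ)) * N b ≤ c * ((1 - θ) / (β + δ)) * (β + δ) :=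
            mul_le_mul_of_nonneg_left (by linarith) e2
        _ = c * (1 - θ) := by field_simp
    linarith
  -- let `δ` tend to zero
  have hcont : Continuous fun δ : ℝ => (α + δ) ^ θ * (β + δ) ^ (1 - θ) :=
    ((continuous_const.add continuous_id).rpow_const fun _ => Or.inr hθ0).mul
      ((continuous_const.add continuous_id).rpow_const fun _ => Or.inr (by linarith))
  have htend := (hcont.tendsto 0).mono_left (nhdsWithin_le_nhds (s := Set.Ioi (0 : ℝ)))
  have h1 : (α + 0) ^ θ * (β + 0) ^ (1 - θ) = α ^ θ * β ^ (1 - θ) := by simp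
  simp only [add_zero] at htend
  refine ge_of_tendsto htend ?_
  filter_upwards [self_mem_nhdsWithin] with δ hδ
  exact key δ hδ

end lat

/-- If the spaces `Y j` satisfy the inequality and the norm of `Z` is `N (j ↦ ‖P_j z‖)`, with a
lattice norm `N` of finite concavity, then `Z` satisfies the inequality. -/
theorem radOne_lattice (q : ℝ) (hq : 1 ≤ q) {θ D M : ℝ} (hθ0 : 0 ≤ θ) (hθ1 : θ ≤ 1)
    (hD : 0 ≤ D) (hM : 0 ≤ M) : ∃ D' : ℝ, 0 ≤ D' ∧
      ∀ (Z : Type u) [NormedAddCommGroup Z] [NormedSpace ℝ Z] (ι : Type)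
        (Y : ι → Type v) [∀ j, NormedAddCommGroup (Y j)] [∀ j, NormedSpace ℝ (Y j)]
        (N : (ι → ℝ) → ℝ) (P : ∀ j, Z →ₗ[ℝ] Y j), IsLatticeNorm N → IsConcave q M N →
        (∀ z, ‖z‖ = N fun j => ‖P j z‖) → (∀ j, RadOne θ D (Y j)) → RadOne θ D' Z := by
  have hq0 : 0 < q := by linarith
  obtain ⟨K, hK0, hK⟩ := kahane.{v} q hq
  obtain ⟨K', hK0', hK'⟩ := kahane.{u} q hq
  refine ⟨K' * (M * (K * D)), by positivity, fun Z _ _ ι Y _ _ N P hN hNc hZ hY n f => ?_⟩
  set c : ℝ := (Fintype.card (Fin n → ℤˣ) : ℝ)⁻¹ with hc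
  have hc0 : 0 ≤ c := by positivity
  have hA : 0 ≤ ∑ i, ‖coef f i‖ := Finset.sum_nonneg fun _ _ => norm_nonneg _
  have hB : 0 ≤ avg fun ε => ‖f ε‖ := avg_nonneg fun _ => norm_nonneg _
  -- the functions on `ι`
  set a : ι → ℝ := fun j => ∑ i, ‖coef (fun ε => P j (f ε)) i‖ with ha
  set b : ι → ℝ := fun j => avg fun ε => ‖P j (f ε)‖ with hb
  have ha0 : ∀ j, 0 ≤ a j := fun j => Finset.sum_nonneg fun _ _ => norm_nonneg _
  have hb0 : ∀ j, 0 ≤ b j := fun j => avg_nonneg fun _ => norm_nonneg _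
  have hNa : N a ≤ ∑ i, ‖coef f i‖ := by
    have e : a = ∑ i, fun j => ‖P j (coef f i)‖ := by
      funext j
      rw [Finset.sum_apply]
      exact Finset.sum_congr rfl fun i _ => by rw [coef_map]
    rw [e]
    refine (hN.sum_le _ _).trans (le_of_eq ?_)
    exact Finset.sum_congr rfl fun i _ => (hZ _).symm
  have hNb : N b ≤ avg fun ε => ‖f ε‖ := by
    have e : b = ∑ ε : Fin n → ℤˣ, c • fun j => ‖P j (f ε)‖ := by
      funext j
      rw [Finset.sum_apply]
      simp only [Pi.smul_apply, smul_eq_mul]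
      rw [← Finset.mul_sum]
      rfl
    rw [e]
    refine (hN.sum_le _ _).trans (le_of_eq ?_)
    rw [avg_real, Finset.mul_sum]
    refine Finset.sum_congr rfl fun ε _ => ?_
    rw [hN.smul, abs_of_nonneg hc0, ← hZ]
  -- concavity
  have h1 : mom q (rsum (coef f)) ≤ M * N fun j => mom q (rsum (coef fun ε => P j (f ε))) := by
    have h2 := hNc.fintype (fun (ε : Fin n → ℤˣ) j => c ^ (1 / q) * ‖P j (rad f ε)‖)
    have e1 : ∀ ε : Fin n → ℤˣ, N (fun j => c ^ (1 / q) * ‖P j (rad f ε)‖) ^ q =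
        c * rsum (coef f) ε ^ q := by
      intro ε
      have e2 : (fun j => c ^ (1 / q) * ‖P j (rad f ε)‖) =
          (c ^ (1 / q)) • fun j => ‖P j (rad f ε)‖ := rfl
      rw [e2, hN.smul, ← hZ, abs_of_nonneg (by positivity), Real.mul_rpow (by positivity)
        (norm_nonneg _), ← Real.rpow_mul hc0, one_div_mul_cancel hq0.ne', Real.rpow_one]
      rfl
    have e3 : ∀ j, (∑ ε : Fin n → ℤˣ, |c ^ (1 / q) * ‖P j (rad f ε)‖| ^ q) ^ (1 / q) =
        mom q (rsum (coef fun ε => P j (f ε))) := by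
      intro j
      rw [mom, avg_real, Finset.mul_sum]
      congr 1
      refine Finset.sum_congr rfl fun ε _ => ?_
      rw [abs_of_nonneg (by positivity), Real.mul_rpow (by positivity) (norm_nonneg _),
        ← Real.rpow_mul hc0, one_div_mul_cancel hq0.ne', Real.rpow_one, ← rad_map]
      rfl
    simp_rw [e1, e3] at h2
    rw [← Finset.mul_sum] at h2
    exact h2
  have h3 : N (fun j => mom q (rsum (coef fun ε => P j (f ε)))) ≤
      K * D * ((∑ i, ‖coef f i‖) ^ θ * (avg fun ε => ‖f ε‖) ^ (1 - θ)) := by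
    have h4 : ∀ j, |mom q (rsum (coef fun ε => P j (f ε)))| ≤
        |((K * D) • fun j => a j ^ θ * b j ^ (1 - θ)) j| := by
      intro j
      rw [abs_of_nonneg (mom_nonneg (rsum_nonneg _) q), Pi.smul_apply, smul_eq_mul]
      refine le_trans ?_ (le_abs_self _)
      refine (hK (Y j) n _).1.trans ?_
      have h5 := hY j n (fun ε => P j (f ε))
      have h6 : mom 2 (rsum (coef fun ε => P j (f ε))) ≤ D * a j ^ θ * b j ^ (1 - θ) := by
        refine le_trans (le_of_eq ?_) h5
        rw [mom]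
        congr 1
        refine av_congr fun ε => ?_
        rw [← Real.rpow_natCast]
        rfl
      refine (mul_le_mul_of_nonneg_left h6 hK0).trans (le_of_eq ?_)
      ring
    refine (hN.mono _ _ h4).trans ?_
    rw [hN.smul, abs_of_nonneg (by positivity)]
    exact mul_le_mul_of_nonneg_left (hN.holder hθ0 hθ1 ha0 hb0 hNa hNb) (by positivity)
  have h4 := (hK' Z n (coef f)).2
  have h5 : (avg fun ε => ‖rad f ε‖ ^ 2) ^ (1 / 2 : ℝ) = mom 2 (rsum (coef f)) := by
    rw [mom]
    congr 1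
    refine av_congr fun ε => ?_
    rw [← Real.rpow_natCast]
    rfl
  rw [h5]
  have h6 : mom q (rsum (coef f)) ≤
      M * (K * D * ((∑ i, ‖coef f i‖) ^ θ * (avg fun ε => ‖f ε‖) ^ (1 - θ))) :=
    h1.trans (mul_le_mul_of_nonneg_left h3 hM)
  refine h4.trans ((mul_le_mul_of_nonneg_left h6 hK0').trans (le_of_eq ?_))
  ring

end Vale.Agent.P111.R2.H351
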