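import Vale.Agent.P111.R2.H351.Lift

/-! Cotype of a space lifts families in the dual to functions on the cube. -/

namespace Vale.Agent.P111.R2.H351

open Vale.Agent.P111 Vale.Agent.P111.L1

variable {X : Type*} [NormedAddCommGroup X] [NormedSpace ℝ X]

omit [NormedSpace ℝ X] in
theorem nrm2_single_le {n : ℕ} (ε : Fin n → ℤˣ) (x : X) :
    nrm2 (Pi.single ε x : (Fin n → ℤˣ) → X) ≤ ‖x‖ := by
  classical
  have h : (avg fun ω => ‖(Pi.single ε x : (Fin n → ℤˣ) → X) ω‖ ^ 2) ≤ ‖x‖ ^ 2 := by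
    refine (avg_mono fun ω => ?_).trans (avg_const_le (c := ‖x‖ ^ 2) (by positivity))
    rcases eq_or_ne ω ε with h | h
    · subst h; simp
    · rw [Pi.single_eq_of_ne h]; simp
  calc nrm2 (Pi.single ε x : (Fin n → ℤˣ) → X) ≤ (‖x‖ ^ 2) ^ (1 / 2 : ℝ) :=
        Real.rpow_le_rpow (avg_nonneg fun _ => by positivity) h (by norm_num)
    _ = ‖x‖ := by rw [← Real.sqrt_eq_rpow, Real.sqrt_sq (norm_nonneg _)]

/-- The lifting lemma for the dual of a space of cotype `q`. -/
theorem liftWith_of_predual {q q' C : ℝ} (hqq : q.HolderConjugate q') (hC : 0 ≤ C)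
    (hX : CotypeWith q C X) : LiftWith q' C (X →L[ℝ] ℝ) := by
  classical
  intro n y c hc
  set A : ℝ := (∑ i, ‖y i‖ ^ q') ^ (1 / q') with hA
  have hA0 : 0 ≤ A := Real.rpow_nonneg (Finset.sum_nonneg fun _ _ => by positivity) _
  -- the functional on all functions which represents `y`
  let φ₀ : ((Fin n → ℤˣ) → X) →ₗ[ℝ] ℝ :=
    { toFun := fun h => ∑ i, y i (coef h i)
      map_add' := by
        intro h h'
        rw [← Finset.sum_add_distrib]
        refine Finset.sum_congr rfl fun i _ => ?_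
        rw [← map_add, ← coef_add]
        rfl
      map_smul' := by
        intro s h
        rw [RingHom.id_apply, smul_eq_mul, Finset.mul_sum]
        refine Finset.sum_congr rfl fun i _ => ?_
        rw [← smul_eq_mul, ← map_smul, ← coef_smul]
        rfl }
  let Rl : (Fin n → X) →ₗ[ℝ] ((Fin n → ℤˣ) → X) :=
    { toFun := fun x ε => ∑ i, sg (ε i) • x i
      map_add' := by
        intro x x'
        funext ε
        simp [smul_add, Finset.sum_add_distrib]
      map_smul' := by
        intro s x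
        funext ε
        simp only [RingHom.id_apply, Pi.smul_apply, Finset.smul_sum]
        exact Finset.sum_congr rfl fun i _ => smul_comm _ _ _ }
  have hRl : ∀ (x : Fin n → X) (ε : Fin n → ℤˣ), Rl x ε = ∑ i, sg (ε i) • x i := fun _ _ => rfl
  have hφR : ∀ x : Fin n → X, φ₀ (Rl x) = ∑ i, y i (x i) := by
    intro x
    change ∑ i, y i (coef (Rl x) i) = _
    refine Finset.sum_congr rfl fun i _ => ?_
    have := coef_sum x i
    exact congrArg (y i) this
  let f : ((Fin n → ℤˣ) → X) →ₗ.[ℝ] ℝ := ⟨LinearMap.range Rl, φ₀.domRestrict _⟩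
  -- the sublinear functional
  set c₀ : ℝ := C * A with hc₀
  have hc₀0 : 0 ≤ c₀ := mul_nonneg hC hA0
  have hN : ∃ Γ : ((Fin n → ℤˣ) → X) →ₗ[ℝ] ℝ, (∀ x : f.domain, Γ x = f x) ∧
      ∀ h, Γ h ≤ c₀ * nrm2 h := by
    refine exists_extension_of_le_sublinear f (fun h => c₀ * nrm2 h) ?_ ?_ ?_
    · intro s hs h
      have := nrm2_smul s h
      change c₀ * nrm2 (fun ω => s • h ω) = _
      rw [this, abs_of_pos hs]
      ring
    · intro h h'
      have := nrm2_add_le h h'
      change c₀ * nrm2 (fun ω => h ω + h' ω) ≤ _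
      rw [← mul_add]
      exact mul_le_mul_of_nonneg_left this hc₀0
    · rintro ⟨h, x, rfl⟩
      change φ₀ (Rl x) ≤ c₀ * nrm2 (Rl x)
      rw [hφR]
      have h1 : ∑ i, y i (x i) ≤ (∑ i, ‖y i‖ ^ q') ^ (1 / q') * (∑ i, ‖x i‖ ^ q) ^ (1 / q) :=
        holder_pair hqq.symm y x
      have h2 : (∑ i, ‖x i‖ ^ q) ^ (1 / q) ≤ C * nrm2 (Rl x) := hX n x
      calc ∑ i, y i (x i) ≤ A * (C * nrm2 (Rl x)) :=
            h1.trans (mul_le_mul_of_nonneg_left h2 hA0)
        _ = c₀ * nrm2 (Rl x) := by rw [hc₀]; ring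
  obtain ⟨Γ, hΓ1, hΓ2⟩ := hN
  set N : ℝ := (Fintype.card (Fin n → ℤˣ) : ℝ) with hNdef
  have hN0 : 0 < N := by
    rw [hNdef]; exact_mod_cast Fintype.card_pos
  -- the function `g`
  let g : (Fin n → ℤˣ) → X →L[ℝ] ℝ := fun ε =>
    LinearMap.mkContinuous
      { toFun := fun x => N * Γ (Pi.single ε x)
        map_add' := by
          intro x x'
          rw [Pi.single_add, map_add, mul_add]
        map_smul' := by
          intro s x
          rw [Pi.single_smul, map_smul]
          simp only [smul_eq_mul, RingHom.id_apply]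
          ring }
      (N * c₀) (by
        intro x
        change |N * Γ (Pi.single ε x)| ≤ _
        rw [abs_mul, abs_of_pos hN0, mul_assoc]
        refine mul_le_mul_of_nonneg_left (abs_le.mpr ⟨?_, ?_⟩) hN0.le
        · have h1 := hΓ2 (Pi.single ε (-x))
          rw [Pi.single_neg, map_neg] at h1
          have h2 := mul_le_mul_of_nonneg_left (nrm2_single_le ε (-x)) hc₀0
          rw [Pi.single_neg, norm_neg] at h2
          linarith
        · exact (hΓ2 _).trans (mul_le_mul_of_nonneg_left (nrm2_single_le ε x) hc₀0))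
  have hg : ∀ ε x, g ε x = N * Γ (Pi.single ε x) := fun _ _ => rfl
  have hgΓ : ∀ h : (Fin n → ℤˣ) → X, (avg fun ε => g ε (h ε)) = Γ h := by
    intro h
    rw [avg_real]
    simp_rw [hg]
    rw [← Finset.mul_sum, ← mul_assoc, inv_mul_cancel₀ hN0.ne', one_mul, ← map_sum,
      Finset.univ_sum_single]
  refine ⟨g, ?_, ?_⟩
  · intro i
    ext x
    have h1 : (coef g i) x = avg fun ε : Fin n → ℤˣ => g ε (sg (ε i) • x) := by
      rw [coef, avg, avg, _root_.smul_apply, _root_.sum_apply]
      simp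
    rw [h1, hgΓ fun ε : Fin n → ℤˣ => sg (ε i) • x]
    have h2 : (fun ε : Fin n → ℤˣ => sg (ε i) • x) = Rl (Pi.single i x) := by
      funext ε
      rw [hRl, Finset.sum_eq_single i]
      · simp
      · intro j _ hj
        rw [Pi.single_eq_of_ne hj, smul_zero]
      · simp
    rw [h2]
    have h3 := hΓ1 ⟨Rl (Pi.single i x), Pi.single i x, rfl⟩
    change Γ (Rl (Pi.single i x)) = φ₀ (Rl (Pi.single i x)) at h3
    rw [h3, hφR, Finset.sum_eq_single i]
    · simp
    · intro j _ hj
      rw [Pi.single_eq_of_ne hj, map_zero]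
    · simp
  · -- the norm of `g`
    have hc0 : 0 ≤ nrm2 g := nrm2_nonneg g
    have key : ∀ τ : ℝ, 0 < τ → (1 - τ) * nrm2 g ≤ c₀ := by
      intro τ hτ
      obtain ⟨w, hw1, hw2⟩ := exists_norming_fun g hτ
      rw [hgΓ] at hw2
      have h1 := hΓ2 w
      have h2 : nrm2 w ≤ nrm2 g := nrm2_mono hw1
      have h3 : (1 - τ) * nrm2 g ^ 2 ≤ c₀ * nrm2 g :=
        hw2.trans (h1.trans (mul_le_mul_of_nonneg_left h2 hc₀0))
      rcases eq_or_lt_of_le hc0 with h0 | h0
      · rw [← h0, mul_zero]; exact hc₀0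
      · have : (1 - τ) * nrm2 g * nrm2 g ≤ c₀ * nrm2 g := by
          calc (1 - τ) * nrm2 g * nrm2 g = (1 - τ) * nrm2 g ^ 2 := by ring
            _ ≤ _ := h3
        exact le_of_mul_le_mul_right this h0
    have h1 : nrm2 g ≤ c₀ := by
      refine le_of_forall_pos_le_add fun δ hδ => ?_
      have h2 := key (δ / (nrm2 g + 1)) (by positivity)
      have h3 : δ / (nrm2 g + 1) * nrm2 g ≤ δ := by
        rw [div_mul_eq_mul_div, div_le_iff₀ (by positivity)]
        nlinarith
      linarith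
    exact h1.trans hc.le

end Vale.Agent.P111.R2.H351
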