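import Vale.Agent.P111.R2.H351.Moments
import Mathlib.MeasureTheory.Function.LpSpace.Basic
import Mathlib.MeasureTheory.Integral.MeanInequalities

/-! Stability of the inequality `RadOne` under the passage to `L_q(μ; Z)`. -/

namespace Vale.Agent.P111.R2.H351

open Vale.Agent.P111 Vale.Agent.P111.L1 MeasureTheory
open scoped ENNReal

universe u v

variable {Ω : Type v} [MeasurableSpace Ω] {μ : Measure Ω}
  {Z : Type u} [NormedAddCommGroup Z] [NormedSpace ℝ Z] {q : ℝ≥0∞}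

omit [NormedSpace ℝ Z] in
theorem lintegral_enorm_rpow (hq0 : q ≠ 0) (hqt : q ≠ ∞) (F : Lp Z q μ) :
    ∫⁻ ω, ‖(F : Ω → Z) ω‖ₑ ^ q.toReal ∂μ = ‖F‖ₑ ^ q.toReal := by
  have hpos : 0 < q.toReal := ENNReal.toReal_pos hq0 hqt
  rw [Lp.enorm_def, eLpNorm_eq_lintegral_rpow_enorm_toReal hq0 hqt, ← ENNReal.rpow_mul,
    one_div_mul_cancel hpos.ne', ENNReal.rpow_one]

omit [NormedSpace ℝ Z] in
/-- Minkowski's inequality for finite combinations of norms. -/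
theorem lintegral_sum_norm_le {ι : Type*} [Fintype ι] [Fact (1 ≤ q)] (hqt : q ≠ ∞) (c : ℝ)
    (hc : 0 ≤ c) (F : ι → Lp Z q μ) :
    ∫⁻ ω, ENNReal.ofReal (∑ i, c * ‖(F i : Ω → Z) ω‖) ^ q.toReal ∂μ ≤
      ENNReal.ofReal (∑ i, c * ‖F i‖) ^ q.toReal := by
  have hq1 : 1 ≤ q := Fact.out
  have hq0 : q ≠ 0 := (lt_of_lt_of_le one_pos hq1).ne'
  have hpos : 0 < q.toReal := ENNReal.toReal_pos hq0 hqt
  set A : Ω → ℝ := ∑ i, fun ω => c * ‖(F i : Ω → Z) ω‖ with hA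
  have h1 : eLpNorm A q μ ≤ ∑ i, eLpNorm (fun ω => c * ‖(F i : Ω → Z) ω‖) q μ := by
    refine eLpNorm_sum_le (fun i _ => ?_) hq1
    exact ((Lp.aestronglyMeasurable (F i)).norm.const_mul c)
  have h2 : ∀ i, eLpNorm (fun ω => c * ‖(F i : Ω → Z) ω‖) q μ =
      ENNReal.ofReal (c * ‖F i‖) := by
    intro i
    have e1 : (fun ω => c * ‖(F i : Ω → Z) ω‖) = c • fun ω => ‖(F i : Ω → Z) ω‖ := rfl
    rw [e1, eLpNorm_const_smul, eLpNorm_norm, ← Lp.enorm_def, ENNReal.ofReal_mul hc,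
      ofReal_norm, Real.enorm_of_nonneg hc]
  simp_rw [h2] at h1
  rw [← ENNReal.ofReal_sum_of_nonneg fun i _ => by positivity] at h1
  have h3 : ∫⁻ ω, ENNReal.ofReal (∑ i, c * ‖(F i : Ω → Z) ω‖) ^ q.toReal ∂μ =
      eLpNorm A q μ ^ q.toReal := by
    rw [eLpNorm_eq_lintegral_rpow_enorm_toReal hq0 hqt, ← ENNReal.rpow_mul,
      one_div_mul_cancel hpos.ne', ENNReal.rpow_one]
    refine lintegral_congr fun ω => ?_
    congr 1
    rw [hA, Finset.sum_apply, Real.enorm_of_nonneg]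
    exact Finset.sum_nonneg fun i _ => by positivity
  rw [h3]
  exact ENNReal.rpow_le_rpow h1 hpos.le

omit [NormedSpace ℝ Z] in
theorem aemeas_sum {ι : Type*} [Fintype ι] (c : ℝ) (F : ι → Lp Z q μ) :
    AEMeasurable (fun ω => ENNReal.ofReal (∑ i, c * ‖(F i : Ω → Z) ω‖) ^ q.toReal) μ := by
  refine AEMeasurable.pow_const (AEMeasurable.ennreal_ofReal ?_) _
  refine Finset.aemeasurable_fun_sum _ fun i _ => ?_
  exact (Lp.aestronglyMeasurable (F i)).norm.aemeasurable.const_mul c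

/-- The values of Rademacher sums in `L_q(μ; Z)`. -/
theorem coeFn_rsum [Fact (1 ≤ q)] {n : ℕ} (z : Fin n → Lp Z q μ) :
    ∀ᵐ ω ∂μ, ∀ ε : Fin n → ℤˣ, ((∑ i, sg (ε i) • z i : Lp Z q μ) : Ω → Z) ω =
      ∑ i, sg (ε i) • (z i : Ω → Z) ω := by
  rw [ae_all_iff]
  intro ε
  have e1 : ((∑ i, sg (ε i) • z i : Lp Z q μ) : Ω → Z) =ᵐ[μ]
      ∑ i, ((sg (ε i) • z i : Lp Z q μ) : Ω → Z) := Lp.coeFn_finsetSum _ _
  have e2 : ∀ i, ((sg (ε i) • z i : Lp Z q μ) : Ω → Z) =ᵐ[μ] sg (ε i) • (z i : Ω → Z) :=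
    fun i => Lp.coeFn_smul _ _
  filter_upwards [e1, ae_all_iff.mpr e2] with ω h1 h2
  rw [h1, Finset.sum_apply]
  exact Finset.sum_congr rfl fun i _ => h2 i

/-- The values of the coefficients in `L_q(μ; Z)`. -/
theorem coeFn_coef [Fact (1 ≤ q)] {n : ℕ} (f : (Fin n → ℤˣ) → Lp Z q μ) :
    ∀ᵐ ω ∂μ, ∀ i, ((coef f i : Lp Z q μ) : Ω → Z) ω = coef (fun ε => (f ε : Ω → Z) ω) i := by
  rw [ae_all_iff]
  intro i
  have e0 : coef f i = (Fintype.card (Fin n → ℤˣ) : ℝ)⁻¹ • ∑ ε : Fin n → ℤˣ, sg (ε i) • f ε :=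
    rfl
  rw [e0]
  have e1 : (((Fintype.card (Fin n → ℤˣ) : ℝ)⁻¹ • ∑ ε : Fin n → ℤˣ, sg (ε i) • f ε :
      Lp Z q μ) : Ω → Z) =ᵐ[μ] (Fintype.card (Fin n → ℤˣ) : ℝ)⁻¹ •
      ((∑ ε : Fin n → ℤˣ, sg (ε i) • f ε : Lp Z q μ) : Ω → Z) := Lp.coeFn_smul _ _
  have e2 : ((∑ ε : Fin n → ℤˣ, sg (ε i) • f ε : Lp Z q μ) : Ω → Z) =ᵐ[μ]
      ∑ ε : Fin n → ℤˣ, ((sg (ε i) • f ε : Lp Z q μ) : Ω → Z) := Lp.coeFn_finsetSum _ _
  have e3 : ∀ ε : Fin n → ℤˣ, ((sg (ε i) • f ε : Lp Z q μ) : Ω → Z) =ᵐ[μ]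
      sg (ε i) • (f ε : Ω → Z) := fun ε => Lp.coeFn_smul _ _
  filter_upwards [e1, e2, ae_all_iff.mpr e3] with ω h1 h2 h3
  rw [h1, Pi.smul_apply, h2, Finset.sum_apply]
  simp only [h3, Pi.smul_apply]
  rfl

/-- Pointwise form of the inequality. -/
theorem pointwise {θ D K r : ℝ} (hr : 1 ≤ r) (hD : 0 ≤ D) (hK : 0 ≤ K)
    (hZ : RadOne θ D Z)
    (hKah : ∀ (n : ℕ) (z : Fin n → Z), mom r (rsum z) ≤ K * mom 2 (rsum z)) {n : ℕ}
    (f : (Fin n → ℤˣ) → Z) :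
    (avg fun ε : Fin n → ℤˣ => ‖∑ i, sg (ε i) • coef f i‖ ^ r) ≤
      (K * D) ^ r * (((∑ i, ‖coef f i‖) ^ r) ^ θ * ((avg fun ε => ‖f ε‖) ^ r) ^ (1 - θ)) := by
  have hr0 : 0 < r := by linarith
  have h1 := hKah n (coef f)
  have h2 : mom 2 (rsum (coef f)) ≤
      D * (∑ i, ‖coef f i‖) ^ θ * (avg fun ε => ‖f ε‖) ^ (1 - θ) := by
    have h := hZ n f
    have e : (avg fun ε => ‖rad f ε‖ ^ 2) = avg fun ε => rsum (coef f) ε ^ (2 : ℝ) :=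
      av_congr fun ε => by
        rw [← Real.rpow_natCast]
        rfl
    rw [e] at h
    exact h
  have hA : 0 ≤ ∑ i, ‖coef f i‖ := Finset.sum_nonneg fun _ _ => norm_nonneg _
  have hB : 0 ≤ avg fun ε => ‖f ε‖ := avg_nonneg fun _ => norm_nonneg _
  have h3 : mom r (rsum (coef f)) ≤
      K * D * ((∑ i, ‖coef f i‖) ^ θ * (avg fun ε => ‖f ε‖) ^ (1 - θ)) := by
    refine h1.trans ((mul_le_mul_of_nonneg_left h2 hK).trans (le_of_eq ?_))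
    ring
  have h4 := Real.rpow_le_rpow (mom_nonneg (rsum_nonneg (coef f)) r) h3 hr0.le
  rw [mom_rpow (rsum_nonneg (coef f)) hr0.ne'] at h4
  refine h4.trans (le_of_eq ?_)
  have e1 : ((∑ i, ‖coef f i‖) ^ θ) ^ r = ((∑ i, ‖coef f i‖) ^ r) ^ θ := by
    rw [← Real.rpow_mul hA, ← Real.rpow_mul hA, mul_comm]
  have e2 : ((avg fun ε => ‖f ε‖) ^ (1 - θ)) ^ r = ((avg fun ε => ‖f ε‖) ^ r) ^ (1 - θ) := by
    rw [← Real.rpow_mul hB, ← Real.rpow_mul hB, mul_comm]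
  have e3 : 0 ≤ (∑ i, ‖coef f i‖) ^ θ := Real.rpow_nonneg hA _
  have e4 : 0 ≤ (avg fun ε => ‖f ε‖) ^ (1 - θ) := Real.rpow_nonneg hB _
  rw [Real.mul_rpow (mul_nonneg hK hD) (mul_nonneg e3 e4), Real.mul_rpow e3 e4, e1, e2]

/-- The integrated inequality, for the moments of order `q`. -/
theorem integrated [Fact (1 ≤ q)] (hqt : q ≠ ∞) {θ D K : ℝ} (hθ0 : 0 ≤ θ) (hθ1 : θ ≤ 1)
    (hD : 0 ≤ D) (hK : 0 ≤ K) (hZ : RadOne θ D Z)
    (hKah : ∀ (n : ℕ) (z : Fin n → Z), mom q.toReal (rsum z) ≤ K * mom 2 (rsum z)) {n : ℕ}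
    (f : (Fin n → ℤˣ) → Lp Z q μ) :
    (avg fun ε : Fin n → ℤˣ => ‖∑ i, sg (ε i) • coef f i‖ ^ q.toReal) ≤
      (K * D) ^ q.toReal * (((∑ i, ‖coef f i‖) ^ q.toReal) ^ θ *
        ((avg fun ε => ‖f ε‖) ^ q.toReal) ^ (1 - θ)) := by
  have hq1 : 1 ≤ q := Fact.out
  have hq0 : q ≠ 0 := (lt_of_lt_of_le one_pos hq1).ne'
  have hpos : 0 < q.toReal := ENNReal.toReal_pos hq0 hqt
  have hr1 : 1 ≤ q.toReal := by
    rw [← ENNReal.toReal_one]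
    exact ENNReal.toReal_mono hqt hq1
  obtain ⟨r, hr⟩ : ∃ r : ℝ, r = q.toReal := ⟨_, rfl⟩
  set N : ℝ := (Fintype.card (Fin n → ℤˣ) : ℝ)⁻¹ with hN
  have hN0 : 0 ≤ N := by positivity
  have hA : 0 ≤ ∑ i, ‖coef f i‖ := Finset.sum_nonneg fun _ _ => norm_nonneg _
  have hB : 0 ≤ avg fun ε => ‖f ε‖ := avg_nonneg fun _ => norm_nonneg _
  have hBeq : (avg fun ε => ‖f ε‖) = ∑ ε, N * ‖f ε‖ := by
    rw [avg_real, Finset.mul_sum]
  have hLeq : (avg fun ε : Fin n → ℤˣ => ‖∑ i, sg (ε i) • coef f i‖ ^ q.toReal) =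
      ∑ ε : Fin n → ℤˣ, N * ‖∑ i, sg (ε i) • coef f i‖ ^ q.toReal := by
    rw [avg_real, Finset.mul_sum]
  have hR0 : 0 ≤ (K * D) ^ q.toReal * (((∑ i, ‖coef f i‖) ^ q.toReal) ^ θ *
        ((avg fun ε => ‖f ε‖) ^ q.toReal) ^ (1 - θ)) := by positivity
  rw [← ENNReal.ofReal_le_ofReal_iff hR0]
  -- the left side as an integral
  have l1 : ENNReal.ofReal (avg fun ε : Fin n → ℤˣ => ‖∑ i, sg (ε i) • coef f i‖ ^ q.toReal) =
      ∫⁻ ω, ENNReal.ofReal (∑ ε : Fin n → ℤˣ,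
        N * ‖((∑ i, sg (ε i) • coef f i : Lp Z q μ) : Ω → Z) ω‖ ^ q.toReal) ∂μ := by
    have m1 : ∀ ω, ENNReal.ofReal (∑ ε : Fin n → ℤˣ,
        N * ‖((∑ i, sg (ε i) • coef f i : Lp Z q μ) : Ω → Z) ω‖ ^ q.toReal) =
        ∑ ε : Fin n → ℤˣ, ENNReal.ofReal N *
          ‖((∑ i, sg (ε i) • coef f i : Lp Z q μ) : Ω → Z) ω‖ₑ ^ q.toReal := by
      intro ω
      rw [ENNReal.ofReal_sum_of_nonneg fun ε _ => by positivity]
      refine Finset.sum_congr rfl fun ε _ => ?_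
      rw [ENNReal.ofReal_mul hN0, ← ENNReal.ofReal_rpow_of_nonneg (norm_nonneg _) hpos.le,
        ofReal_norm]
    simp_rw [m1]
    rw [lintegral_finsetSum' _ fun ε _ => by
      exact ((Lp.aestronglyMeasurable _).enorm.pow_const _).const_mul _]
    rw [hLeq, ENNReal.ofReal_sum_of_nonneg fun ε _ => by positivity]
    refine Finset.sum_congr rfl fun ε _ => ?_
    rw [lintegral_const_mul'' _ ((Lp.aestronglyMeasurable _).enorm.pow_const _),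
      lintegral_enorm_rpow hq0 hqt, ENNReal.ofReal_mul hN0,
      ← ENNReal.ofReal_rpow_of_nonneg (norm_nonneg _) hpos.le, ofReal_norm]
  rw [l1]
  -- the pointwise inequality
  have l2 : ∀ᵐ ω ∂μ, ENNReal.ofReal (∑ ε : Fin n → ℤˣ,
        N * ‖((∑ i, sg (ε i) • coef f i : Lp Z q μ) : Ω → Z) ω‖ ^ q.toReal) ≤
      ENNReal.ofReal ((K * D) ^ q.toReal) *
        ((ENNReal.ofReal (∑ i, 1 * ‖((coef f i : Lp Z q μ) : Ω → Z) ω‖) ^ q.toReal) ^ θ *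
        (ENNReal.ofReal (∑ ε, N * ‖(f ε : Ω → Z) ω‖) ^ q.toReal) ^ (1 - θ)) := by
    filter_upwards [coeFn_rsum (coef f), coeFn_coef f] with ω h1 h2
    have h3 := pointwise hr1 hD hK hZ hKah (fun ε => (f ε : Ω → Z) ω)
    have h4 : (∑ ε : Fin n → ℤˣ,
        N * ‖((∑ i, sg (ε i) • coef f i : Lp Z q μ) : Ω → Z) ω‖ ^ q.toReal) ≤
        (K * D) ^ q.toReal * (((∑ i, 1 * ‖((coef f i : Lp Z q μ) : Ω → Z) ω‖) ^ q.toReal) ^ θ *
          ((∑ ε, N * ‖(f ε : Ω → Z) ω‖) ^ q.toReal) ^ (1 - θ)) := by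
      rw [avg_real, avg_real, Finset.mul_sum, Finset.mul_sum] at h3
      simp_rw [one_mul, h1, h2]
      exact h3
    have hA' : 0 ≤ ∑ i, 1 * ‖((coef f i : Lp Z q μ) : Ω → Z) ω‖ :=
      Finset.sum_nonneg fun _ _ => by positivity
    have hB' : 0 ≤ ∑ ε, N * ‖(f ε : Ω → Z) ω‖ := Finset.sum_nonneg fun _ _ => by positivity
    refine (ENNReal.ofReal_le_ofReal h4).trans (le_of_eq ?_)
    rw [ENNReal.ofReal_mul (by positivity), ENNReal.ofReal_mul (by positivity),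
      ENNReal.ofReal_rpow_of_nonneg hA' hpos.le, ENNReal.ofReal_rpow_of_nonneg hB' hpos.le,
      ENNReal.ofReal_rpow_of_nonneg (by positivity) hθ0,
      ENNReal.ofReal_rpow_of_nonneg (by positivity) (by linarith)]
  refine (lintegral_mono_ae l2).trans ?_
  have hmeas : AEMeasurable (fun ω =>
      (ENNReal.ofReal (∑ i, 1 * ‖((coef f i : Lp Z q μ) : Ω → Z) ω‖) ^ q.toReal) ^ θ *
      (ENNReal.ofReal (∑ ε, N * ‖(f ε : Ω → Z) ω‖) ^ q.toReal) ^ (1 - θ)) μ :=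
    ((aemeas_sum 1 (coef f)).pow_const _).mul ((aemeas_sum N f).pow_const _)
  rw [lintegral_const_mul'' _ hmeas]
  rw [ENNReal.ofReal_mul (by positivity), ENNReal.ofReal_mul (by positivity)]
  refine mul_le_mul_right ?_ _
  refine (ENNReal.lintegral_mul_norm_pow_le (aemeas_sum 1 (coef f)) (aemeas_sum N f) hθ0
    (by linarith) (by ring)).trans ?_
  have k1 := lintegral_sum_norm_le (μ := μ) hqt 1 zero_le_one (coef f)
  have k2 := lintegral_sum_norm_le (μ := μ) hqt N hN0 f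
  rw [← hBeq] at k2
  simp only [one_mul] at k1
  refine mul_le_mul' ?_ ?_
  · rw [← ENNReal.ofReal_rpow_of_nonneg (by positivity) hθ0,
      ← ENNReal.ofReal_rpow_of_nonneg hA hpos.le]
    refine ENNReal.rpow_le_rpow ?_ hθ0
    simpa only [one_mul] using k1
  · rw [← ENNReal.ofReal_rpow_of_nonneg (by positivity) (by linarith),
      ← ENNReal.ofReal_rpow_of_nonneg hB hpos.le]
    exact ENNReal.rpow_le_rpow k2 (by linarith)

/-- If `Z` satisfies the inequality, so does `L_q(μ; Z)` for all `1 ≤ q < ∞`. -/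
theorem radOne_Lp (q : ℝ≥0∞) [Fact (1 ≤ q)] (hqt : q ≠ ∞) {θ D : ℝ} (hθ0 : 0 ≤ θ)
    (hθ1 : θ ≤ 1) (hD : 0 ≤ D) : ∃ D' : ℝ, 0 ≤ D' ∧ ∀ (Z : Type u) [NormedAddCommGroup Z]
      [NormedSpace ℝ Z] (Ω : Type v) [MeasurableSpace Ω] (μ : Measure Ω),
      RadOne θ D Z → RadOne θ D' (Lp Z q μ) := by
  have hq1 : 1 ≤ q := Fact.out
  have hr1 : 1 ≤ q.toReal := by
    rw [← ENNReal.toReal_one]
    exact ENNReal.toReal_mono hqt hq1
  have hr0 : 0 < q.toReal := by linarith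
  obtain ⟨K, hK0, hK⟩ := kahane.{u} q.toReal hr1
  obtain ⟨K', hK0', hK'⟩ := kahane.{max u v} q.toReal hr1
  refine ⟨K' * (K * D), by positivity, fun Z _ _ Ω _ μ hZ n f => ?_⟩
  have h1 := integrated (μ := μ) hqt hθ0 hθ1 hD hK0 hZ (fun n z => (hK Z n z).1) f
  have hA : 0 ≤ ∑ i, ‖coef f i‖ := Finset.sum_nonneg fun _ _ => norm_nonneg _
  have hB : 0 ≤ avg fun ε => ‖f ε‖ := avg_nonneg fun _ => norm_nonneg _
  have h2 : mom q.toReal (rsum (coef f)) ≤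
      K * D * ((∑ i, ‖coef f i‖) ^ θ * (avg fun ε => ‖f ε‖) ^ (1 - θ)) := by
    have h3 := Real.rpow_le_rpow (av_rpow_nonneg (rsum_nonneg (coef f)) q.toReal) h1
      (show (0 : ℝ) ≤ 1 / q.toReal by positivity)
    refine h3.trans (le_of_eq ?_)
    have hKD : 0 ≤ K * D := by positivity
    have hKD' : 0 ≤ (K * D) ^ q.toReal := Real.rpow_nonneg hKD _
    have hA' : 0 ≤ ((∑ i, ‖coef f i‖) ^ q.toReal) ^ θ := by positivity
    have hB' : 0 ≤ ((avg fun ε => ‖f ε‖) ^ q.toReal) ^ (1 - θ) := by positivity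
    rw [Real.mul_rpow hKD' (mul_nonneg hA' hB'), Real.mul_rpow hA' hB']
    have e : ∀ (x y : ℝ), 0 ≤ x → ((x ^ q.toReal) ^ y) ^ (1 / q.toReal) = x ^ y := by
      intro x y hx
      rw [← Real.rpow_mul hx, ← Real.rpow_mul hx]
      congr 1
      field_simp
    rw [e _ _ hA, e _ _ hB, ← Real.rpow_mul hKD, mul_one_div_cancel hr0.ne', Real.rpow_one]
  have h4 := (hK' (Lp Z q μ) n (coef f)).2
  have h5 : (avg fun ε => ‖rad f ε‖ ^ 2) ^ (1 / 2 : ℝ) = mom 2 (rsum (coef f)) := by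
    rw [mom]
    congr 1
    refine av_congr fun ε => ?_
    rw [← Real.rpow_natCast]
    rfl
  rw [h5]
  refine h4.trans ((mul_le_mul_of_nonneg_left h2 hK0').trans (le_of_eq ?_))
  ring

end Vale.Agent.P111.R2.H351
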