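import Vale.Agent.P111.R2.H351.Near
import Vale.Agent.P111.R2.H351.LiftDual
import Vale.Agent.P111.R2.H351.Lq
import Vale.Agent.P111.R2.H351.Lat
import Vale.Agent.P111.R2.H351.CStar
import Vale.Agent.P111.R2.H351.Classes
import Vale.Agent.P111.R2.H351.Forms

/-! Assembly. -/

namespace Vale.Agent.P111.R2.H351

open Vale.Agent.P111 Vale.Agent.P111.L1 MeasureTheory
open scoped ENNReal

universe u v w

section

variable {X : Type u} [NormedAddCommGroup X] [NormedSpace ℝ X]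

theorem nrm2_rad_le {n : ℕ} (f : (Fin n → ℤˣ) → X) :
    (avg fun ε => ‖rad f ε‖ ^ 2) ^ (1 / 2 : ℝ) ≤ ∑ i, ‖coef f i‖ :=
  nrm2_rsum_le (coef f)

theorem NearLift.mono {δ δ' κ η : ℝ} (h : NearLift δ κ η X) (hδ : δ ≤ δ') :
    NearLift δ' κ η X := by
  intro n f h1 hf
  refine h n f h1 (le_trans ?_ hf)
  exact mul_le_mul_of_nonneg_right hδ (by positivity)

/-- The inequality `RadTwo` with `θ < 1` implies the near-extremal condition. -/
theorem RadTwo.near {θ D : ℝ} (hθ : θ < 1) (h : RadTwo θ D X) :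
    ∃ η : ℝ, 0 < η ∧ NearLift (1 / 2) 0 η X := by
  set D' : ℝ := max D 1 with hD'
  have hD'1 : 1 ≤ D' := le_max_right _ _
  have hD'0 : 0 < D' := by linarith
  have h1θ : 0 < 1 - θ := by linarith
  have hc0 : 0 < (1 / (2 * D')) ^ (1 / (1 - θ)) := by positivity
  refine ⟨(1 / (2 * D')) ^ (1 / (1 - θ)) / 2, by positivity, fun n f hf1 hf => ?_⟩
  rw [sub_zero, Real.rpow_one]
  set A : ℝ := ∑ i, ‖coef f i‖ with hA
  have hAn : A ≤ n := by
    calc A ≤ ∑ _i : Fin n, (1 : ℝ) := Finset.sum_le_sum fun i _ => hf1 i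
      _ = n := by simp
  have hnA : 1 / 2 * (n : ℝ) ≤ A := hf.trans (nrm2_rad_le f)
  have hfA : 1 / 2 * A ≤ (avg fun ε => ‖rad f ε‖ ^ 2) ^ (1 / 2 : ℝ) := by linarith
  have h1 := hfA.trans (h n f)
  set B : ℝ := (avg fun ε => ‖f ε‖ ^ 2) ^ (1 / 2 : ℝ) with hB
  have hQ0 : 0 ≤ avg fun ε => ‖f ε‖ ^ 2 := avg_nonneg fun _ => by positivity
  have hA0 : 0 ≤ A := Finset.sum_nonneg fun _ _ => norm_nonneg _
  have hB0 : 0 ≤ B := Real.rpow_nonneg hQ0 _
  have e1 : (avg fun ε => ‖f ε‖ ^ 2) ^ ((1 - θ) / 2) = B ^ (1 - θ) := by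
    rw [hB, ← Real.rpow_mul hQ0]
    congr 1
    ring
  rw [e1] at h1
  have key : (1 / (2 * D')) ^ (1 / (1 - θ)) * A ≤ B := by
    rcases eq_or_lt_of_le hA0 with h0 | hApos
    · rw [← h0, mul_zero]; exact hB0
    have h2 : 1 / 2 * A ≤ D' * A ^ θ * B ^ (1 - θ) := by
      refine h1.trans ?_
      refine mul_le_mul_of_nonneg_right ?_ (by positivity)
      exact mul_le_mul_of_nonneg_right (le_max_left _ _) (by positivity)
    have h3 : A = A ^ θ * A ^ (1 - θ) := by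
      rw [← Real.rpow_add hApos]
      simp
    have hAθ : 0 < A ^ θ := Real.rpow_pos_of_pos hApos _
    have h4 : 1 / (2 * D') * A ^ (1 - θ) ≤ B ^ (1 - θ) := by
      have h5 : A ^ θ * (1 / 2 * A ^ (1 - θ)) ≤ A ^ θ * (D' * B ^ (1 - θ)) := by
        calc A ^ θ * (1 / 2 * A ^ (1 - θ)) = 1 / 2 * (A ^ θ * A ^ (1 - θ)) := by ring
          _ = 1 / 2 * A := by rw [← h3]
          _ ≤ D' * A ^ θ * B ^ (1 - θ) := h2
          _ = _ := by ring
      have h6 := le_of_mul_le_mul_left h5 hAθ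
      calc 1 / (2 * D') * A ^ (1 - θ) = (1 / 2 * A ^ (1 - θ)) / D' := by field_simp
        _ ≤ (D' * B ^ (1 - θ)) / D' := div_le_div_of_nonneg_right h6 hD'0.le
        _ = B ^ (1 - θ) := by field_simp
    have h7 := Real.rpow_le_rpow (by positivity) h4 (show 0 ≤ 1 / (1 - θ) by positivity)
    rw [Real.mul_rpow (by positivity) (by positivity), ← Real.rpow_mul hA0,
      ← Real.rpow_mul hB0, mul_one_div_cancel h1θ.ne', Real.rpow_one, Real.rpow_one] at h7
    exact h7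
  calc (1 / (2 * D')) ^ (1 / (1 - θ)) / 2 * n = (1 / (2 * D')) ^ (1 / (1 - θ)) * (1 / 2 * n) := by
        ring
    _ ≤ (1 / (2 * D')) ^ (1 / (1 - θ)) * A := mul_le_mul_of_nonneg_left hnA hc0.le
    _ ≤ B := key

/-- Slow growth of the norms of the Rademacher projections implies the near-extremal
condition. -/
theorem RadGrowth.near {κ C : ℝ} (hκ : κ < 1) (h : RadGrowth κ C X) :
    ∃ η : ℝ, 0 < η ∧ NearLift (1 / 2) κ η X := by
  set C' : ℝ := max C 1 with hC'
  have hC'1 : 1 ≤ C' := le_max_right _ _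
  have hC'0 : 0 < C' := by linarith
  refine ⟨1 / (2 * C'), by positivity, fun n f _ hf => ?_⟩
  rcases Nat.eq_zero_or_pos n with h0 | hn
  · subst h0
    rw [Nat.cast_zero, Real.zero_rpow (by linarith), mul_zero]
    exact Real.rpow_nonneg (avg_nonneg fun _ => by positivity) _
  have hn0 : (0 : ℝ) < n := by exact_mod_cast hn
  have hB0 : 0 ≤ (avg fun ε => ‖f ε‖ ^ 2) ^ (1 / 2 : ℝ) :=
    Real.rpow_nonneg (avg_nonneg fun _ => by positivity) _
  have h1 := hf.trans (h n f)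
  have h2 : 1 / 2 * (n : ℝ) ≤ C' * (n : ℝ) ^ κ * (avg fun ε => ‖f ε‖ ^ 2) ^ (1 / 2 : ℝ) := by
    refine h1.trans (mul_le_mul_of_nonneg_right ?_ hB0)
    exact mul_le_mul_of_nonneg_right (le_max_left _ _) (by positivity)
  have h3 : (n : ℝ) = (n : ℝ) ^ κ * (n : ℝ) ^ (1 - κ) := by
    rw [← Real.rpow_add hn0]
    simp
  have hnκ : 0 < (n : ℝ) ^ κ := Real.rpow_pos_of_pos hn0 _
  have h4 : (n : ℝ) ^ κ * (1 / (2 * C') * (n : ℝ) ^ (1 - κ)) ≤
      (n : ℝ) ^ κ * (avg fun ε => ‖f ε‖ ^ 2) ^ (1 / 2 : ℝ) := by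
    calc (n : ℝ) ^ κ * (1 / (2 * C') * (n : ℝ) ^ (1 - κ))
        = (1 / 2 * ((n : ℝ) ^ κ * (n : ℝ) ^ (1 - κ))) / C' := by field_simp
      _ = (1 / 2 * (n : ℝ)) / C' := by rw [← h3]
      _ ≤ (C' * (n : ℝ) ^ κ * (avg fun ε => ‖f ε‖ ^ 2) ^ (1 / 2 : ℝ)) / C' :=
          div_le_div_of_nonneg_right h2 hC'0.le
      _ = _ := by field_simp
  exact le_of_mul_le_mul_left h4 hnκ

/-- The near-extremal criterion, with uniform constants. -/
theorem type_of_near {s C δ κ η : ℝ} (hs1 : 1 < s) (hC : 0 ≤ C) (hδ : δ < 1)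
    (hκ : κ < 1 - 1 / s) (hη : 0 < η) : ∃ p T : ℝ, 1 < p ∧ p ≤ 2 ∧
      ∀ (X : Type u) [NormedAddCommGroup X] [NormedSpace ℝ X], LiftWith s C X →
        NearLift δ κ η X → TypeWith p T X := by
  -- enlarge `δ`
  set δ' : ℝ := max δ (1 / 2) with hδ'
  have hδ'0 : 0 < δ' := lt_max_of_lt_right (by norm_num)
  have hδ'1 : δ' < 1 := max_lt hδ (by norm_num)
  -- choose `m`
  have hs0 : 0 < s := by linarith
  have hexp : 0 < 1 - κ - 1 / s := by linarith
  have htend : Filter.Tendsto (fun m : ℕ => (m : ℝ) ^ (1 - κ - 1 / s)) Filter.atTop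
      Filter.atTop := (tendsto_rpow_atTop hexp).comp tendsto_natCast_atTop_atTop
  obtain ⟨m, hm1, hm2⟩ := ((htend.eventually (Filter.eventually_gt_atTop ((C + 1) / η))).and
    (Filter.eventually_ge_atTop 2)).exists
  have hm0 : (0 : ℝ) < m := by
    have : 0 < m := by omega
    exact_mod_cast this
  have hbig : (C + 1) * (m : ℝ) ^ (1 / s) < η * (m : ℝ) ^ (1 - κ) := by
    rw [div_lt_iff₀ hη] at hm1
    have e : (m : ℝ) ^ (1 - κ) = (m : ℝ) ^ (1 - κ - 1 / s) * (m : ℝ) ^ (1 / s) := by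
      rw [← Real.rpow_add hm0]
      congr 1
      ring
    rw [e]
    calc (C + 1) * (m : ℝ) ^ (1 / s) < ((m : ℝ) ^ (1 - κ - 1 / s) * η) * (m : ℝ) ^ (1 / s) :=
          mul_lt_mul_of_pos_right hm1 (Real.rpow_pos_of_pos hm0 _)
      _ = _ := by ring
  have hβ0 : 0 < 1 - (1 - δ') ^ 2 / 8 := by nlinarith
  have hβ1 : 1 - (1 - δ') ^ 2 / 8 < 1 := by
    have : 0 < (1 - δ') ^ 2 := by
      have : 0 < 1 - δ' := by linarith
      positivity
    linarith
  obtain ⟨a, ha0, ha1, hlev⟩ := level_of_subB.{u} hm2 hβ0 hβ1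
  -- the type
  have h1a : 0 < 1 + a := by linarith
  refine ⟨2 / (1 + a), √m * (2 ^ (2 / (1 + a) * a) / (1 - 2 ^ (2 / (1 + a) * a - 1))), ?_, ?_,
    ?_⟩
  · rw [lt_div_iff₀ h1a]; linarith
  · rw [div_le_iff₀ h1a]; linarith
  intro X _ _ hX hnear n x
  have hsub := subB_of_near hs0 hC hδ'0 hδ'1 hX (hnear.mono (le_max_left _ _)) (by omega) hbig
  have hpa : 2 / (1 + a) * a < 1 := by
    rw [div_mul_eq_mul_div, div_lt_one h1a]
    linarith
  exact type_of_level (Real.sqrt_nonneg _) ha0 (by positivity) hpa (ContinuousLinearMap.id ℝ X)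
    (fun y I t ht hI hyt => hlev X hsub n y I t ht hI hyt) x

theorem radClass_of_type {p : ℝ} (h : HasType p X) : RadClass X := by
  obtain ⟨hp1, hp2, T, hT⟩ := h
  have hT' : TypeWith p (max T 0) X := fun n y =>
    (hT n y).trans (mul_le_mul_of_nonneg_right (le_max_left _ _) (by positivity))
  refine ⟨1 / p, max T 0, by positivity, ?_, le_max_right _ _, radOne_of_type hp1.le
    (le_max_right _ _) hT'⟩
  rw [div_lt_one (by linarith)]
  exact hp1

/-- The conditions are equivalent as soon as families can be lifted. -/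
theorem equiv_of_lift {r C : ℝ} (hr : 2 ≤ r) (hC : 0 ≤ C)
    (hX : LiftWith r.conjExponent C X) : Equivalences r X := by
  have hs1 : 1 < r.conjExponent :=
    (Real.HolderConjugate.conjExponent (show 1 < r by linarith)).symm.lt
  have hexp : 1 - 1 / r.conjExponent = 1 / r := by
    have hr0 : r ≠ 0 := by linarith
    have hr1 : r - 1 ≠ 0 := by linarith
    rw [Real.conjExponent]
    field_simp
    ring
  have hr1 : 1 / r < 1 := by
    rw [div_lt_one (by linarith)]; linarith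
  have hr0 : 0 < 1 / r := by
    have : 0 < r := by linarith
    positivity
  have h1 : (∃ δ κ η : ℝ, δ < 1 ∧ κ < 1 / r ∧ 0 < η ∧ NearLift δ κ η X) →
      ∃ p, HasType p X := by
    rintro ⟨δ, κ, η, hδ, hκ, hη, h⟩
    rw [← hexp] at hκ
    obtain ⟨p, T, hp1, hp2, hT⟩ := type_of_near.{u} hs1 hC hδ hκ hη
    exact ⟨p, hp1, hp2, T, hT X hX h⟩
  have h2 : (∃ θ D : ℝ, θ < 1 ∧ RadTwo θ D X) →
      ∃ δ κ η : ℝ, δ < 1 ∧ κ < 1 / r ∧ 0 < η ∧ NearLift δ κ η X := by
    rintro ⟨θ, D, hθ, h⟩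
    obtain ⟨η, hη, h⟩ := h.near hθ
    exact ⟨1 / 2, 0, η, by norm_num, hr0, hη, h⟩
  have h3 : RadClass X → ∃ θ D : ℝ, θ < 1 ∧ RadTwo θ D X := by
    rintro ⟨θ, D, _, hθ, hD, h⟩
    exact ⟨θ, D, hθ, h.radTwo hD hθ.le⟩
  have h4 : (∃ p, HasType p X) → RadClass X := fun ⟨p, h⟩ => radClass_of_type h
  refine ⟨⟨h4, fun h => h1 (h2 (h3 h))⟩, ⟨fun h => h3 (h4 h), fun h => h1 (h2 h)⟩,
    ⟨fun h => h2 (h3 (h4 h)), h1⟩, ?_⟩
  rintro ⟨κ, C', hκ, h⟩
  obtain ⟨η, hη, h⟩ := h.near (hκ.trans hr1)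
  exact h1 ⟨1 / 2, κ, η, by norm_num, hκ, hη, h⟩

end

/-- A space whose dual has cotype `r` has the lifting property. -/
theorem lift_of_cotype_dual {r C : ℝ} (hr : 2 ≤ r) (X : Type u) [NormedAddCommGroup X]
    [NormedSpace ℝ X] (h : CotypeLe r C (X →L[ℝ] ℝ)) :
    LiftWith r.conjExponent (max C 0) X :=
  liftWith_of_dual (Real.HolderConjugate.conjExponent (by linarith)) (le_max_right _ _)
    fun n y => (h n y).trans (mul_le_mul_of_nonneg_right (le_max_left _ _)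
      (Real.rpow_nonneg (avg_nonneg fun _ => by positivity) _))

/-- The dual of a space of cotype `r` has the lifting property. -/
theorem lift_of_cotype_predual {r C : ℝ} (hr : 2 ≤ r) (X : Type u) [NormedAddCommGroup X]
    [NormedSpace ℝ X] (h : CotypeLe r C X) :
    LiftWith r.conjExponent (max C 0) (X →L[ℝ] ℝ) :=
  liftWith_of_predual (Real.HolderConjugate.conjExponent (by linarith)) (le_max_right _ _)
    fun n y => (h n y).trans (mul_le_mul_of_nonneg_right (le_max_left _ _)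
      (Real.rpow_nonneg (avg_nonneg fun _ => by positivity) _))

/-- Operators into spaces with the inequality `RadTwo` or `RadOne`. -/
theorem ops_of_lift {r C θ D p : ℝ} (hr : 2 ≤ r) (hC : 0 ≤ C) (hθ0 : 0 ≤ θ) (hθ1 : θ < 1)
    (hp : 0 < p) (hpr : p * (r - 1 + θ) < r) : ∃ K : ℝ,
      ∀ (X : Type u) [NormedAddCommGroup X] [NormedSpace ℝ X] (Z : Type v)
        [NormedAddCommGroup Z] [NormedSpace ℝ Z], RadTwo θ D Z ∨ RadOne θ D Z →
        LiftWith r.conjExponent C X → OpsTypeWith p K X Z := by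
  have hr0 : 0 < r := by linarith
  have hr1 : r - 1 ≠ 0 := by linarith
  have hs0 : 0 < r.conjExponent := by
    rw [Real.conjExponent]
    exact div_pos hr0 (by linarith)
  have hpa : p * (θ + (1 - θ) / r.conjExponent) < 1 := by
    have e : θ + (1 - θ) / r.conjExponent = (r - 1 + θ) / r := by
      rw [Real.conjExponent]
      field_simp
      ring
    rw [e, ← mul_div_assoc, div_lt_one hr0]
    exact hpr
  refine ⟨kst r.conjExponent C θ (max D 0) p, fun X _ _ Z _ _ hZ hX J n x => ?_⟩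
  have hZ' : RadTwo θ (max D 0) Z := by
    rcases hZ with hZ | hZ
    · intro n f
      exact (hZ n f).trans (mul_le_mul_of_nonneg_right (mul_le_mul_of_nonneg_right
        (le_max_left _ _) (Real.rpow_nonneg (Finset.sum_nonneg fun _ _ => norm_nonneg _) _))
        (Real.rpow_nonneg (avg_nonneg fun _ => by positivity) _))
    · have hZ' : RadOne θ (max D 0) Z := fun n f =>
        (hZ n f).trans (mul_le_mul_of_nonneg_right (mul_le_mul_of_nonneg_right
          (le_max_left _ _) (Real.rpow_nonneg (Finset.sum_nonneg fun _ _ => norm_nonneg _) _))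
          (Real.rpow_nonneg (avg_nonneg fun _ => norm_nonneg _) _))
      exact hZ'.radTwo (le_max_right _ _) hθ1.le
  exact strong_type hs0 hC hθ0 hθ1.le (le_max_right _ _) hp hpa hX hZ' J x

theorem uniform_form {r : ℝ} (hr : 2 ≤ r) (C : ℝ) : Uniform.{u, v} r C := by
  have hs1 : 1 < r.conjExponent :=
    (Real.HolderConjugate.conjExponent (show 1 < r by linarith)).symm.lt
  have hexp : 1 - 1 / r.conjExponent = 1 / r := by
    have hr0 : r ≠ 0 := by linarith
    have hr1 : r - 1 ≠ 0 := by linarith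
    rw [Real.conjExponent]
    field_simp
    ring
  refine ⟨fun δ κ η hδ hκ hη => ?_, fun θ D p hθ0 hθ1 hp hpr => ?_⟩
  · rw [← hexp] at hκ
    obtain ⟨p, T, hp1, hp2, hT⟩ := type_of_near.{u} hs1 (le_max_right C 0) hδ hκ hη
    exact ⟨p, T, hp1, hp2, fun X _ _ =>
      ⟨fun h hn => hT X (lift_of_cotype_dual hr X h) hn,
        fun h hn => hT (X →L[ℝ] ℝ) (lift_of_cotype_predual hr X h) hn⟩⟩
  · obtain ⟨K, hK⟩ := ops_of_lift.{u, v} (D := D) hr (le_max_right C 0) hθ0 hθ1 hp hpr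
    exact ⟨K, fun X _ _ Z _ _ hZ => ⟨fun h => hK X Z hZ (lift_of_cotype_dual hr X h),
      fun h => hK (X →L[ℝ] ℝ) Z hZ (lift_of_cotype_predual hr X h)⟩⟩

end Vale.Agent.P111.R2.H351
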