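import Vale.Agent.P111.R2.H351.Basic

/-! Kahane's inequality for Rademacher sums in normed spaces. -/

namespace Vale.Agent.P111.R2.H351

open Vale.Agent.P111 Vale.Agent.P111.L1

/-- The scalar two-point inequality. -/
theorem two_point_four {a b : ℝ} :
    ((a + b / √3) ^ 4 + (a - b / √3) ^ 4) / 2 ≤ (a ^ 2 + b ^ 2) ^ 2 := by
  have h3 : √3 ^ 2 = 3 := Real.sq_sqrt (by norm_num)
  have h3' : (b / √3) ^ 2 = b ^ 2 / 3 := by rw [div_pow, h3]
  have h4 : (b / √3) ^ 4 = b ^ 4 / 9 := by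
    calc (b / √3) ^ 4 = ((b / √3) ^ 2) ^ 2 := by ring
      _ = b ^ 4 / 9 := by rw [h3']; ring
  have e : ((a + b / √3) ^ 4 + (a - b / √3) ^ 4) / 2 =
      a ^ 4 + 6 * a ^ 2 * (b / √3) ^ 2 + (b / √3) ^ 4 := by ring
  rw [e, h3', h4]
  nlinarith [sq_nonneg (b ^ 2), sq_nonneg (a * b)]

variable {Z : Type*} [NormedAddCommGroup Z] [NormedSpace ℝ Z]

/-- The vector valued two-point inequality. -/
theorem two_point {p : ℝ} (hp : 2 ≤ p) (x z : Z) :
    (‖x + (1 / √3) • z‖ ^ (2 * p) + ‖x - (1 / √3) • z‖ ^ (2 * p)) / 2 ≤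
      ((‖x + z‖ ^ p + ‖x - z‖ ^ p) / 2) ^ 2 := by
  set ρ : ℝ := 1 / √3 with hρ
  have hρ0 : 0 < ρ := by positivity
  have hρ1 : ρ ≤ 1 := by
    rw [hρ, div_le_one (by positivity)]
    exact Real.one_le_sqrt.mpr (by norm_num)
  set α : ℝ := ‖x + z‖ with hα
  set β : ℝ := ‖x - z‖ with hβ
  have hα0 : 0 ≤ α := norm_nonneg _
  have hβ0 : 0 ≤ β := norm_nonneg _
  have h1 : ∀ (u v : ℝ) (w : Z), 0 ≤ u → 0 ≤ v → u + v = 1 →
      w = u • (x + z) + v • (x - z) → ‖w‖ ^ (2 * p) ≤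
        (u * α ^ (p / 2) + v * β ^ (p / 2)) ^ 4 := by
    intro u v w hu hv huv hw
    have e1 : ‖w‖ ≤ u * α + v * β := by
      rw [hw]
      refine (norm_add_le _ _).trans (le_of_eq ?_)
      rw [norm_smul, norm_smul, Real.norm_of_nonneg hu, Real.norm_of_nonneg hv]
    have e2 : (u * α + v * β) ^ (p / 2) ≤ u * α ^ (p / 2) + v * β ^ (p / 2) := by
      have hc := (convexOn_rpow (show 1 ≤ p / 2 by linarith)).2 (Set.mem_Ici.mpr hα0)
        (Set.mem_Ici.mpr hβ0) hu hv huv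
      simpa [smul_eq_mul] using hc
    have e3 : ‖w‖ ^ (p / 2) ≤ u * α ^ (p / 2) + v * β ^ (p / 2) :=
      (Real.rpow_le_rpow (norm_nonneg _) e1 (by linarith)).trans e2
    have e4 : ‖w‖ ^ (2 * p) = (‖w‖ ^ (p / 2)) ^ 4 := by
      rw [← Real.rpow_natCast (‖w‖ ^ (p / 2)), ← Real.rpow_mul (norm_nonneg _)]
      congr 1
      push_cast
      ring
    rw [e4]
    exact pow_le_pow_left₀ (by positivity) e3 4
  set A : ℝ := (α ^ (p / 2) + β ^ (p / 2)) / 2 with hA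
  set B : ℝ := (α ^ (p / 2) - β ^ (p / 2)) / 2 with hB
  have h2 : ‖x + ρ • z‖ ^ (2 * p) ≤ (A + B / √3) ^ 4 := by
    refine (h1 ((1 + ρ) / 2) ((1 - ρ) / 2) _ (by linarith) (by linarith) (by ring) ?_).trans
      (le_of_eq ?_)
    · module
    · congr 1
      rw [hA, hB, hρ]
      ring
  have h3 : ‖x - ρ • z‖ ^ (2 * p) ≤ (A - B / √3) ^ 4 := by
    refine (h1 ((1 - ρ) / 2) ((1 + ρ) / 2) _ (by linarith) (by linarith) (by ring) ?_).trans
      (le_of_eq ?_)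
    · module
    · congr 1
      rw [hA, hB, hρ]
      ring
  have h4 := two_point_four (a := A) (b := B)
  have h5 : A ^ 2 + B ^ 2 = (α ^ p + β ^ p) / 2 := by
    have ea : α ^ p = (α ^ (p / 2)) ^ 2 := by
      rw [← Real.rpow_natCast (α ^ (p / 2)), ← Real.rpow_mul hα0]
      congr 1
      push_cast
      ring
    have eb : β ^ p = (β ^ (p / 2)) ^ 2 := by
      rw [← Real.rpow_natCast (β ^ (p / 2)), ← Real.rpow_mul hβ0]
      congr 1
      push_cast
      ring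
    rw [ea, eb, hA, hB]
    ring
  rw [h5] at h4
  linarith

/-- Averages over the cube of dimension `n + 1`. -/
theorem av_cons {n : ℕ} {E : Type*} [AddCommGroup E] [Module ℝ E]
    (f : (Fin (n + 1) → ℤˣ) → E) :
    avg f = avg fun u : ℤˣ => avg fun ε : Fin n → ℤˣ => f (Fin.cons u ε) := by
  rw [← av_equiv (Fin.consEquiv (fun _ : Fin (n + 1) => ℤˣ)) f, av_prod]
  rfl

theorem sg_one : sg 1 = 1 := by simp [sg]

theorem sg_neg_one : sg (-1) = -1 := by simp [sg]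

/-- Hypercontractivity for Rademacher sums. -/
theorem hyper {p : ℝ} (hp : 2 ≤ p) : ∀ (n : ℕ) (x : Z) (z : Fin n → Z),
    (avg fun ε : Fin n → ℤˣ => ‖x + (1 / √3) • ∑ i, sg (ε i) • z i‖ ^ (2 * p)) ≤
      (avg fun ε : Fin n → ℤˣ => ‖x + ∑ i, sg (ε i) • z i‖ ^ p) ^ 2 := by
  intro n
  induction n with
  | zero =>
    intro x z
    simp only [Finset.univ_eq_empty, Finset.sum_empty, smul_zero, add_zero]
    rw [av_const, av_const]
    refine le_of_eq ?_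
    rw [← Real.rpow_natCast (‖x‖ ^ p), ← Real.rpow_mul (norm_nonneg _)]
    congr 1
    push_cast
    ring
  | succ n ih =>
    intro x z
    set ρ : ℝ := 1 / √3 with hρ
    have e1 : (avg fun ε : Fin (n + 1) → ℤˣ => ‖x + ρ • ∑ i, sg (ε i) • z i‖ ^ (2 * p)) =
        avg fun u : ℤˣ => avg fun ε : Fin n → ℤˣ =>
          ‖(x + ρ • sg u • z 0) + ρ • ∑ i, sg (ε i) • z i.succ‖ ^ (2 * p) := by
      rw [av_cons]
      refine av_congr fun u => av_congr fun ε => ?_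
      rw [Fin.sum_univ_succ]
      simp only [Fin.cons_zero, Fin.cons_succ, smul_add, add_assoc]
    have e2 : (avg fun ε : Fin (n + 1) → ℤˣ => ‖x + ∑ i, sg (ε i) • z i‖ ^ p) =
        avg fun ε : Fin n → ℤˣ => avg fun u : ℤˣ =>
          ‖(x + ∑ i, sg (ε i) • z i.succ) + sg u • z 0‖ ^ p := by
      rw [av_cons, av_comm]
      refine av_congr fun ε => av_congr fun u => ?_
      rw [Fin.sum_univ_succ]
      simp only [Fin.cons_zero, Fin.cons_succ]
      congr 2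
      abel
    rw [e1, e2]
    have s1 : (avg fun u : ℤˣ => avg fun ε : Fin n → ℤˣ =>
          ‖(x + ρ • sg u • z 0) + ρ • ∑ i, sg (ε i) • z i.succ‖ ^ (2 * p)) ≤
        avg fun u : ℤˣ => (avg fun ε : Fin n → ℤˣ =>
          ‖(x + ρ • sg u • z 0) + ∑ i, sg (ε i) • z i.succ‖ ^ p) ^ 2 :=
      avg_mono fun u => ih _ _
    refine s1.trans ?_
    -- Minkowski
    have hcard : (0 : ℝ) < Fintype.card (Fin n → ℤˣ) := by exact_mod_cast Fintype.card_pos
    have s2 := minkowski (Ω := ℤˣ) (Finset.univ : Finset (Fin n → ℤˣ))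
      (fun ε u => (Fintype.card (Fin n → ℤˣ) : ℝ)⁻¹ *
        ‖(x + ρ • sg u • z 0) + ∑ i, sg (ε i) • z i.succ‖ ^ p)
    simp_rw [← Finset.mul_sum] at s2
    have s3 : ∀ ε : Fin n → ℤˣ, (avg fun u : ℤˣ => ((Fintype.card (Fin n → ℤˣ) : ℝ)⁻¹ *
        ‖(x + ρ • sg u • z 0) + ∑ i, sg (ε i) • z i.succ‖ ^ p) ^ 2) ^ (1 / 2 : ℝ) ≤
        (Fintype.card (Fin n → ℤˣ) : ℝ)⁻¹ *
          avg fun u : ℤˣ => ‖(x + ∑ i, sg (ε i) • z i.succ) + sg u • z 0‖ ^ p := by
      intro ε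
      set w : Z := x + ∑ i, sg (ε i) • z i.succ with hw
      have t1 := two_point hp w (z 0)
      have t2 : (avg fun u : ℤˣ => ((Fintype.card (Fin n → ℤˣ) : ℝ)⁻¹ *
          ‖(x + ρ • sg u • z 0) + ∑ i, sg (ε i) • z i.succ‖ ^ p) ^ 2) ≤
          ((Fintype.card (Fin n → ℤˣ) : ℝ)⁻¹ *
            avg fun u : ℤˣ => ‖w + sg u • z 0‖ ^ p) ^ 2 := by
        have t3 : ∀ u : ℤˣ, ((Fintype.card (Fin n → ℤˣ) : ℝ)⁻¹ *
            ‖(x + ρ • sg u • z 0) + ∑ i, sg (ε i) • z i.succ‖ ^ p) ^ 2 =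
            ((Fintype.card (Fin n → ℤˣ) : ℝ)⁻¹) ^ 2 * ‖w + sg u • ρ • z 0‖ ^ (2 * p) := by
          intro u
          rw [mul_pow]
          congr 1
          have : x + ρ • sg u • z 0 + ∑ i, sg (ε i) • z i.succ = w + sg u • ρ • z 0 := by
            rw [hw, smul_comm ρ (sg u)]
            abel
          rw [this, ← Real.rpow_natCast (‖w + sg u • ρ • z 0‖ ^ p),
            ← Real.rpow_mul (norm_nonneg _)]
          congr 1
          push_cast
          ring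
        rw [av_congr t3, av_mul, mul_pow]
        refine mul_le_mul_of_nonneg_left ?_ (by positivity)
        rw [av_units, av_units]
        simp only [sg_one, sg_neg_one, one_smul, neg_smul, ← sub_eq_add_neg]
        exact t1
      calc _ ≤ (((Fintype.card (Fin n → ℤˣ) : ℝ)⁻¹ *
            avg fun u : ℤˣ => ‖w + sg u • z 0‖ ^ p) ^ 2) ^ (1 / 2 : ℝ) :=
            Real.rpow_le_rpow (avg_nonneg fun _ => by positivity) t2 (by norm_num)
        _ = _ := by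
            rw [← Real.sqrt_eq_rpow, Real.sqrt_sq]
            exact mul_nonneg (by positivity) (avg_nonneg fun _ => by positivity)
    have s4 : (avg fun u : ℤˣ => (avg fun ε : Fin n → ℤˣ =>
          ‖(x + ρ • sg u • z 0) + ∑ i, sg (ε i) • z i.succ‖ ^ p) ^ 2) ^ (1 / 2 : ℝ) ≤
        avg fun ε : Fin n → ℤˣ => avg fun u : ℤˣ =>
          ‖(x + ∑ i, sg (ε i) • z i.succ) + sg u • z 0‖ ^ p := by
      refine s2.trans ((Finset.sum_le_sum fun ε _ => s3 ε).trans (le_of_eq ?_))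
      rw [← Finset.mul_sum]
      rfl
    have s5 : 0 ≤ avg fun u : ℤˣ => (avg fun ε : Fin n → ℤˣ =>
          ‖(x + ρ • sg u • z 0) + ∑ i, sg (ε i) • z i.succ‖ ^ p) ^ 2 :=
      avg_nonneg fun _ => by positivity
    rw [← Real.sqrt_eq_rpow] at s4
    have s6 := pow_le_pow_left₀ (Real.sqrt_nonneg _) s4 2
    rwa [Real.sq_sqrt s5] at s6

/-- One step of Kahane's inequality: from `L_p` to `L_{2p}`, `p ≥ 2`. -/
theorem kahane_step {p : ℝ} (hp : 2 ≤ p) {n : ℕ} (z : Fin n → Z) :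
    (avg fun ε : Fin n → ℤˣ => ‖∑ i, sg (ε i) • z i‖ ^ (2 * p)) ≤
      3 ^ p * (avg fun ε : Fin n → ℤˣ => ‖∑ i, sg (ε i) • z i‖ ^ p) ^ 2 := by
  have h := hyper hp n (0 : Z) z
  simp only [zero_add] at h
  have h1 : ∀ ε : Fin n → ℤˣ, ‖(1 / √3) • ∑ i, sg (ε i) • z i‖ ^ (2 * p) =
      (3 ^ p)⁻¹ * ‖∑ i, sg (ε i) • z i‖ ^ (2 * p) := by
    intro ε
    rw [norm_smul, Real.mul_rpow (norm_nonneg _) (norm_nonneg _)]
    congr 1
    rw [Real.norm_of_nonneg (by positivity), one_div, Real.inv_rpow (by positivity),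
      Real.sqrt_eq_rpow, ← Real.rpow_mul (by norm_num)]
    congr 2
    ring
  rw [av_congr h1, av_mul, inv_mul_le_iff₀ (by positivity)] at h
  exact h

end Vale.Agent.P111.R2.H351
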