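import Vale.Agent.P111.R2.H351.Defs

/-! Lattice norms of finite concavity on finite-dimensional spaces. -/

namespace Vale.Agent.P111.R2.H351

/-- `N` is a lattice (semi)norm on the functions on the finite set `ι`. -/
structure IsLatticeNorm {ι : Type*} (N : (ι → ℝ) → ℝ) : Prop where
  smul : ∀ (c : ℝ) (g : ι → ℝ), N (c • g) = |c| * N g
  add_le : ∀ g h : ι → ℝ, N (g + h) ≤ N g + N h
  mono : ∀ g h : ι → ℝ, (∀ j, |g j| ≤ |h j|) → N g ≤ N h

/-- The lattice norm `N` is `q`-concave with constant `M`. -/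
def IsConcave {ι : Type*} (q M : ℝ) (N : (ι → ℝ) → ℝ) : Prop :=
  ∀ (k : ℕ) (g : Fin k → ι → ℝ),
    (∑ i, N (g i) ^ q) ^ (1 / q) ≤ M * N fun j => (∑ i, |g i j| ^ q) ^ (1 / q)

end Vale.Agent.P111.R2.H351
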