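import Vale.Agent.P111.R2.H351.Basic
import Mathlib.Analysis.Normed.Module.HahnBanach
import Mathlib.Analysis.LocallyConvex.Separation

/-! Cotype of the dual lifts families of vectors to functions on the cube. -/

namespace Vale.Agent.P111.R2.H351

open Vale.Agent.P111 Vale.Agent.P111.L1

/-- Families `(x_i)` are the coefficients of functions `g` on the cube, with
`‖g‖₂ ≤ C (∑ ‖x_i‖^s)^(1/s)`, up to an arbitrary slack. -/
def LiftWith (s C : ℝ) (X : Type*) [NormedAddCommGroup X] [NormedSpace ℝ X] : Prop :=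
  ∀ (n : ℕ) (x : Fin n → X) (c : ℝ), C * (∑ i, ‖x i‖ ^ s) ^ (1 / s) < c →
    ∃ g : (Fin n → ℤˣ) → X, (∀ i, coef g i = x i) ∧ nrm2 g ≤ c

variable {X : Type*} [NormedAddCommGroup X] [NormedSpace ℝ X]

theorem exists_near_norming (ψ : X →L[ℝ] ℝ) {τ : ℝ} (hτ : 0 < τ) :
    ∃ w : X, ‖w‖ ≤ 1 ∧ (1 - τ) * ‖ψ‖ ≤ ψ w := by
  rcases eq_or_ne ψ 0 with h | h
  · exact ⟨0, by simp, by simp [h]⟩
  · have hpos : 0 < ‖ψ‖ := norm_pos_iff.mpr h
    have hlt : (1 - τ) * ‖ψ‖ < ‖ψ‖ := by nlinarith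
    obtain ⟨w, hw1, hw2⟩ := ψ.exists_lt_apply_of_lt_opNorm hlt
    rcases le_total 0 (ψ w) with h0 | h0
    · refine ⟨w, hw1.le, ?_⟩
      rw [Real.norm_of_nonneg h0] at hw2
      exact hw2.le
    · refine ⟨-w, by rw [norm_neg]; exact hw1.le, ?_⟩
      rw [Real.norm_of_nonpos h0] at hw2
      rw [map_neg]
      exact hw2.le

/-- Nearly norming choice for a function with values in the dual. -/
theorem exists_norming_fun {n : ℕ} (Ψ : (Fin n → ℤˣ) → X →L[ℝ] ℝ) {τ : ℝ} (hτ : 0 < τ) :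
    ∃ w : (Fin n → ℤˣ) → X, (∀ ε, ‖w ε‖ ≤ ‖Ψ ε‖) ∧
      (1 - τ) * nrm2 Ψ ^ 2 ≤ avg fun ε => Ψ ε (w ε) := by
  choose w hw1 hw2 using fun ε => exists_near_norming (Ψ ε) hτ
  refine ⟨fun ε => ‖Ψ ε‖ • w ε, fun ε => ?_, ?_⟩
  · rw [norm_smul, norm_norm]
    exact mul_le_of_le_one_right (norm_nonneg _) (hw1 ε)
  · rw [nrm2_sq, ← av_mul]
    refine avg_mono fun ε => ?_
    rw [map_smul, smul_eq_mul]
    have := mul_le_mul_of_nonneg_left (hw2 ε) (norm_nonneg (Ψ ε))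
    calc (1 - τ) * ‖Ψ ε‖ ^ 2 = ‖Ψ ε‖ * ((1 - τ) * ‖Ψ ε‖) := by ring
      _ ≤ _ := this

theorem pairing {n : ℕ} (ψ : Fin n → X →L[ℝ] ℝ) (g : (Fin n → ℤˣ) → X) :
    ∑ i, ψ i (coef g i) = avg fun ε => (∑ i, sg (ε i) • ψ i) (g ε) := by
  have h : ∀ i, ψ i (coef g i) = avg fun ε : Fin n → ℤˣ => sg (ε i) * ψ i (g ε) := by
    intro i
    rw [coef, show ψ i (avg fun η : Fin n → ℤˣ => sg (η i) • g η) =
      (ψ i : X →ₗ[ℝ] ℝ) (avg fun η : Fin n → ℤˣ => sg (η i) • g η) from rfl, map_av]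
    simp
  simp_rw [h]
  rw [← av_sum]
  exact av_congr fun ε => by simp

theorem holder_pair {r r' : ℝ} (hrr : r.HolderConjugate r') {n : ℕ} (ψ : Fin n → X →L[ℝ] ℝ)
    (x : Fin n → X) :
    ∑ i, ψ i (x i) ≤ (∑ i, ‖ψ i‖ ^ r) ^ (1 / r) * (∑ i, ‖x i‖ ^ r') ^ (1 / r') := by
  calc ∑ j, ψ j (x j) ≤ ∑ j, ‖ψ j‖ * ‖x j‖ :=
        Finset.sum_le_sum fun j _ => (le_abs_self _).trans ((ψ j).le_opNorm _)
    _ ≤ (∑ j, |‖ψ j‖| ^ r) ^ (1 / r) * (∑ j, |‖x j‖| ^ r') ^ (1 / r') :=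
        Real.inner_le_Lp_mul_Lq _ _ _ hrr
    _ = _ := by simp

/-- The lifting lemma for a space whose dual has cotype `r`. -/
theorem liftWith_of_dual {r r' C : ℝ} (hrr : r.HolderConjugate r') (hC : 0 ≤ C)
    (hX : CotypeWith r C (X →L[ℝ] ℝ)) : LiftWith r' C X := by
  classical
  intro n x c hc
  set A : ℝ := (∑ i, ‖x i‖ ^ r') ^ (1 / r') with hA
  have hA0 : 0 ≤ A := Real.rpow_nonneg (Finset.sum_nonneg fun _ _ => by positivity) _
  have hc0 : 0 < c := lt_of_le_of_lt (mul_nonneg hC hA0) hc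
  set G : Set (Fin n → X) := ⋃ g : (Fin n → ℤˣ) → X,
    {a | nrm2 (fun ε => g ε + ∑ i, sg (ε i) • (a i - coef g i)) < c} with hG
  have hGmem : ∀ a, a ∈ G ↔ ∃ g : (Fin n → ℤˣ) → X, (∀ i, coef g i = a i) ∧ nrm2 g < c := by
    intro a
    simp only [hG, Set.mem_iUnion, Set.mem_ofPred_eq]
    constructor
    · rintro ⟨g, hg⟩
      refine ⟨_, fun i => ?_, hg⟩
      rw [coef_add, coef_sum]
      abel
    · rintro ⟨g, hg1, hg2⟩
      refine ⟨g, ?_⟩
      have : (fun ε : Fin n → ℤˣ => g ε + ∑ i, sg (ε i) • (a i - coef g i)) = g := by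
        funext ε
        simp [hg1]
      rw [this]
      exact hg2
  have hopen : IsOpen G := by
    refine isOpen_iUnion fun g => ?_
    refine isOpen_lt ?_ continuous_const
    unfold nrm2 avg
    refine Continuous.rpow_const ?_ fun _ => Or.inr (by norm_num)
    fun_prop
  have hconv : Convex ℝ G := by
    intro a ha b hb s t hs ht hst
    rw [hGmem] at ha hb ⊢
    obtain ⟨g, hg1, hg2⟩ := ha
    obtain ⟨h, hh1, hh2⟩ := hb
    refine ⟨fun ε => s • g ε + t • h ε, fun i => ?_, ?_⟩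
    · rw [coef_add, coef_smul, coef_smul, hg1, hh1]
      rfl
    · have h1 := nrm2_add_le (fun ε => s • g ε) (fun ε => t • h ε)
      rw [nrm2_smul, nrm2_smul, abs_of_nonneg hs, abs_of_nonneg ht] at h1
      rcases eq_or_lt_of_le hs with h0 | h0
      · rw [← h0] at hst h1 ⊢
        have : t = 1 := by linarith
        subst this
        refine lt_of_le_of_lt h1 ?_
        linarith
      · have h2 : s * nrm2 g < s * c := mul_lt_mul_of_pos_left hg2 h0
        have h3 : t * nrm2 h ≤ t * c := mul_le_mul_of_nonneg_left hh2.le ht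
        have h4 : s * c + t * c = c := by rw [← add_mul, hst, one_mul]
        linarith
  by_cases hx : x ∈ G
  · obtain ⟨g, hg1, hg2⟩ := (hGmem x).mp hx
    exact ⟨g, hg1, hg2.le⟩
  exfalso
  obtain ⟨φ, hφ⟩ := geometric_hahn_banach_open_point hconv hopen hx
  set ψ : Fin n → X →L[ℝ] ℝ := fun i => φ.comp (ContinuousLinearMap.single ℝ (fun _ => X) i)
    with hψ
  have hφsum : ∀ a : Fin n → X, φ a = ∑ i, ψ i (a i) := by
    intro a
    have : a = ∑ i, Pi.single i (a i) := by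
      rw [Finset.univ_sum_single]
    conv_lhs => rw [this]
    rw [map_sum]
    rfl
  set Ψ : (Fin n → ℤˣ) → X →L[ℝ] ℝ := fun ε => ∑ i, sg (ε i) • ψ i with hΨ
  set R : ℝ := nrm2 Ψ with hR
  have hR0 : 0 ≤ R := nrm2_nonneg _
  -- upper bound for `φ x`
  have hup : φ x ≤ C * A * R := by
    rw [hφsum]
    refine (holder_pair hrr ψ x).trans ?_
    have h1 : (∑ i, ‖ψ i‖ ^ r) ^ (1 / r) ≤ C * R := hX n ψ
    calc _ ≤ C * R * A := mul_le_mul_of_nonneg_right h1 hA0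
      _ = _ := by ring
  -- lower bound
  have hlow : ∀ lam τ : ℝ, 0 ≤ lam → 0 < τ → lam * R < c → lam * ((1 - τ) * R ^ 2) < φ x := by
    intro lam τ hlam hτ hl
    obtain ⟨w, hw1, hw2⟩ := exists_norming_fun Ψ hτ
    have hmem : coef (fun ε => lam • w ε) ∈ G := by
      rw [hGmem]
      refine ⟨fun ε => lam • w ε, fun i => rfl, ?_⟩
      rw [nrm2_smul, abs_of_nonneg hlam]
      exact lt_of_le_of_lt (mul_le_mul_of_nonneg_left (nrm2_mono hw1) hlam) hl
    have h1 := hφ _ hmem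
    rw [hφsum] at h1
    have h2 := pairing ψ (fun ε => lam • w ε)
    refine lt_of_le_of_lt ?_ h1
    rw [h2]
    have h3 : (avg fun ε : Fin n → ℤˣ => (∑ i, sg (ε i) • ψ i) (lam • w ε)) =
        lam * avg fun ε => Ψ ε (w ε) := by
      rw [← av_mul]
      exact av_congr fun ε => by rw [map_smul, smul_eq_mul]
    rw [h3]
    exact mul_le_mul_of_nonneg_left hw2 hlam
  rcases eq_or_lt_of_le hR0 with h0 | h0
  · have h1 := hlow 0 1 le_rfl one_pos (by simpa using hc0)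
    rw [← h0] at hup
    simp at h1 hup
    linarith
  · -- choose `lam = c' / R`, with `C A < (1 - τ) c' < c`
    set c' : ℝ := (C * A + c) / 2 with hc'
    have hc'1 : C * A < c' := by rw [hc']; linarith
    have hc'2 : c' < c := by rw [hc']; linarith
    have hc'0 : 0 < c' := lt_of_le_of_lt (mul_nonneg hC hA0) hc'1
    set τ : ℝ := (c' - C * A) / c' with hτ
    have hτ0 : 0 < τ := div_pos (by linarith) hc'0
    have h1 := hlow (c' / R) τ (by positivity) hτ0 (by rw [div_mul_cancel₀ _ h0.ne']; exact hc'2)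
    have h2 : c' / R * ((1 - τ) * R ^ 2) = C * A * R := by
      rw [hτ]
      field_simp
      ring
    rw [h2] at h1
    linarith

end Vale.Agent.P111.R2.H351
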