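import Vale.Agent.P111.R2.H351.Lift

/-! The main inequality: lifting plus the inequality `RadTwo` gives type. -/

namespace Vale.Agent.P111.R2.H351

open Vale.Agent.P111 Vale.Agent.P111.L1

variable {X Z : Type*} [NormedAddCommGroup X] [NormedSpace ℝ X]
  [NormedAddCommGroup Z] [NormedSpace ℝ Z]

theorem nrm2_map_le (J : X →L[ℝ] Z) {Ω : Type*} [Fintype Ω] (g : Ω → X) :
    nrm2 (fun ω => J (g ω)) ≤ ‖J‖ * nrm2 g := by
  have h : nrm2 (fun ω => J (g ω)) ≤ nrm2 (fun ω => ‖J‖ • g ω) := by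
    refine nrm2_mono fun ω => ?_
    rw [norm_smul, norm_norm]
    exact J.le_opNorm _
  rwa [nrm2_smul, abs_of_nonneg (norm_nonneg _)] at h

theorem base_ineq {s C θ D : ℝ} (hs : 0 < s) (hC : 0 ≤ C) (hθ0 : 0 ≤ θ) (hθ1 : θ ≤ 1)
    (hD : 0 ≤ D) (hX : LiftWith s C X) (hZ : RadTwo θ D Z) (J : X →L[ℝ] Z) {n : ℕ}
    (x : Fin n → X) :
    nrm2 (fun ε : Fin n → ℤˣ => ∑ i, sg (ε i) • J (x i)) ≤
      D * ‖J‖ * (∑ i, ‖x i‖) ^ θ * ((C + 1) * (∑ i, ‖x i‖ ^ s) ^ (1 / s)) ^ (1 - θ) := by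
  set A : ℝ := (∑ i, ‖x i‖ ^ s) ^ (1 / s) with hA
  have hS0 : 0 ≤ ∑ i, ‖x i‖ ^ s := Finset.sum_nonneg fun _ _ => by positivity
  have hA0 : 0 ≤ A := Real.rpow_nonneg hS0 _
  have hB0 : 0 ≤ ∑ i, ‖x i‖ := Finset.sum_nonneg fun _ _ => norm_nonneg _
  rcases eq_or_lt_of_le hA0 with h0 | h0
  · -- all vectors vanish
    have h1 : ∑ i, ‖x i‖ ^ s = 0 := by
      by_contra hne
      have : 0 < ∑ i, ‖x i‖ ^ s := lt_of_le_of_ne hS0 (Ne.symm hne)
      have := Real.rpow_pos_of_pos this (1 / s)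
      rw [← hA] at this
      linarith
    have h2 : ∀ i, x i = 0 := by
      intro i
      have h3 := (Finset.sum_eq_zero_iff_of_nonneg (s := (Finset.univ : Finset (Fin n)))
        (fun i _ => Real.rpow_nonneg (norm_nonneg (x i)) s)).mp h1 i (Finset.mem_univ i)
      have h4 := (Real.rpow_eq_zero (norm_nonneg (x i)) hs.ne').mp h3
      exact norm_eq_zero.mp h4
    have h5 : nrm2 (fun ε : Fin n → ℤˣ => ∑ i, sg (ε i) • J (x i)) = 0 := by
      simp only [h2, map_zero, smul_zero, Finset.sum_const_zero]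
      rw [nrm2]
      simp only [norm_zero, ne_eq, OfNat.ofNat_ne_zero, not_false_eq_true, zero_pow]
      rw [av_zero, Real.zero_rpow (by norm_num)]
    rw [h5]
    positivity
  · obtain ⟨g, hg1, hg2⟩ := hX n x ((C + 1) * A) (by nlinarith)
    have h := hZ n (fun ε => J (g ε))
    have e1 : ∀ ε, rad (fun ε => J (g ε)) ε = ∑ i, sg (ε i) • J (x i) := by
      intro ε
      rw [rad_eq]
      refine Finset.sum_congr rfl fun i _ => ?_
      rw [← hg1 i]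
      exact congrArg _ (coef_map (J : X →ₗ[ℝ] Z) g i)
    have e2 : ∀ i, coef (fun ε => J (g ε)) i = J (x i) := by
      intro i
      rw [← hg1 i]
      exact coef_map (J : X →ₗ[ℝ] Z) g i
    simp_rw [e1, e2] at h
    have e3 : (avg fun ε => ‖J (g ε)‖ ^ 2) ^ ((1 - θ) / 2) =
        (nrm2 (fun ε => J (g ε))) ^ (1 - θ) := by
      rw [nrm2, ← Real.rpow_mul (avg_nonneg fun _ => by positivity)]
      congr 1
      ring
    rw [e3] at h
    have h1 : (∑ i, ‖J (x i)‖) ^ θ ≤ (‖J‖ * ∑ i, ‖x i‖) ^ θ := by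
      refine Real.rpow_le_rpow (Finset.sum_nonneg fun _ _ => norm_nonneg _) ?_ hθ0
      rw [Finset.mul_sum]
      exact Finset.sum_le_sum fun i _ => J.le_opNorm _
    have h2 : (nrm2 (fun ε => J (g ε))) ^ (1 - θ) ≤ (‖J‖ * ((C + 1) * A)) ^ (1 - θ) := by
      refine Real.rpow_le_rpow (nrm2_nonneg _) ?_ (by linarith)
      exact (nrm2_map_le J g).trans (mul_le_mul_of_nonneg_left hg2 (norm_nonneg _))
    calc _ ≤ D * (∑ i, ‖J (x i)‖) ^ θ * (nrm2 (fun ε => J (g ε))) ^ (1 - θ) := h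
      _ ≤ D * (‖J‖ * ∑ i, ‖x i‖) ^ θ * (‖J‖ * ((C + 1) * A)) ^ (1 - θ) := by
          refine mul_le_mul (mul_le_mul_of_nonneg_left h1 hD) h2
            (Real.rpow_nonneg (nrm2_nonneg _) _) (by positivity)
      _ = D * ‖J‖ * (∑ i, ‖x i‖) ^ θ * ((C + 1) * A) ^ (1 - θ) := by
          rw [Real.mul_rpow (norm_nonneg _) hB0, Real.mul_rpow (norm_nonneg _) (by positivity)]
          have h3 : ‖J‖ = ‖J‖ ^ θ * ‖J‖ ^ (1 - θ) := by
            rw [← Real.rpow_add' (norm_nonneg _) (by norm_num)]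
            simp
          conv_rhs => rw [h3]
          ring

/-- The estimate for families of vectors with norm at most `t`, supported by `I`. -/
theorem level_ineq {s C θ D : ℝ} (hs : 0 < s) (hC : 0 ≤ C) (hθ0 : 0 ≤ θ) (hθ1 : θ ≤ 1)
    (hD : 0 ≤ D) (hX : LiftWith s C X) (hZ : RadTwo θ D Z) (J : X →L[ℝ] Z) {n : ℕ}
    (x : Fin n → X) (I : Finset (Fin n)) {t : ℝ} (ht : 0 ≤ t) (hI : ∀ i, i ∉ I → x i = 0)
    (hxt : ∀ i, ‖x i‖ ≤ t) :
    nrm2 (fun ε : Fin n → ℤˣ => ∑ i, sg (ε i) • J (x i)) ≤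
      D * (C + 1) ^ (1 - θ) * ‖J‖ * t * (I.card : ℝ) ^ (θ + (1 - θ) / s) := by
  rcases Finset.eq_empty_or_nonempty I with hIe | hIne
  · have h2 : ∀ i, x i = 0 := fun i => hI i (by simp [hIe])
    have h5 : nrm2 (fun ε : Fin n → ℤˣ => ∑ i, sg (ε i) • J (x i)) = 0 := by
      simp only [h2, map_zero, smul_zero, Finset.sum_const_zero]
      rw [nrm2]
      simp only [norm_zero, ne_eq, OfNat.ofNat_ne_zero, not_false_eq_true, zero_pow]
      rw [av_zero, Real.zero_rpow (by norm_num)]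
    rw [h5]
    positivity
  have hcard : (0 : ℝ) < I.card := by exact_mod_cast hIne.card_pos
  have h1 : ∑ i, ‖x i‖ ≤ I.card * t := by
    calc ∑ i, ‖x i‖ = ∑ i ∈ I, ‖x i‖ := by
          symm
          refine Finset.sum_subset (Finset.subset_univ _) fun i _ hi => ?_
          rw [hI i hi, norm_zero]
      _ ≤ ∑ _i ∈ I, t := Finset.sum_le_sum fun i _ => hxt i
      _ = I.card * t := by simp
  have h2 : ∑ i, ‖x i‖ ^ s ≤ I.card * t ^ s := by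
    calc ∑ i, ‖x i‖ ^ s = ∑ i ∈ I, ‖x i‖ ^ s := by
          symm
          refine Finset.sum_subset (Finset.subset_univ _) fun i _ hi => ?_
          rw [hI i hi, norm_zero, Real.zero_rpow hs.ne']
      _ ≤ ∑ _i ∈ I, t ^ s := Finset.sum_le_sum fun i _ =>
          Real.rpow_le_rpow (norm_nonneg _) (hxt i) hs.le
      _ = I.card * t ^ s := by simp
  have h3 : (∑ i, ‖x i‖ ^ s) ^ (1 / s) ≤ (I.card : ℝ) ^ (1 / s) * t := by
    calc (∑ i, ‖x i‖ ^ s) ^ (1 / s) ≤ (I.card * t ^ s) ^ (1 / s) :=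
          Real.rpow_le_rpow (Finset.sum_nonneg fun _ _ => by positivity) h2 (by positivity)
      _ = (I.card : ℝ) ^ (1 / s) * t := by
          rw [Real.mul_rpow (by positivity) (by positivity), ← Real.rpow_mul ht,
            mul_one_div_cancel hs.ne', Real.rpow_one]
  refine (base_ineq hs hC hθ0 hθ1 hD hX hZ J x).trans ?_
  have hB0 : 0 ≤ ∑ i, ‖x i‖ := Finset.sum_nonneg fun _ _ => norm_nonneg _
  have h4 : (∑ i, ‖x i‖) ^ θ ≤ (I.card * t) ^ θ := Real.rpow_le_rpow hB0 h1 hθ0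
  have h5 : ((C + 1) * (∑ i, ‖x i‖ ^ s) ^ (1 / s)) ^ (1 - θ) ≤
      ((C + 1) * ((I.card : ℝ) ^ (1 / s) * t)) ^ (1 - θ) := by
    refine Real.rpow_le_rpow (by positivity) ?_ (by linarith)
    exact mul_le_mul_of_nonneg_left h3 (by positivity)
  calc _ ≤ D * ‖J‖ * (I.card * t) ^ θ * ((C + 1) * ((I.card : ℝ) ^ (1 / s) * t)) ^ (1 - θ) := by
        refine mul_le_mul (mul_le_mul_of_nonneg_left h4 (by positivity)) h5 (by positivity)
          (by positivity)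
    _ = D * (C + 1) ^ (1 - θ) * ‖J‖ * t * (I.card : ℝ) ^ (θ + (1 - θ) / s) := by
        rw [Real.mul_rpow hcard.le ht, Real.mul_rpow (by positivity) (by positivity),
          Real.mul_rpow (by positivity) ht, ← Real.rpow_mul hcard.le, Real.rpow_add hcard]
        have e1 : 1 / s * (1 - θ) = (1 - θ) / s := by ring
        have h6 : t = t ^ θ * t ^ (1 - θ) := by
          rw [← Real.rpow_add' ht (by norm_num)]
          simp
        rw [e1]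
        conv_rhs => rw [h6]
        ring

omit [NormedSpace ℝ X] in
/-- The number of vectors in a dyadic level. -/
theorem card_level {n k : ℕ} {p a S σ : ℝ} (x : Fin n → X) (I : Finset (Fin n)) (hp : 0 < p)
    (ha0 : 0 ≤ a) (hσ0 : 0 ≤ σ) (hS : S = ∑ i, ‖x i‖ ^ p) (hσp : σ ^ p = S)
    (hI : ∀ i ∈ I, 0 < σ ∧ (1 / 2 : ℝ) ^ (k + 1) * σ < ‖x i‖) :
    (I.card : ℝ) ^ a ≤ (2 : ℝ) ^ ((k + 1 : ℝ) * (p * a)) := by
  rcases Finset.eq_empty_or_nonempty I with hIe | hIne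
  · rw [hIe, Finset.card_empty, Nat.cast_zero]
    rcases eq_or_ne a 0 with h | h
    · rw [h]; simp
    · rw [Real.zero_rpow h]; positivity
  obtain ⟨i₀, hi₀⟩ := hIne
  have hσpos : 0 < σ := (hI i₀ hi₀).1
  have h5 : (I.card : ℝ) * ((1 / 2 : ℝ) ^ (k + 1) * σ) ^ p ≤ S := by
    calc (I.card : ℝ) * ((1 / 2 : ℝ) ^ (k + 1) * σ) ^ p
        = ∑ _i ∈ I, ((1 / 2 : ℝ) ^ (k + 1) * σ) ^ p := by simp
      _ ≤ ∑ i ∈ I, ‖x i‖ ^ p := Finset.sum_le_sum fun i hi =>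
          Real.rpow_le_rpow (by positivity) (hI i hi).2.le hp.le
      _ ≤ S := by
          rw [hS]
          exact Finset.sum_le_sum_of_subset_of_nonneg (Finset.subset_univ _)
            fun i _ _ => by positivity
  have h6 : ((1 / 2 : ℝ) ^ (k + 1) * σ) ^ p = (2 : ℝ) ^ (-((k + 1 : ℝ) * p)) * S := by
    rw [Real.mul_rpow (by positivity) hσ0, hσp]
    congr 1
    rw [one_div, inv_pow, ← Real.rpow_natCast, ← Real.rpow_neg (by norm_num),
      ← Real.rpow_mul (by norm_num)]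
    push_cast
    congr 1
    ring
  have hSpos : 0 < S := by rw [← hσp]; positivity
  have h7 : (I.card : ℝ) ≤ (2 : ℝ) ^ ((k + 1 : ℝ) * p) := by
    rw [h6, Real.rpow_neg (by norm_num), ← mul_assoc] at h5
    have h8 : (I.card : ℝ) * ((2 : ℝ) ^ ((k + 1 : ℝ) * p))⁻¹ ≤ 1 := by
      by_contra hcon
      push Not at hcon
      have := mul_lt_mul_of_pos_right hcon hSpos
      linarith
    rwa [← div_eq_mul_inv, div_le_one (by positivity)] at h8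
  calc (I.card : ℝ) ^ a ≤ ((2 : ℝ) ^ ((k + 1 : ℝ) * p)) ^ a :=
        Real.rpow_le_rpow (by positivity) h7 ha0
    _ = _ := by
        rw [← Real.rpow_mul (by norm_num)]
        congr 1
        ring

theorem pow_aux (k : ℕ) (b : ℝ) :
    (1 / 2 : ℝ) ^ k * (2 : ℝ) ^ ((k + 1 : ℝ) * b) = 2 ^ b * (2 ^ (b - 1)) ^ k := by
  have h9 : (2 : ℝ) ^ ((k + 1 : ℝ) * b) = 2 ^ b * (2 ^ b) ^ k := by
    rw [add_mul, one_mul, Real.rpow_add (by norm_num), mul_comm (k : ℝ),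
      Real.rpow_mul (by norm_num), Real.rpow_natCast]
    ring
  have h10 : ((2 : ℝ) ^ (b - 1)) ^ k = (1 / 2 : ℝ) ^ k * (2 ^ b) ^ k := by
    rw [Real.rpow_sub (by norm_num), Real.rpow_one, div_pow, one_div, inv_pow]
    ring
  rw [h9, h10]
  ring

theorem exists_level {x σ : ℝ} (hx : 0 < x) (hxσ : x ≤ σ) :
    ∃ k : ℕ, (1 / 2 : ℝ) ^ (k + 1) * σ < x ∧ x ≤ (1 / 2 : ℝ) ^ k * σ := by
  have hσpos : 0 < σ := hx.trans_le hxσ
  obtain ⟨k, hk1, hk2⟩ := exists_nat_pow_near_of_lt_one (x := x / σ) (y := (1 / 2 : ℝ))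
    (by positivity) ((div_le_one hσpos).mpr hxσ) (by norm_num) (by norm_num)
  refine ⟨k, ?_, ?_⟩
  · rwa [lt_div_iff₀ hσpos] at hk1
  · rwa [div_le_iff₀ hσpos] at hk2

theorem geom_le {ρ : ℝ} (hρ0 : 0 < ρ) (hρ1 : ρ < 1) (M : ℕ) :
    ∑ k ∈ Finset.range M, ρ ^ k ≤ 1 / (1 - ρ) := by
  have h1 : 0 < 1 - ρ := by linarith
  rw [le_div_iff₀ h1, geom_sum_eq hρ1.ne, div_mul_eq_mul_div, div_le_iff_of_neg (by linarith)]
  have := pow_pos hρ0 M
  nlinarith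

theorem block_ineq {K a p S σ : ℝ} (hK : 0 ≤ K) (ha0 : 0 ≤ a) (hp : 0 < p) (J : X →L[ℝ] Z)
    {n : ℕ} (hlev : ∀ (y : Fin n → X) (I : Finset (Fin n)) (t : ℝ), 0 ≤ t →
      (∀ i, i ∉ I → y i = 0) → (∀ i, ‖y i‖ ≤ t) →
      nrm2 (fun ε : Fin n → ℤˣ => ∑ i, sg (ε i) • J (y i)) ≤ K * t * (I.card : ℝ) ^ a)
    (x : Fin n → X) (hσ0 : 0 ≤ σ) (hS : S = ∑ i, ‖x i‖ ^ p) (hσp : σ ^ p = S) (k : ℕ)
    (I : Finset (Fin n)) (y : Fin n → X) (hyI : ∀ i ∈ I, y i = x i)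
    (hy0 : ∀ i, i ∉ I → y i = 0)
    (hI : ∀ i ∈ I, (0 < σ ∧ (1 / 2 : ℝ) ^ (k + 1) * σ < ‖x i‖) ∧ ‖x i‖ ≤ (1 / 2 : ℝ) ^ k * σ) :
    nrm2 (fun ε : Fin n → ℤˣ => ∑ i, sg (ε i) • J (y i)) ≤
      K * σ * 2 ^ (p * a) * (2 ^ (p * a - 1)) ^ k := by
  have ht : 0 ≤ (1 / 2 : ℝ) ^ k * σ := by positivity
  have h2 : ∀ i, ‖y i‖ ≤ (1 / 2 : ℝ) ^ k * σ := by
    intro i
    by_cases hi : i ∈ I
    · rw [hyI i hi]
      exact (hI i hi).2
    · rw [hy0 i hi, norm_zero]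
      exact ht
  have h3 := hlev y I _ ht hy0 h2
  have h4 := card_level (k := k) x I hp ha0 hσ0 hS hσp fun i hi => (hI i hi).1
  have h5 := pow_aux k (p * a)
  refine h3.trans ((mul_le_mul_of_nonneg_left h4 (mul_nonneg hK ht)).trans (le_of_eq ?_))
  calc K * ((1 / 2 : ℝ) ^ k * σ) * (2 : ℝ) ^ ((k + 1 : ℝ) * (p * a))
      = K * σ * ((1 / 2 : ℝ) ^ k * (2 : ℝ) ^ ((k + 1 : ℝ) * (p * a))) := by ring
    _ = K * σ * (2 ^ (p * a) * (2 ^ (p * a - 1)) ^ k) := by rw [h5]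
    _ = _ := (mul_assoc _ _ _).symm

omit [NormedSpace ℝ X] in
/-- Splitting into levels. -/
theorem exists_levels {p S σ : ℝ} (hp : 0 < p) {n : ℕ} (x : Fin n → X)
    (hS : S = ∑ i, ‖x i‖ ^ p) (hσ : σ = S ^ (1 / p)) :
    ∃ (M : ℕ) (I : ℕ → Finset (Fin n)) (y : ℕ → Fin n → X),
      (∀ i, ∑ k ∈ Finset.range M, y k i = x i) ∧
      (∀ k, ∀ i ∈ I k, y k i = x i) ∧ (∀ k i, i ∉ I k → y k i = 0) ∧
      (∀ k, ∀ i ∈ I k, (0 < σ ∧ (1 / 2 : ℝ) ^ (k + 1) * σ < ‖x i‖) ∧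
        ‖x i‖ ≤ (1 / 2 : ℝ) ^ k * σ) := by
  classical
  have hxσ : ∀ i, ‖x i‖ ≤ σ := by
    intro i
    have hxS : ‖x i‖ ^ p ≤ S := by
      rw [hS]
      exact Finset.single_le_sum (f := fun i => ‖x i‖ ^ p) (fun j _ => by positivity)
        (Finset.mem_univ i)
    have h := Real.rpow_le_rpow (by positivity) hxS (show 0 ≤ 1 / p by positivity)
    rw [← Real.rpow_mul (norm_nonneg _), mul_one_div_cancel hp.ne', Real.rpow_one] at h
    rw [hσ]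
    exact h
  have hlev : ∀ i, ∃ k : ℕ, x i ≠ 0 → (1 / 2 : ℝ) ^ (k + 1) * σ < ‖x i‖ ∧
      ‖x i‖ ≤ (1 / 2 : ℝ) ^ k * σ := by
    intro i
    rcases eq_or_ne (x i) 0 with h | h
    · exact ⟨0, fun h' => (h' h).elim⟩
    · obtain ⟨k, hk⟩ := exists_level (norm_pos_iff.mpr h) (hxσ i)
      exact ⟨k, fun _ => hk⟩
  choose lev hlev using hlev
  have hlevM : ∀ i, lev i ∈ Finset.range ((Finset.univ : Finset (Fin n)).sup lev + 1) := by
    intro i
    rw [Finset.mem_range]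
    exact Nat.lt_succ_of_le (Finset.le_sup (f := lev) (Finset.mem_univ i))
  refine ⟨(Finset.univ : Finset (Fin n)).sup lev + 1,
    fun k => Finset.univ.filter fun i => lev i = k ∧ x i ≠ 0,
    fun k i => if lev i = k then x i else 0, ?_, ?_, ?_, ?_⟩
  · intro i
    rw [Finset.sum_eq_single (lev i) (fun k _ hk => if_neg (Ne.symm hk))
      (fun h => (h (hlevM i)).elim), if_pos rfl]
  · intro k i hi
    rw [Finset.mem_filter] at hi
    exact if_pos hi.2.1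
  · intro k i hi
    rw [Finset.mem_filter] at hi
    by_cases hk : lev i = k
    · have hx0 : x i = 0 := by
        by_contra hne
        exact hi ⟨Finset.mem_univ _, hk, hne⟩
      exact (if_pos hk).trans hx0
    · exact if_neg hk
  · intro k i hi
    rw [Finset.mem_filter] at hi
    have h := hlev i hi.2.2
    rw [hi.2.1] at h
    exact ⟨⟨(norm_pos_iff.mpr hi.2.2).trans_le (hxσ i), h.1⟩, h.2⟩

/-- An identity for the constants. -/
theorem final_alg (K σ v w : ℝ) : K * σ * v * (1 / (1 - w)) = K * (v / (1 - w)) * σ := by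
  ring

/-- From estimates for vectors of comparable norms to type `p`. -/
theorem type_of_level {K a p : ℝ} (hK : 0 ≤ K) (ha0 : 0 ≤ a) (hp : 0 < p) (hpa : p * a < 1)
    (J : X →L[ℝ] Z) {n : ℕ} (hlev : ∀ (y : Fin n → X) (I : Finset (Fin n)) (t : ℝ), 0 ≤ t →
      (∀ i, i ∉ I → y i = 0) → (∀ i, ‖y i‖ ≤ t) →
      nrm2 (fun ε : Fin n → ℤˣ => ∑ i, sg (ε i) • J (y i)) ≤ K * t * (I.card : ℝ) ^ a)
    (x : Fin n → X) :
    nrm2 (fun ε : Fin n → ℤˣ => ∑ i, sg (ε i) • J (x i)) ≤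
      K * (2 ^ (p * a) / (1 - 2 ^ (p * a - 1))) * (∑ i, ‖x i‖ ^ p) ^ (1 / p) := by
  obtain ⟨S, hS⟩ : ∃ S : ℝ, S = ∑ i, ‖x i‖ ^ p := ⟨_, rfl⟩
  have hS0 : 0 ≤ S := by
    rw [hS]; exact Finset.sum_nonneg fun _ _ => by positivity
  obtain ⟨σ, hσ⟩ : ∃ σ : ℝ, σ = S ^ (1 / p) := ⟨_, rfl⟩
  have hσ0 : 0 ≤ σ := by rw [hσ]; exact Real.rpow_nonneg hS0 _
  have hσp : σ ^ p = S := by
    rw [hσ, ← Real.rpow_mul hS0, one_div_mul_cancel hp.ne', Real.rpow_one]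
  obtain ⟨M, I, y, hy1, hy2, hy3, hI⟩ := exists_levels hp x hS hσ
  rw [← hS, ← hσ]
  have hdecomp : (fun ε : Fin n → ℤˣ => ∑ i, sg (ε i) • J (x i)) =
      fun ε => ∑ k ∈ Finset.range M, ∑ i, sg (ε i) • J (y k i) := by
    funext ε
    rw [Finset.sum_comm]
    refine Finset.sum_congr rfl fun i _ => ?_
    rw [← Finset.smul_sum, ← map_sum, hy1]
  have h1 : nrm2 (fun ε : Fin n → ℤˣ => ∑ i, sg (ε i) • J (x i)) ≤
      ∑ k ∈ Finset.range M, nrm2 (fun ε : Fin n → ℤˣ => ∑ i, sg (ε i) • J (y k i)) := by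
    rw [hdecomp]
    exact nrm2_sum_le (Finset.range M) (fun k (ε : Fin n → ℤˣ) => ∑ i, sg (ε i) • J (y k i))
  have h2 : ∀ k ∈ Finset.range M, nrm2 (fun ε : Fin n → ℤˣ => ∑ i, sg (ε i) • J (y k i)) ≤
      K * σ * 2 ^ (p * a) * (2 ^ (p * a - 1)) ^ k := fun k _ =>
    block_ineq hK ha0 hp J hlev x hσ0 hS hσp k (I k) (y k) (hy2 k) (hy3 k) (hI k)
  have h3 := h1.trans (Finset.sum_le_sum h2)
  rw [← Finset.mul_sum] at h3
  have hρ0 : (0 : ℝ) < 2 ^ (p * a - 1) := Real.rpow_pos_of_pos (by norm_num) _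
  have hρ1 : (2 : ℝ) ^ (p * a - 1) < 1 :=
    Real.rpow_lt_one_of_one_lt_of_neg (by norm_num) (by linarith)
  have hK' : 0 ≤ K * σ * 2 ^ (p * a) :=
    mul_nonneg (mul_nonneg hK hσ0) (Real.rpow_nonneg (by norm_num) _)
  have h4 := h3.trans (mul_le_mul_of_nonneg_left (geom_le hρ0 hρ1 M) hK')
  rw [final_alg] at h4
  exact h4

/-- The constant in the main inequality. -/
noncomputable def kst (s C θ D p : ℝ) : ℝ :=
  D * (C + 1) ^ (1 - θ) * (2 ^ (p * (θ + (1 - θ) / s)) / (1 - 2 ^ (p * (θ + (1 - θ) / s) - 1)))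

/-- The main inequality: every bounded operator `J : X → Z` has type `p`. -/
theorem strong_type {s C θ D p : ℝ} (hs : 0 < s) (hC : 0 ≤ C) (hθ0 : 0 ≤ θ) (hθ1 : θ ≤ 1)
    (hD : 0 ≤ D) (hp : 0 < p) (hpa : p * (θ + (1 - θ) / s) < 1)
    (hX : LiftWith s C X) (hZ : RadTwo θ D Z) (J : X →L[ℝ] Z) {n : ℕ} (x : Fin n → X) :
    nrm2 (fun ε : Fin n → ℤˣ => ∑ i, sg (ε i) • J (x i)) ≤
      kst s C θ D p * ‖J‖ * (∑ i, ‖x i‖ ^ p) ^ (1 / p) := by
  have ha0 : 0 ≤ θ + (1 - θ) / s := by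
    have : 0 ≤ (1 - θ) / s := div_nonneg (by linarith) hs.le
    linarith
  have hK : 0 ≤ D * (C + 1) ^ (1 - θ) * ‖J‖ :=
    mul_nonneg (mul_nonneg hD (Real.rpow_nonneg (by linarith) _)) (norm_nonneg _)
  have h := type_of_level hK ha0 hp hpa J (n := n)
    (fun y I t ht hI hyt => level_ineq hs hC hθ0 hθ1 hD hX hZ J y I ht hI hyt) x
  refine h.trans (le_of_eq ?_)
  rw [kst]
  ring

end Vale.Agent.P111.R2.H351
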