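import Vale.Agent.P111.R2.H351.Main
import Vale.Agent.P111.R2.H351.Moments

/-! It is enough to test functions whose Rademacher part is nearly extremal. -/

namespace Vale.Agent.P111.R2.H351

open Vale.Agent.P111 Vale.Agent.P111.L1

universe u

variable {X : Type u} [NormedAddCommGroup X] [NormedSpace ℝ X]

theorem nrm2_rsum_le {n : ℕ} (x : Fin n → X) :
    nrm2 (fun ε : Fin n → ℤˣ => ∑ i, sg (ε i) • x i) ≤ ∑ i, ‖x i‖ := by
  have hS0 : 0 ≤ ∑ i, ‖x i‖ := Finset.sum_nonneg fun _ _ => norm_nonneg _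
  have h1 : (avg fun ε : Fin n → ℤˣ => ‖∑ i, sg (ε i) • x i‖ ^ 2) ≤ (∑ i, ‖x i‖) ^ 2 := by
    refine (avg_mono fun ε => ?_).trans (avg_const_le (c := (∑ i, ‖x i‖) ^ 2) (by positivity))
    refine pow_le_pow_left₀ (norm_nonneg _) ?_ 2
    refine (norm_sum_le _ _).trans (Finset.sum_le_sum fun i _ => ?_)
    rw [norm_smul, Real.norm_eq_abs, abs_sg, one_mul]
  rw [nrm2]
  calc _ ≤ ((∑ i, ‖x i‖) ^ 2) ^ (1 / 2 : ℝ) :=
        Real.rpow_le_rpow (avg_nonneg fun _ => by positivity) h1 (by norm_num)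
    _ = _ := by rw [← Real.sqrt_eq_rpow, Real.sqrt_sq hS0]

/-- The inequality `E ‖∑ ε_i x_i‖² ≤ β² m ∑ ‖x_i‖²` for `m` vectors. -/
def SubB (X : Type u) [NormedAddCommGroup X] [NormedSpace ℝ X] (m : ℕ) (β : ℝ) : Prop :=
  ∀ x : Fin m → X, (avg fun ε : Fin m → ℤˣ => ‖∑ i, sg (ε i) • x i‖ ^ 2) ≤
    β ^ 2 * (m * ∑ i, ‖x i‖ ^ 2)

/-- Marginals of the uniform distribution on a product. -/
theorem av_marginal {m : ℕ} {α : Type*} [Fintype α] [Nonempty α] (i : Fin m) (F : α → ℝ) :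
    (avg fun η : Fin m → α => F (η i)) = avg F := by
  classical
  have h1 := av_equiv (Equiv.funSplitAt i α)
    (fun p : α × ({j // j ≠ i} → α) => F p.1)
  have h2 : (avg fun η : Fin m → α => F (((Equiv.funSplitAt i α) η).1)) =
      avg fun η : Fin m → α => F (η i) := av_congr fun η => by simp
  rw [← h2, h1, av_prod]
  refine av_congr fun a => ?_
  exact av_const (Ω := {j // j ≠ i} → α) (F a)

theorem SubB.mul {m k : ℕ} {β γ : ℝ} (hm : SubB X m β) (hk : SubB X k γ) :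
    SubB X (m * k) (β * γ) := by
  intro x
  set e : Fin m × Fin k ≃ Fin (m * k) := finProdFinEquiv with he
  -- average over arrays
  let E : (Fin m → Fin k → ℤˣ) ≃ (Fin (m * k) → ℤˣ) :=
    (Equiv.curry (Fin m) (Fin k) ℤˣ).symm.trans (Equiv.arrowCongr e (Equiv.refl _))
  have hE : ∀ (η : Fin m → Fin k → ℤˣ) (i : Fin m) (j : Fin k), E η (e (i, j)) = η i j := by
    intro η i j
    simp [E]
  have h1 : (avg fun ε : Fin (m * k) → ℤˣ => ‖∑ i, sg (ε i) • x i‖ ^ 2) =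
      avg fun η : Fin m → Fin k → ℤˣ => ‖∑ i, ∑ j, sg (η i j) • x (e (i, j))‖ ^ 2 := by
    rw [← av_equiv E]
    refine av_congr fun η => ?_
    rw [← e.sum_comp, Fintype.sum_prod_type]
    simp_rw [hE]
  have h2 : ∀ θ : Fin m → ℤˣ,
      (avg fun η : Fin m → Fin k → ℤˣ => ‖∑ i, ∑ j, sg (η i j) • x (e (i, j))‖ ^ 2) =
      avg fun η : Fin m → Fin k → ℤˣ =>
        ‖∑ i, sg (θ i) • ∑ j, sg (η i j) • x (e (i, j))‖ ^ 2 := by
    intro θ
    let T : (Fin m → Fin k → ℤˣ) ≃ (Fin m → Fin k → ℤˣ) :=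
      Equiv.mulLeft fun i _ => θ i
    rw [← av_equiv T (fun η : Fin m → Fin k → ℤˣ =>
      ‖∑ i, ∑ j, sg (η i j) • x (e (i, j))‖ ^ 2)]
    refine av_congr fun η => ?_
    have h3 : ∀ i, ∑ j, sg ((T η) i j) • x (e (i, j)) =
        sg (θ i) • ∑ j, sg (η i j) • x (e (i, j)) := by
      intro i
      rw [Finset.smul_sum]
      refine Finset.sum_congr rfl fun j _ => ?_
      have h4 : (T η) i j = θ i * η i j := rfl
      rw [h4, smul_smul]
      congr 1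
      simp [sg]
    simp_rw [h3]
  have h5 : (avg fun η : Fin m → Fin k → ℤˣ => ‖∑ i, ∑ j, sg (η i j) • x (e (i, j))‖ ^ 2) =
      avg fun η : Fin m → Fin k → ℤˣ => avg fun θ : Fin m → ℤˣ =>
        ‖∑ i, sg (θ i) • ∑ j, sg (η i j) • x (e (i, j))‖ ^ 2 := by
    rw [av_comm]
    have h6 := av_const (Ω := Fin m → ℤˣ)
      (avg fun η : Fin m → Fin k → ℤˣ => ‖∑ i, ∑ j, sg (η i j) • x (e (i, j))‖ ^ 2)
    rw [← h6]
    exact av_congr fun θ => h2 θ
  rw [h1, h5]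
  have h7 : (avg fun η : Fin m → Fin k → ℤˣ => avg fun θ : Fin m → ℤˣ =>
        ‖∑ i, sg (θ i) • ∑ j, sg (η i j) • x (e (i, j))‖ ^ 2) ≤
      avg fun η : Fin m → Fin k → ℤˣ =>
        β ^ 2 * (m * ∑ i, ‖∑ j, sg (η i j) • x (e (i, j))‖ ^ 2) :=
    avg_mono fun η => hm fun i => ∑ j, sg (η i j) • x (e (i, j))
  refine h7.trans ?_
  rw [av_mul, av_mul, av_sum]
  have h8 : ∀ i, (avg fun η : Fin m → Fin k → ℤˣ =>
      ‖∑ j, sg (η i j) • x (e (i, j))‖ ^ 2) ≤ γ ^ 2 * (k * ∑ j, ‖x (e (i, j))‖ ^ 2) := by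
    intro i
    rw [av_marginal i fun ζ : Fin k → ℤˣ => ‖∑ j, sg (ζ j) • x (e (i, j))‖ ^ 2]
    exact hk fun j => x (e (i, j))
  have h9 : ∑ l, ‖x l‖ ^ 2 = ∑ i, ∑ j, ‖x (e (i, j))‖ ^ 2 := by
    rw [← e.sum_comp, Fintype.sum_prod_type]
  calc β ^ 2 * (m * ∑ i, avg fun η : Fin m → Fin k → ℤˣ =>
        ‖∑ j, sg (η i j) • x (e (i, j))‖ ^ 2)
      ≤ β ^ 2 * (m * ∑ i, γ ^ 2 * (k * ∑ j, ‖x (e (i, j))‖ ^ 2)) := by
        refine mul_le_mul_of_nonneg_left ?_ (by positivity)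
        refine mul_le_mul_of_nonneg_left ?_ (by positivity)
        exact Finset.sum_le_sum fun i _ => h8 i
    _ = (β * γ) ^ 2 * (((m * k : ℕ) : ℝ) * ∑ l, ‖x l‖ ^ 2) := by
        rw [h9, ← Finset.mul_sum, ← Finset.mul_sum]
        push_cast
        ring

theorem SubB.one : SubB X 1 1 := by
  intro x
  have h1 : ∀ ε : Fin 1 → ℤˣ, ‖∑ i, sg (ε i) • x i‖ ^ 2 = ∑ i, ‖x i‖ ^ 2 := by
    intro ε
    rw [Fin.sum_univ_one, Fin.sum_univ_one, norm_smul, Real.norm_eq_abs, abs_sg, one_mul]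
  rw [av_congr h1, av_const]
  simp

theorem SubB.pow {m : ℕ} {β : ℝ} (hm : SubB X m β) : ∀ k : ℕ, SubB X (m ^ k) (β ^ k) := by
  intro k
  induction k with
  | zero =>
    rw [pow_zero, pow_zero]
    exact SubB.one
  | succ k ih =>
    have h := ih.mul hm
    rwa [← pow_succ, ← pow_succ] at h

/-- Fewer vectors. -/
theorem SubB.restrict {m n : ℕ} {β : ℝ} (hm : SubB X m β) (hnm : n ≤ m) (x : Fin n → X) :
    (avg fun ε : Fin n → ℤˣ => ‖∑ i, sg (ε i) • x i‖ ^ 2) ≤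
      β ^ 2 * (m * ∑ i, ‖x i‖ ^ 2) := by
  classical
  obtain ⟨d, rfl⟩ := Nat.exists_eq_add_of_le hnm
  let e : Fin n ⊕ Fin d ≃ Fin (n + d) := finSumFinEquiv
  let y : Fin n ⊕ Fin d → X := Sum.elim x fun _ => 0
  have h1 := hm fun i => y (e.symm i)
  let E : (Fin n → ℤˣ) × (Fin d → ℤˣ) ≃ (Fin (n + d) → ℤˣ) :=
    (Equiv.sumArrowEquivProdArrow (Fin n) (Fin d) ℤˣ).symm.trans
      (Equiv.arrowCongr e (Equiv.refl _))
  have hE : ∀ (p : (Fin n → ℤˣ) × (Fin d → ℤˣ)) (s : Fin n ⊕ Fin d),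
      E p (e s) = Sum.elim p.1 p.2 s := by
    intro p s
    simp [E]
    rfl
  have h2 : (avg fun ε : Fin (n + d) → ℤˣ => ‖∑ i, sg (ε i) • y (e.symm i)‖ ^ 2) =
      avg fun ε : Fin n → ℤˣ => ‖∑ i, sg (ε i) • x i‖ ^ 2 := by
    rw [← av_equiv E, av_prod]
    refine av_congr fun ε => ?_
    rw [← av_const (Ω := Fin d → ℤˣ) (‖∑ i, sg (ε i) • x i‖ ^ 2)]
    refine av_congr fun ε' => ?_
    rw [← e.sum_comp, Fintype.sum_sum_type]
    simp_rw [hE]
    simp [y]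
  have h3 : ∑ i, ‖y (e.symm i)‖ ^ 2 = ∑ i, ‖x i‖ ^ 2 := by
    rw [← e.sum_comp, Fintype.sum_sum_type]
    simp [y]
  rw [h2, h3] at h1
  exact h1

/-- Families supported by a set with at most `m` elements. -/
theorem SubB.support {m n : ℕ} {β : ℝ} (hm : SubB X m β) (y : Fin n → X) (I : Finset (Fin n))
    (hI : ∀ i, i ∉ I → y i = 0) (hcard : I.card ≤ m) :
    (avg fun ε : Fin n → ℤˣ => ‖∑ i, sg (ε i) • y i‖ ^ 2) ≤ β ^ 2 * (m * ∑ i, ‖y i‖ ^ 2) := by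
  classical
  let e : Fin I.card ≃ {i // i ∈ I} := I.equivFin.symm
  have h1 := hm.restrict hcard fun j => y (e j)
  let E : (Fin n → ℤˣ) ≃ ({i // i ∈ I} → ℤˣ) × ({i // ¬ i ∈ I} → ℤˣ) :=
    Equiv.piEquivPiSubtypeProd (fun i => i ∈ I) (fun _ => ℤˣ)
  have hE : ∀ (ε : Fin n → ℤˣ) (i : {i // i ∈ I}), (E ε).1 i = ε i := fun _ _ => rfl
  have h2 : (avg fun ε : Fin n → ℤˣ => ‖∑ i, sg (ε i) • y i‖ ^ 2) =
      avg fun ζ : {i // i ∈ I} → ℤˣ => ‖∑ i : {i // i ∈ I}, sg (ζ i) • y i‖ ^ 2 := by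
    have h3 := av_equiv E (fun p : ({i // i ∈ I} → ℤˣ) × ({i // ¬ i ∈ I} → ℤˣ) =>
      ‖∑ i : {i // i ∈ I}, sg (p.1 i) • y i‖ ^ 2)
    rw [av_prod] at h3
    have h4 : (avg fun ζ : {i // i ∈ I} → ℤˣ => avg fun _ : {i // ¬ i ∈ I} → ℤˣ =>
        ‖∑ i : {i // i ∈ I}, sg (ζ i) • y i‖ ^ 2) =
        avg fun ζ : {i // i ∈ I} → ℤˣ => ‖∑ i : {i // i ∈ I}, sg (ζ i) • y i‖ ^ 2 :=
      av_congr fun ζ => av_const (Ω := {i // ¬ i ∈ I} → ℤˣ) _
    rw [← h4, ← h3]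
    refine av_congr fun ε => ?_
    congr 2
    simp_rw [hE]
    rw [Finset.sum_coe_sort I (fun i => sg (ε i) • y i)]
    symm
    refine Finset.sum_subset (Finset.subset_univ _) fun i _ hi => ?_
    rw [hI i hi, smul_zero]
  have h5 : (avg fun ζ : {i // i ∈ I} → ℤˣ => ‖∑ i : {i // i ∈ I}, sg (ζ i) • y i‖ ^ 2) =
      avg fun ε : Fin I.card → ℤˣ => ‖∑ j, sg (ε j) • y (e j)‖ ^ 2 := by
    rw [← av_equiv (Equiv.arrowCongr e (Equiv.refl ℤˣ))]
    refine av_congr fun ε => ?_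
    congr 2
    rw [← e.sum_comp]
    refine Finset.sum_congr rfl fun j _ => ?_
    simp
  have h6 : ∑ j, ‖y (e j)‖ ^ 2 = ∑ i, ‖y i‖ ^ 2 := by
    rw [e.sum_comp (fun i : {i // i ∈ I} => ‖y i‖ ^ 2),
      Finset.sum_coe_sort I (fun i => ‖y i‖ ^ 2)]
    refine Finset.sum_subset (Finset.subset_univ _) fun i _ hi => ?_
    rw [hI i hi]
    simp
  rw [h2, h5, ← h6]
  exact h1

/-- From one nontrivial inequality to a power gain. -/
theorem level_of_subB {m : ℕ} {β : ℝ} (h2 : 2 ≤ m) (hβ0 : 0 < β)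
    (hβ1 : β < 1) : ∃ a : ℝ, 0 ≤ a ∧ a < 1 ∧ ∀ (X : Type u) [NormedAddCommGroup X]
      [NormedSpace ℝ X], SubB X m β → ∀ (n : ℕ) (y : Fin n → X) (I : Finset (Fin n))
      (t : ℝ), 0 ≤ t → (∀ i, i ∉ I → y i = 0) → (∀ i, ‖y i‖ ≤ t) →
      nrm2 (fun ε : Fin n → ℤˣ => ∑ i, sg (ε i) • y i) ≤ √m * t * (I.card : ℝ) ^ a := by
  have hm1 : (1 : ℝ) < m := by
    have : (2 : ℝ) ≤ m := by exact_mod_cast h2
    linarith
  have hm0 : (0 : ℝ) < m := by linarith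
  have hlogm : 0 < Real.log m := Real.log_pos hm1
  have hlogβ : Real.log β < 0 := Real.log_neg hβ0 hβ1
  set γ : ℝ := min (-Real.log β / Real.log m) (1 / 2) with hγ
  have hγ0 : 0 < γ := lt_min (div_pos (by linarith) hlogm) (by norm_num)
  have hγ1 : γ ≤ 1 / 2 := min_le_right _ _
  have hβγ : β ≤ (m : ℝ) ^ (-γ) := by
    rw [← Real.log_le_log_iff hβ0 (by positivity), Real.log_rpow hm0]
    have h3 : γ ≤ -Real.log β / Real.log m := min_le_left _ _
    rw [le_div_iff₀ hlogm] at h3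
    linarith
  refine ⟨1 - γ, by linarith, by linarith, fun X _ _ hm n y I t ht hI hyt => ?_⟩
  rcases Finset.eq_empty_or_nonempty I with hIe | hIne
  · have hy0 : ∀ i, y i = 0 := fun i => hI i (by simp [hIe])
    have h5 : nrm2 (fun ε : Fin n → ℤˣ => ∑ i, sg (ε i) • y i) = 0 := by
      simp only [hy0, smul_zero, Finset.sum_const_zero]
      rw [nrm2]
      simp only [norm_zero, ne_eq, OfNat.ofNat_ne_zero, not_false_eq_true, zero_pow]
      rw [av_zero, Real.zero_rpow (by norm_num)]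
    rw [h5]
    positivity
  have hN1 : (1 : ℝ) ≤ I.card := by exact_mod_cast hIne.card_pos
  have hN0 : (0 : ℝ) < I.card := by linarith
  obtain ⟨k, hk1, hk2⟩ := exists_nat_pow_near hN1 hm1
  have hcard : I.card ≤ m ^ (k + 1) := by
    have : (I.card : ℝ) ≤ ((m ^ (k + 1) : ℕ) : ℝ) := by
      push_cast
      exact hk2.le
    exact_mod_cast this
  have h3 := (hm.pow (k + 1)).support y I hI hcard
  have h4 : ∑ i, ‖y i‖ ^ 2 ≤ I.card * t ^ 2 := by
    calc ∑ i, ‖y i‖ ^ 2 = ∑ i ∈ I, ‖y i‖ ^ 2 := by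
          symm
          refine Finset.sum_subset (Finset.subset_univ _) fun i _ hi => ?_
          rw [hI i hi]
          simp
      _ ≤ ∑ _i ∈ I, t ^ 2 := Finset.sum_le_sum fun i _ =>
          pow_le_pow_left₀ (norm_nonneg _) (hyt i) 2
      _ = I.card * t ^ 2 := by simp
  have h5 : β ^ (k + 1) ≤ (I.card : ℝ) ^ (-γ) := by
    calc β ^ (k + 1) ≤ ((m : ℝ) ^ (-γ)) ^ (k + 1) := pow_le_pow_left₀ hβ0.le hβγ _
      _ = ((m : ℝ) ^ (k + 1)) ^ (-γ) := by
          rw [← Real.rpow_natCast, ← Real.rpow_mul hm0.le, ← Real.rpow_natCast,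
            ← Real.rpow_mul hm0.le, mul_comm]
      _ ≤ (I.card : ℝ) ^ (-γ) :=
          Real.rpow_le_rpow_of_nonpos hN0 hk2.le (by linarith)
  have h6 : (((m ^ (k + 1) : ℕ) : ℝ)) ≤ m * I.card := by
    push_cast
    rw [pow_succ']
    exact mul_le_mul_of_nonneg_left hk1 hm0.le
  have h7 : (avg fun ε : Fin n → ℤˣ => ‖∑ i, sg (ε i) • y i‖ ^ 2) ≤
      (√m * t * (I.card : ℝ) ^ (1 - γ)) ^ 2 := by
    have h8 : ((I.card : ℝ) ^ (1 - γ)) ^ 2 = ((I.card : ℝ) ^ (-γ)) ^ 2 * (I.card : ℝ) ^ 2 := by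
      rw [← mul_pow]
      congr 1
      rw [sub_eq_add_neg, add_comm, Real.rpow_add hN0, Real.rpow_one]
    have h9 : √(m : ℝ) ^ 2 = m := Real.sq_sqrt hm0.le
    calc _ ≤ (β ^ (k + 1)) ^ 2 * (((m ^ (k + 1) : ℕ) : ℝ) * ∑ i, ‖y i‖ ^ 2) := h3
      _ ≤ ((I.card : ℝ) ^ (-γ)) ^ 2 * ((m * I.card) * (I.card * t ^ 2)) := by
          refine mul_le_mul (pow_le_pow_left₀ (by positivity) h5 2) ?_ (by positivity)
            (by positivity)
          exact mul_le_mul h6 h4 (by positivity) (by positivity)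
      _ = _ := by
          rw [mul_pow, mul_pow, h8, h9]
          ring
  rw [nrm2]
  calc _ ≤ ((√m * t * (I.card : ℝ) ^ (1 - γ)) ^ 2) ^ (1 / 2 : ℝ) :=
        Real.rpow_le_rpow (avg_nonneg fun _ => by positivity) h7 (by norm_num)
    _ = _ := by
        rw [← Real.sqrt_eq_rpow, Real.sqrt_sq (by positivity)]

/-- The near-extremal criterion gives one nontrivial inequality. -/
theorem subB_of_near {s C δ κ η : ℝ} (hs : 0 < s) (hC : 0 ≤ C) (hδ0 : 0 < δ) (hδ1 : δ < 1)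
    (hX : LiftWith s C X) (hnear : NearLift δ κ η X) {m : ℕ} (hm : 1 ≤ m)
    (hbig : (C + 1) * (m : ℝ) ^ (1 / s) < η * (m : ℝ) ^ (1 - κ)) :
    SubB X m (1 - (1 - δ) ^ 2 / 8) := by
  intro x
  have hm0 : (0 : ℝ) < m := by exact_mod_cast hm
  set β : ℝ := 1 - (1 - δ) ^ 2 / 8 with hβ
  have hβ0 : 0 < β := by rw [hβ]; nlinarith
  set Q : ℝ := ∑ i, ‖x i‖ ^ 2 with hQ
  have hQ0 : 0 ≤ Q := Finset.sum_nonneg fun _ _ => by positivity
  set R : ℝ := nrm2 (fun ε : Fin m → ℤˣ => ∑ i, sg (ε i) • x i) with hR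
  have hR0 : 0 ≤ R := nrm2_nonneg _
  have hRsq : (avg fun ε : Fin m → ℤˣ => ‖∑ i, sg (ε i) • x i‖ ^ 2) = R ^ 2 := (nrm2_sq _).symm
  have hRS : R ≤ ∑ i, ‖x i‖ := nrm2_rsum_le x
  rw [hRsq]
  by_contra hcon
  push Not at hcon
  rcases eq_or_lt_of_le hQ0 with hQ' | hQpos
  · have hx0 : ∀ i, x i = 0 := by
      intro i
      have h1 := (Finset.sum_eq_zero_iff_of_nonneg (s := (Finset.univ : Finset (Fin m)))
        (fun i _ => by positivity)).mp hQ'.symm i (Finset.mem_univ i)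
      exact norm_eq_zero.mp (pow_eq_zero_iff (two_ne_zero)|>.mp h1)
    have h2 : ∑ i, ‖x i‖ = 0 := Finset.sum_eq_zero fun i _ => by rw [hx0 i, norm_zero]
    have h3 : R = 0 := le_antisymm (by rw [← h2]; exact hRS) hR0
    rw [h3, ← hQ'] at hcon
    simp at hcon
  -- normalise
  set lam : ℝ := √(m / Q) with hlam
  have hlam0 : 0 < lam := Real.sqrt_pos.mpr (by positivity)
  have hlam2 : lam ^ 2 * Q = m := by
    rw [hlam, Real.sq_sqrt (by positivity)]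
    field_simp
  set a : Fin m → ℝ := fun i => lam * ‖x i‖ with ha
  have ha0 : ∀ i, 0 ≤ a i := fun i => by positivity
  have hasq : ∑ i, a i ^ 2 = m := by
    rw [← hlam2, hQ, Finset.mul_sum]
    exact Finset.sum_congr rfl fun i _ => by rw [ha]; ring
  have hlamR : β * m < lam * R := by
    have h1 : (β * m) ^ 2 < (lam * R) ^ 2 := by
      calc (β * m) ^ 2 = lam ^ 2 * (β ^ 2 * (m * Q)) := by
            have : lam ^ 2 * (β ^ 2 * (m * Q)) = β ^ 2 * m * (lam ^ 2 * Q) := by ring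
            rw [this, hlam2]
            ring
        _ < lam ^ 2 * R ^ 2 := mul_lt_mul_of_pos_left hcon (by positivity)
        _ = (lam * R) ^ 2 := by ring
    exact lt_of_pow_lt_pow_left₀ 2 (by positivity) h1
  have hsuma : β * m ≤ ∑ i, a i := by
    calc β * m ≤ lam * R := hlamR.le
      _ ≤ lam * ∑ i, ‖x i‖ := mul_le_mul_of_nonneg_left hRS hlam0.le
      _ = ∑ i, a i := by rw [Finset.mul_sum]
  -- truncation
  set y : Fin m → X := fun i => (lam / max 1 (a i)) • x i with hy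
  have hmax : ∀ i, 0 < max 1 (a i) := fun i => lt_max_of_lt_left one_pos
  have hy1 : ∀ i, ‖y i‖ ≤ 1 := by
    intro i
    rw [hy]
    simp only
    rw [norm_smul, Real.norm_of_nonneg (div_nonneg hlam0.le (hmax i).le), div_mul_eq_mul_div,
      div_le_one (hmax i)]
    exact le_max_right _ _
  have hdiff : ∀ i, ‖lam • x i - y i‖ ≤ |a i - 1| := by
    intro i
    have e1 : lam • x i - y i = (lam - lam / max 1 (a i)) • x i := by
      rw [hy]
      simp only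
      rw [sub_smul]
    have e2 : (lam - lam / max 1 (a i)) * ‖x i‖ = a i - a i / max 1 (a i) := by
      rw [ha]
      simp only
      ring
    have h1 : 0 ≤ lam - lam / max 1 (a i) := by
      rw [sub_nonneg]
      exact div_le_self hlam0.le (le_max_left _ _)
    rw [e1, norm_smul, Real.norm_of_nonneg h1, e2]
    rcases le_total (a i) 1 with h | h
    · rw [max_eq_left h, div_one, sub_self]
      exact abs_nonneg _
    · rw [max_eq_right h, div_self (by linarith)]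
      exact le_abs_self _
  have hsumdiff : ∑ i, |a i - 1| ≤ m * ((1 - δ) / 2) := by
    have h1 : (∑ i, |a i - 1|) ^ 2 ≤ m * ∑ i, (a i - 1) ^ 2 := by
      have h := sq_sum_le_card_mul_sum_sq (s := (Finset.univ : Finset (Fin m)))
        (f := fun i => |a i - 1|)
      rw [Finset.card_univ, Fintype.card_fin] at h
      simpa [sq_abs] using h
    have h2 : ∑ i, (a i - 1) ^ 2 ≤ 2 * m * (1 - β) := by
      have e : ∑ i, (a i - 1) ^ 2 = ∑ i, a i ^ 2 - 2 * ∑ i, a i + m := by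
        have : ∀ i, (a i - 1) ^ 2 = a i ^ 2 - 2 * a i + 1 := fun i => by ring
        simp_rw [this]
        rw [Finset.sum_add_distrib, Finset.sum_sub_distrib, ← Finset.mul_sum]
        simp
      rw [e, hasq]
      linarith
    have h3 : (∑ i, |a i - 1|) ^ 2 ≤ (m * ((1 - δ) / 2)) ^ 2 := by
      calc _ ≤ (m : ℝ) * ∑ i, (a i - 1) ^ 2 := h1
        _ ≤ (m : ℝ) * (2 * m * (1 - β)) := mul_le_mul_of_nonneg_left h2 hm0.le
        _ = _ := by rw [hβ]; ring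
    exact le_of_sq_le_sq h3 (mul_nonneg hm0.le (by linarith))
  have hyR : δ * m ≤ nrm2 (fun ε : Fin m → ℤˣ => ∑ i, sg (ε i) • y i) := by
    have h1 : lam * R ≤ nrm2 (fun ε : Fin m → ℤˣ => ∑ i, sg (ε i) • y i) +
        ∑ i, |a i - 1| := by
      have h2 : lam * R = nrm2 (fun ε : Fin m → ℤˣ => (∑ i, sg (ε i) • y i) +
          ∑ i, sg (ε i) • (lam • x i - y i)) := by
        rw [hR, ← abs_of_pos hlam0, ← nrm2_smul]
        congr 1
        funext ε
        rw [← Finset.sum_add_distrib, Finset.smul_sum, abs_of_pos hlam0]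
        refine Finset.sum_congr rfl fun i _ => ?_
        rw [← smul_add, add_sub_cancel, smul_comm]
      rw [h2]
      refine (nrm2_add_le _ _).trans ?_
      have h3 : nrm2 (fun ε : Fin m → ℤˣ => ∑ i, sg (ε i) • (lam • x i - y i)) ≤
          ∑ i, |a i - 1| :=
        (nrm2_rsum_le _).trans (Finset.sum_le_sum fun i _ => hdiff i)
      linarith
    have h4 : (1 - δ) ^ 2 ≤ 1 - δ := by nlinarith
    have h5 : β * m - m * ((1 - δ) / 2) ≥ δ * m := by
      rw [hβ]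
      nlinarith
    linarith
  -- the lifting
  have hA : (∑ i, ‖y i‖ ^ s) ^ (1 / s) ≤ (m : ℝ) ^ (1 / s) := by
    refine Real.rpow_le_rpow (Finset.sum_nonneg fun _ _ => by positivity) ?_ (by positivity)
    calc ∑ i, ‖y i‖ ^ s ≤ ∑ _i : Fin m, (1 : ℝ) := Finset.sum_le_sum fun i _ =>
          Real.rpow_le_one (norm_nonneg _) (hy1 i) hs.le
      _ = m := by simp
  have hmpos : 0 < (m : ℝ) ^ (1 / s) := Real.rpow_pos_of_pos hm0 _
  obtain ⟨g, hg1, hg2⟩ := hX m y ((C + 1) * (m : ℝ) ^ (1 / s)) (by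
    have := mul_le_mul_of_nonneg_left hA hC
    nlinarith)
  have h1 := hnear m g (fun i => by rw [hg1]; exact hy1 i) (by
    refine hyR.trans (le_of_eq ?_)
    rw [nrm2]
    congr 1
    refine av_congr fun ε => ?_
    rw [rad_eq]
    simp_rw [hg1])
  have h2 : η * (m : ℝ) ^ (1 - κ) ≤ (C + 1) * (m : ℝ) ^ (1 / s) := h1.trans hg2
  linarith

end Vale.Agent.P111.R2.H351
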