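import Vale.Agent.P111.R2.H351.Lift

/-! Splitting of coefficients and duality. -/

namespace Vale.Agent.P111.R2.H351

open Vale.Agent.P111 Vale.Agent.P111.L1

/-- The coefficients of a function `w` on the cube split into a small part and a part with
bounded signed sums. -/
def SplitWith (C : ℝ) (W : Type*) [NormedAddCommGroup W] [NormedSpace ℝ W] : Prop :=
  ∀ (n : ℕ) (w : (Fin n → ℤˣ) → W) (R t : ℝ), 0 < R → 0 < t → nrm2 w ≤ R →
    ∃ u v : Fin n → W, (∀ i, coef w i = u i + v i) ∧ (∀ i, ‖v i‖ ≤ C * t * R) ∧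
      ∀ ε : Fin n → ℤˣ, ‖∑ i, sg (ε i) • u i‖ ≤ C * R / t

variable {W : Type*} [NormedAddCommGroup W] [NormedSpace ℝ W]

theorem radOne_of_split {C : ℝ} (hC : 0 ≤ C) (hW : SplitWith C W) :
    RadOne (1 / 2) (2 * C) (W →L[ℝ] ℝ) := by
  intro n f
  set ψ : Fin n → W →L[ℝ] ℝ := coef f with hψ
  set Ψ : (Fin n → ℤˣ) → W →L[ℝ] ℝ := rad f with hΨ
  have hΨeq : ∀ ε, Ψ ε = ∑ i, sg (ε i) • ψ i := fun ε => rfl
  set R : ℝ := nrm2 Ψ with hR
  set a : ℝ := ∑ i, ‖coef f i‖ with ha
  set b : ℝ := avg fun ε => ‖f ε‖ with hb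
  have hR0 : 0 ≤ R := nrm2_nonneg _
  have ha0 : 0 ≤ a := Finset.sum_nonneg fun _ _ => norm_nonneg _
  have hb0 : 0 ≤ b := avg_nonneg fun _ => norm_nonneg _
  change R ≤ 2 * C * a ^ (1 / 2 : ℝ) * b ^ (1 - 1 / 2 : ℝ)
  have e : (1 - 1 / 2 : ℝ) = 1 / 2 := by norm_num
  rw [e, ← Real.sqrt_eq_rpow, ← Real.sqrt_eq_rpow]
  rcases eq_or_lt_of_le hR0 with h0 | hRpos
  · rw [← h0]; positivity
  -- the estimate for each parameter
  have key : ∀ t : ℝ, 0 < t → R ≤ C * (t * a + b / t) := by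
    intro t ht
    refine le_of_forall_pos_le_add fun δ hδ => ?_
    obtain ⟨w, hw1, hw2⟩ := exists_norming_fun Ψ (div_pos hδ hRpos)
    have hwR : nrm2 w ≤ R := nrm2_mono hw1
    obtain ⟨u, v, huv, hv, hu⟩ := hW n w R t hRpos ht hwR
    have h1 : (avg fun ε => Ψ ε (w ε)) = ∑ i, ψ i (u i) + ∑ i, ψ i (v i) := by
      rw [← Finset.sum_add_distrib]
      have := pairing ψ w
      have h2 : (avg fun ε => Ψ ε (w ε)) = ∑ i, ψ i (coef w i) := this.symm
      rw [h2]
      refine Finset.sum_congr rfl fun i _ => ?_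
      rw [huv, map_add]
    have h3 : ∑ i, ψ i (v i) ≤ a * (C * t * R) := by
      rw [ha, Finset.sum_mul]
      refine Finset.sum_le_sum fun i _ => ?_
      refine (le_abs_self _).trans (((ψ i).le_opNorm _).trans ?_)
      exact mul_le_mul_of_nonneg_left (hv i) (norm_nonneg _)
    have h4 : ∑ i, ψ i (u i) = avg fun ε : Fin n → ℤˣ => f ε (∑ i, sg (ε i) • u i) := by
      have h5 : ∀ i, ψ i (u i) = avg fun ε : Fin n → ℤˣ => sg (ε i) * f ε (u i) := by
        intro i
        have h6 : ψ i (u i) = (ContinuousLinearMap.apply ℝ ℝ (u i) : (W →L[ℝ] ℝ) →ₗ[ℝ] ℝ)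
            (avg fun ε : Fin n → ℤˣ => sg (ε i) • f ε) := rfl
        rw [h6, map_av]
        rfl
      simp_rw [h5]
      rw [← av_sum]
      refine av_congr fun ε => ?_
      rw [map_sum]
      refine Finset.sum_congr rfl fun i _ => ?_
      rw [map_smul, smul_eq_mul]
    have h7 : ∑ i, ψ i (u i) ≤ b * (C * R / t) := by
      rw [h4, hb, mul_comm, ← av_mul]
      refine avg_mono fun ε => ?_
      refine (le_abs_self _).trans (((f ε).le_opNorm _).trans ?_)
      rw [mul_comm]
      exact mul_le_mul_of_nonneg_right (hu ε) (norm_nonneg _)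
    rw [h1] at hw2
    have h8 : (1 - δ / R) * R ^ 2 = (R - δ) * R := by
      field_simp
    rw [h8] at hw2
    have h9 : (R - δ) * R ≤ (C * (t * a + b / t)) * R := by
      calc (R - δ) * R ≤ ∑ i, ψ i (u i) + ∑ i, ψ i (v i) := hw2
        _ ≤ b * (C * R / t) + a * (C * t * R) := add_le_add h7 h3
        _ = _ := by ring
    have h10 := le_of_mul_le_mul_right h9 hRpos
    linarith
  rcases eq_or_lt_of_le ha0 with h | hapos
  · -- all coefficients vanish
    exfalso
    have h1 : ∀ t : ℝ, 0 < t → R ≤ C * (b / t) := by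
      intro t ht
      have := key t ht
      rwa [← h, mul_zero, zero_add] at this
    have h2 := h1 ((C * b + 1) / (R / 2)) (by positivity)
    have h3 : C * (b / ((C * b + 1) / (R / 2))) = (C * b) / (C * b + 1) * (R / 2) := by
      field_simp
    rw [h3] at h2
    have h4 : (C * b) / (C * b + 1) ≤ 1 := by
      rw [div_le_one (by positivity)]; linarith
    nlinarith
  rcases eq_or_lt_of_le hb0 with h | hbpos
  · exfalso
    have h1 : a ≤ 0 := by
      rw [ha]
      refine Finset.sum_nonpos fun i _ => ?_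
      rw [h]
      exact norm_coef_le f i
    linarith
  have h1 := key (√b / √a) (by positivity)
  refine h1.trans (le_of_eq ?_)
  have hsa : √a * √a = a := Real.mul_self_sqrt ha0
  have hsb : √b * √b = b := Real.mul_self_sqrt hb0
  have hsa0 : √a ≠ 0 := (Real.sqrt_pos.mpr hapos).ne'
  have hsb0 : √b ≠ 0 := (Real.sqrt_pos.mpr hbpos).ne'
  have e1 : √b / √a * a = √a * √b := by
    calc √b / √a * a = √b / √a * (√a * √a) := by rw [hsa]
      _ = √a * √b := by field_simp
  have e2 : b / (√b / √a) = √a * √b := by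
    calc b / (√b / √a) = (√b * √b) / (√b / √a) := by rw [hsb]
      _ = √a * √b := by field_simp
  rw [e1, e2]
  ring

end Vale.Agent.P111.R2.H351
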